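import Vale.Agent.Lib.P064k.Conn

/-!
Chains of typed patterns: comparison with the plain chains through a gadget with triangles.
-/

namespace Vale.Agent.Lib.P064c

open Finset SimpleGraph Vale.Agent.Lib.P064 Vale.Agent.Lib.P064k
open scoped Classical Nat

set_option linter.unusedSectionVars false
set_option linter.unusedVariables false

universe u u'

/-- The number of chains for a core predicate. -/
noncomputable def ChP {R : Type*} (P : Finset R → Prop) : ℕ → Finset R → ℕ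
  | 0, W => if W = ∅ then 1 else 0
  | k + 1, W => ∑ K ∈ W.powerset.filter P, ChP P k K

/-- Comparison of chains under an injective monotone map sending the core predicate to `IsM`. -/
theorem ChP_le_Ch {R V : Type*} [Fintype V] (P : Finset R → Prop) (ι : Finset R → Finset (Sym2 V))
    (W₀ : Finset R) (hinj : ∀ K₁ ⊆ W₀, ∀ K₂ ⊆ W₀, ι K₁ = ι K₂ → K₁ = K₂)
    (hmono : ∀ K₁ K₂ : Finset R, K₁ ⊆ K₂ → ι K₁ ⊆ ι K₂)
    (hM : ∀ K ⊆ W₀, P K → IsM (ι K)) :
    ∀ (k : ℕ) (W : Finset R), W ⊆ W₀ → ChP P k W ≤ Ch (k + 1) (ι W) := by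
  intro k
  induction k with
  | zero =>
    intro W _
    have h1 : ChP P 0 W ≤ 1 := by
      simp only [ChP]
      split_ifs <;> omega
    refine h1.trans ?_
    simp only [Ch]
    have hM0 : IsM (∅ : Finset (Sym2 V)) := by
      intro x hx
      simp [vtx] at hx
    have hmem : (∅ : Finset (Sym2 V)) ∈ (ι W).powerset.filter IsM :=
      Finset.mem_filter.mpr ⟨Finset.empty_mem_powerset _, hM0⟩
    have h2 := Finset.single_le_sum (f := fun K : Finset (Sym2 V) => if K = ∅ then 1 else 0)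
      (fun _ _ => Nat.zero_le _) hmem
    simpa using h2
  | succ k ih =>
    intro W hW
    rw [ChP, Ch]
    calc ∑ K ∈ W.powerset.filter P, ChP P k K
        ≤ ∑ K ∈ W.powerset.filter P, Ch (k + 1) (ι K) :=
          Finset.sum_le_sum fun K hK =>
            ih K ((Finset.mem_powerset.mp (Finset.mem_filter.mp hK).1).trans hW)
      _ = ∑ K' ∈ (W.powerset.filter P).image ι, Ch (k + 1) K' := by
          rw [Finset.sum_image]
          intro K₁ h₁ K₂ h₂ h
          have h₁' := Finset.mem_coe.mp h₁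
          have h₂' := Finset.mem_coe.mp h₂
          exact hinj K₁ ((Finset.mem_powerset.mp (Finset.mem_filter.mp h₁').1).trans hW)
            K₂ ((Finset.mem_powerset.mp (Finset.mem_filter.mp h₂').1).trans hW) h
      _ ≤ ∑ K' ∈ (ι W).powerset.filter IsM, Ch (k + 1) K' := by
          refine Finset.sum_le_sum_of_subset_of_nonneg ?_ (fun _ _ _ => Nat.zero_le _)
          intro K' hK'
          obtain ⟨K, hK, rfl⟩ := Finset.mem_image.mp hK'
          rcases Finset.mem_filter.mp hK with ⟨h1, h2⟩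
          have h3 := Finset.mem_powerset.mp h1
          exact Finset.mem_filter.mpr
            ⟨Finset.mem_powerset.mpr (hmono _ _ h3), hM K (h3.trans hW) h2⟩

variable {Z : Type u} [Fintype Z]

/-- The vertices of the gadget graph: the old ones and four new ones per marked vertex. -/
abbrev ZG (Y : Finset Z) : Type u := Z ⊕ (↥Y × Fin 4)

/-- Adjacency in the gadget graph. -/
def gadAdj (F : SimpleGraph Z) (Y : Finset Z) : ZG Y → ZG Y → Prop
  | .inl a, .inl b => F.Adj a b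
  | .inl a, .inr p => a = p.1.1
  | .inr p, .inl a => a = p.1.1
  | .inr p, .inr q => p.1 = q.1 ∧ p.2 ≠ q.2 ∧ p.2.val / 2 = q.2.val / 2

/-- The gadget graph: two triangles at every marked vertex. -/
def gad (F : SimpleGraph Z) (Y : Finset Z) : SimpleGraph (ZG Y) where
  Adj := gadAdj F Y
  symm := ⟨by
    intro a b h
    rcases a with a | p <;> rcases b with b | q
    · exact (show F.Adj a b from h).symm
    · exact h
    · exact h
    · rcases h with ⟨h1, h2, h3⟩
      exact ⟨h1.symm, h2.symm, h3.symm⟩⟩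
  loopless := ⟨by
    intro a h
    rcases a with a | p
    · exact F.loopless.irrefl a h
    · exact h.2.1 rfl⟩

lemma gad_adj_inl {F : SimpleGraph Z} {Y : Finset Z} {a b : Z} :
    (gad F Y).Adj (Sum.inl a) (Sum.inl b) ↔ F.Adj a b := Iff.rfl

lemma gad_adj_hub (F : SimpleGraph Z) {Y : Finset Z} (y : ↥Y) (i : Fin 4) :
    (gad F Y).Adj (Sum.inl y.1) (Sum.inr (y, i)) := rfl

lemma gad_adj_new (F : SimpleGraph Z) {Y : Finset Z} (y : ↥Y) {i i' : Fin 4} (h : i ≠ i')
    (h' : i.val / 2 = i'.val / 2) : (gad F Y).Adj (Sum.inr (y, i)) (Sum.inr (y, i')) :=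
  ⟨rfl, h, h'⟩

/-- The first triangle at a marked vertex. -/
noncomputable def T1 {Y : Finset Z} (y : ↥Y) : Finset (Sym2 (ZG Y)) :=
  {s(Sum.inl y.1, Sum.inr (y, 0)), s(Sum.inl y.1, Sum.inr (y, 1)),
    s(Sum.inr (y, 0), Sum.inr (y, 1))}

/-- The second triangle at a marked vertex. -/
noncomputable def T2 {Y : Finset Z} (y : ↥Y) : Finset (Sym2 (ZG Y)) :=
  {s(Sum.inl y.1, Sum.inr (y, 2)), s(Sum.inl y.1, Sum.inr (y, 3)),
    s(Sum.inr (y, 2), Sum.inr (y, 3))}

lemma T1_edge {F : SimpleGraph Z} {Y : Finset Z} (y : ↥Y) {e : Sym2 (ZG Y)} (he : e ∈ T1 y) :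
    e ∈ (gad F Y).edgeSet := by
  simp only [T1, Finset.mem_insert, Finset.mem_singleton] at he
  rcases he with rfl | rfl | rfl
  · exact gad_adj_hub F y 0
  · exact gad_adj_hub F y 1
  · exact gad_adj_new F y (by decide) (by decide)

lemma T2_edge {F : SimpleGraph Z} {Y : Finset Z} (y : ↥Y) {e : Sym2 (ZG Y)} (he : e ∈ T2 y) :
    e ∈ (gad F Y).edgeSet := by
  simp only [T2, Finset.mem_insert, Finset.mem_singleton] at he
  rcases he with rfl | rfl | rfl
  · exact gad_adj_hub F y 2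
  · exact gad_adj_hub F y 3
  · exact gad_adj_new F y (by decide) (by decide)

lemma card_T1_le {Y : Finset Z} (y : ↥Y) : (T1 y).card ≤ 3 := Finset.card_le_three

lemma card_T2_le {Y : Finset Z} (y : ↥Y) : (T2 y).card ≤ 3 := Finset.card_le_three

/-- The gadget graph is connected. -/
theorem gad_connected {F : SimpleGraph Z} (hF : F.Connected) (Y : Finset Z) :
    (gad F Y).Connected := by
  obtain ⟨z₀⟩ := hF.nonempty
  have h1 : ∀ a b : Z, (gad F Y).Reachable (Sum.inl a) (Sum.inl b) := by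
    intro a b
    have hr := hF.preconnected a b
    let fm : F →g gad F Y := ⟨Sum.inl, fun {x y} h => gad_adj_inl.mpr h⟩
    exact hr.map fm
  have h2 : ∀ x : ZG Y, (gad F Y).Reachable x (Sum.inl z₀) := by
    intro x
    rcases x with a | p
    · exact h1 a z₀
    · have h3 : (gad F Y).Adj (Sum.inr p) (Sum.inl p.1.1) := (gad_adj_hub F p.1 p.2).symm
      exact h3.reachable.trans (h1 _ _)
  have : Nonempty (ZG Y) := ⟨Sum.inl z₀⟩
  exact ⟨fun x y => (h2 x).trans (h2 y).symm⟩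

lemma fin4_pair : ∀ i i' : Fin 4, i ≠ i' → i.val / 2 = i'.val / 2 →
    (i = 0 ∧ i' = 1) ∨ (i = 1 ∧ i' = 0) ∨ (i = 2 ∧ i' = 3) ∨ (i = 3 ∧ i' = 2) := by
  decide

lemma subset_imgE_id {A : Type*} (X : Finset (Sym2 A)) : X ⊆ imgE id X := by
  intro e he
  exact Finset.mem_image.mpr ⟨e, he, by simp⟩

lemma new_mem_T1 {Y : Finset Z} {y y' : ↥Y} {i : Fin 4} {e : Sym2 (ZG Y)} (he : e ∈ T1 y')
    (h : (Sum.inr (y, i) : ZG Y) ∈ e) : y = y' ∧ (i = 0 ∨ i = 1) := by
  simp only [T1, Finset.mem_insert, Finset.mem_singleton] at he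
  rcases he with rfl | rfl | rfl <;> simp at h <;> tauto

lemma new_mem_T2 {Y : Finset Z} {y y' : ↥Y} {i : Fin 4} {e : Sym2 (ZG Y)} (he : e ∈ T2 y')
    (h : (Sum.inr (y, i) : ZG Y) ∈ e) : y = y' ∧ (i = 2 ∨ i = 3) := by
  simp only [T2, Finset.mem_insert, Finset.mem_singleton] at he
  rcases he with rfl | rfl | rfl <;> simp at h <;> tauto

/-- The edges of the gadget graph. -/
lemma edgesF_gad_subset (F : SimpleGraph Z) (Y : Finset Z) :
    edgesF (gad F Y) ⊆ (edgesF F).image (Sym2.map Sum.inl) ∪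
      Y.attach.biUnion (fun y => T1 y ∪ T2 y) := by
  intro e he
  have he' := mem_edgesF.mp he
  induction e using Sym2.ind with
  | _ a b =>
    have hab : (gad F Y).Adj a b := he'
    have hT : ∀ (y : ↥Y) (e : Sym2 (ZG Y)), e ∈ T1 y ∪ T2 y → e ∈ (edgesF F).image (Sym2.map Sum.inl) ∪
        Y.attach.biUnion (fun y => T1 y ∪ T2 y) := fun y e h =>
      Finset.mem_union_right _ (Finset.mem_biUnion.mpr ⟨y, Finset.mem_attach _ _, h⟩)
    rcases a with a | ⟨y, i⟩ <;> rcases b with b | ⟨y', i'⟩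
    · refine Finset.mem_union_left _ (Finset.mem_image.mpr ⟨s(a, b), mem_edgesF.mpr ?_, rfl⟩)
      exact hab
    · have h1 : a = y'.1 := hab
      subst h1
      refine hT y' _ ?_
      fin_cases i' <;> simp [T1, T2]
    · have h1 : b = y.1 := hab
      subst h1
      refine hT y _ ?_
      rw [Sym2.eq_swap]
      fin_cases i <;> simp [T1, T2]
    · rcases hab with ⟨h1, h2, h3⟩
      have h1' : y = y' := h1
      subst h1'
      refine hT y _ ?_
      have h4 : (i = 0 ∧ i' = 1) ∨ (i = 1 ∧ i' = 0) ∨ (i = 2 ∧ i' = 3) ∨ (i = 3 ∧ i' = 2) :=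
        fin4_pair i i' h2 h3
      rcases h4 with ⟨rfl, rfl⟩ | ⟨rfl, rfl⟩ | ⟨rfl, rfl⟩ | ⟨rfl, rfl⟩
      · exact Finset.mem_union_left _ (by simp [T1])
      · rw [Sym2.eq_swap]
        exact Finset.mem_union_left _ (by simp [T1])
      · exact Finset.mem_union_right _ (by simp [T2])
      · rw [Sym2.eq_swap]
        exact Finset.mem_union_right _ (by simp [T2])

/-- The number of edges of the gadget graph. -/
theorem numEdges_gad_le (F : SimpleGraph Z) (Y : Finset Z) :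
    numEdges (gad F Y) ≤ numEdges F + 6 * Y.card := by
  rw [← card_edgesF, ← card_edgesF]
  refine (Finset.card_le_card (edgesF_gad_subset F Y)).trans ?_
  refine (Finset.card_union_le _ _).trans ?_
  refine Nat.add_le_add Finset.card_image_le ?_
  have h1 : ∀ y ∈ Y.attach, (T1 y ∪ T2 y).card ≤ 6 := fun y _ =>
    (Finset.card_union_le _ _).trans (Nat.add_le_add (card_T1_le y) (card_T2_le y))
  have h2 := Finset.card_biUnion_le_card_mul Y.attach (fun y => T1 y ∪ T2 y) 6 h1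
  rw [Finset.card_attach] at h2
  omega

/-- The number of independent cycles of the gadget graph. -/
theorem cyc_gad_le {F : SimpleGraph Z} (hF : F.Connected) (Y : Finset Z) :
    cyc (gad F Y) ≤ cyc F + 2 * Y.card := by
  have h1 := numEdges_gad_le F Y
  have h2 := card_le_of_connected hF
  have h3 : Fintype.card (ZG Y) = Fintype.card Z + Y.card * 4 := by
    simp [ZG, Fintype.card_sum, Fintype.card_prod]
  unfold cyc
  rw [h3]
  omega

variable {U : Type u'}

/-- The typed point of a vertex of the pattern. -/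
def ptJ (j : Z → U) (γ : Z → ℕ) (z : Z) : U × ℕ := (j z, γ z)

lemma ptJ_inj {j : Z → U} (hj : Function.Injective j) (γ : Z → ℕ) :
    Function.Injective (ptJ j γ) := fun a b h => hj (Prod.ext_iff.mp h).1

/-- The marked vertices of a colouring. -/
noncomputable def hubsOf (γ : Z → ℕ) : Finset Z := Finset.univ.filter (fun z => γ z ≠ 0)

/-- The typed pattern of a graph: typed edges and a loop at every marked vertex. -/
noncomputable def patW (j : Z → U) (γ : Z → ℕ) (F : SimpleGraph Z) : Finset (Sym2 (U × ℕ)) :=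
  (edgesF F).image (Sym2.map (ptJ j γ)) ∪
    (hubsOf γ).image (fun z => s(ptJ j γ z, ptJ j γ z))

/-- The map from typed sets to sets of pairs of the gadget. -/
noncomputable def gadI (j : Z → U) (γ : Z → ℕ) (F : SimpleGraph Z) (K : Finset (Sym2 (U × ℕ))) :
    Finset (Sym2 (ZG (hubsOf γ))) :=
  ((edgesF F).filter (fun e => Sym2.map (ptJ j γ) e ∈ K)).image (Sym2.map Sum.inl) ∪
    ((hubsOf γ).attach.filter (fun y => s(ptJ j γ y.1, ptJ j γ y.1) ∈ K)).biUnion T2 ∪
    (hubsOf γ).attach.biUnion T1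

lemma mem_gadI {j : Z → U} {γ : Z → ℕ} {F : SimpleGraph Z} {K : Finset (Sym2 (U × ℕ))}
    {e : Sym2 (ZG (hubsOf γ))} :
    e ∈ gadI j γ F K ↔ (∃ e₀ ∈ F.edgeSet, Sym2.map (ptJ j γ) e₀ ∈ K ∧ Sym2.map Sum.inl e₀ = e) ∨
      (∃ y : ↥(hubsOf γ), s(ptJ j γ y.1, ptJ j γ y.1) ∈ K ∧ e ∈ T2 y) ∨
      (∃ y : ↥(hubsOf γ), e ∈ T1 y) := by
  simp only [gadI, Finset.mem_union, Finset.mem_image, Finset.mem_filter, mem_edgesF,
    Finset.mem_biUnion, Finset.mem_attach, true_and, or_assoc]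
  constructor
  · rintro (⟨e₀, ⟨h1, h2⟩, h3⟩ | h | h)
    · exact Or.inl ⟨e₀, h1, h2, h3⟩
    · exact Or.inr (Or.inl h)
    · exact Or.inr (Or.inr h)
  · rintro (⟨e₀, h1, h2, h3⟩ | h | h)
    · exact Or.inl ⟨e₀, ⟨h1, h2⟩, h3⟩
    · exact Or.inr (Or.inl h)
    · exact Or.inr (Or.inr h)

lemma gadI_mono {j : Z → U} {γ : Z → ℕ} {F : SimpleGraph Z} {K₁ K₂ : Finset (Sym2 (U × ℕ))}
    (h : K₁ ⊆ K₂) : gadI j γ F K₁ ⊆ gadI j γ F K₂ := by
  intro e he
  rcases mem_gadI.mp he with ⟨e₀, h1, h2, h3⟩ | ⟨y, h1, h2⟩ | h1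
  · exact mem_gadI.mpr (Or.inl ⟨e₀, h1, h h2, h3⟩)
  · exact mem_gadI.mpr (Or.inr (Or.inl ⟨y, h h1, h2⟩))
  · exact mem_gadI.mpr (Or.inr (Or.inr h1))

lemma gadI_edge {j : Z → U} {γ : Z → ℕ} {F : SimpleGraph Z} {K : Finset (Sym2 (U × ℕ))}
    {e : Sym2 (ZG (hubsOf γ))} (he : e ∈ gadI j γ F K) : e ∈ (gad F (hubsOf γ)).edgeSet := by
  rcases mem_gadI.mp he with ⟨e₀, h1, h2, rfl⟩ | ⟨y, h1, h2⟩ | ⟨y, h1⟩
  · induction e₀ using Sym2.ind with
    | _ a b =>
      show (gad F (hubsOf γ)).Adj (Sum.inl a) (Sum.inl b)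
      exact h1
  · exact T2_edge y h2
  · exact T1_edge y h1

/-- An element of a triangle has a new vertex. -/
lemma T_new {Y : Finset Z} {y : ↥Y} {e : Sym2 (ZG Y)} (he : e ∈ T1 y ∨ e ∈ T2 y) :
    ∃ p : ↥Y × Fin 4, (Sum.inr p : ZG Y) ∈ e := by
  rcases he with he | he
  · simp only [T1, Finset.mem_insert, Finset.mem_singleton] at he
    rcases he with rfl | rfl | rfl
    · exact ⟨(y, 0), by simp⟩
    · exact ⟨(y, 1), by simp⟩
    · exact ⟨(y, 0), by simp⟩
  · simp only [T2, Finset.mem_insert, Finset.mem_singleton] at he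
    rcases he with rfl | rfl | rfl
    · exact ⟨(y, 2), by simp⟩
    · exact ⟨(y, 3), by simp⟩
    · exact ⟨(y, 2), by simp⟩

lemma map_inl_no_new {Y : Finset Z} {e₀ : Sym2 Z} {p : ↥Y × Fin 4} :
    (Sum.inr p : ZG Y) ∉ Sym2.map Sum.inl e₀ := by
  intro h
  obtain ⟨a, _, ha⟩ := Sym2.mem_map.mp h
  cases ha

/-- The map to the gadget is injective. -/
theorem gadI_inj {j : Z → U} (hj : Function.Injective j) {γ : Z → ℕ} {F : SimpleGraph Z}
    {K₁ K₂ : Finset (Sym2 (U × ℕ))} (h₁ : K₁ ⊆ patW j γ F) (h₂ : K₂ ⊆ patW j γ F)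
    (h : gadI j γ F K₁ = gadI j γ F K₂) : K₁ = K₂ := by
  have hJ := ptJ_inj hj γ
  have key : ∀ K K' : Finset (Sym2 (U × ℕ)), K ⊆ patW j γ F → gadI j γ F K = gadI j γ F K' →
      K ⊆ K' := by
    intro K K' hK hEq r hr
    rcases Finset.mem_union.mp (hK hr) with h1 | h1
    · obtain ⟨e₀, he₀, rfl⟩ := Finset.mem_image.mp h1
      have h2 : Sym2.map Sum.inl e₀ ∈ gadI j γ F K :=
        mem_gadI.mpr (Or.inl ⟨e₀, mem_edgesF.mp he₀, hr, rfl⟩)
      rw [hEq] at h2
      rcases mem_gadI.mp h2 with ⟨e₁, h3, h4, h5⟩ | ⟨y, h3, h4⟩ | ⟨y, h3⟩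
      · have h6 : e₁ = e₀ := Sym2.map.injective Sum.inl_injective h5
        rwa [h6] at h4
      · obtain ⟨p, hp⟩ := T_new (Or.inr h4)
        exact absurd hp map_inl_no_new
      · obtain ⟨p, hp⟩ := T_new (Or.inl h3)
        exact absurd hp map_inl_no_new
    · obtain ⟨z, hz, rfl⟩ := Finset.mem_image.mp h1
      set y : ↥(hubsOf γ) := ⟨z, hz⟩ with hy
      have h2 : s((Sum.inr (y, 2) : ZG (hubsOf γ)), Sum.inr (y, 3)) ∈ gadI j γ F K :=
        mem_gadI.mpr (Or.inr (Or.inl ⟨y, hr, by simp [T2]⟩))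
      rw [hEq] at h2
      rcases mem_gadI.mp h2 with ⟨e₁, h3, h4, h5⟩ | ⟨y', h3, h4⟩ | ⟨y', h3⟩
      · have h6 : (Sum.inr (y, 2) : ZG (hubsOf γ)) ∈ Sym2.map Sum.inl e₁ := by
          rw [h5]; simp
        exact absurd h6 map_inl_no_new
      · simp only [T2, Finset.mem_insert, Finset.mem_singleton] at h4
        have hyy : y' = y := by
          simp_all
        rw [hyy] at h3
        exact h3
      · simp only [T1, Finset.mem_insert, Finset.mem_singleton] at h3
        simp_all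
  exact Finset.Subset.antisymm (key _ _ h₁ h) (key _ _ h₂ h.symm)

/-- The core property needed from a predicate on typed sets: every point of colour zero in a pair
lies in at least two pairs. -/
def LowTwice (K : Finset (Sym2 (U × ℕ))) : Prop :=
  ∀ (x : U), ∀ e ∈ K, (x, 0) ∈ e → 2 ≤ (K.filter (fun e => (x, 0) ∈ e)).card

/-- Two distinct pairs in the gadget set at any covered vertex. -/
theorem gadI_isM {j : Z → U} (hj : Function.Injective j) {γ : Z → ℕ} {F : SimpleGraph Z}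
    {K : Finset (Sym2 (U × ℕ))} (hK : K ⊆ patW j γ F) (hL : LowTwice K) :
    IsM (gadI j γ F K) := by
  have hJ := ptJ_inj hj γ
  intro x hx
  obtain ⟨e, he, hxe⟩ := mem_vtx.mp hx
  have two : ∀ a b : Sym2 (ZG (hubsOf γ)), a ∈ gadI j γ F K → b ∈ gadI j γ F K → a ≠ b → x ∈ a →
      x ∈ b → 2 ≤ (at' (gadI j γ F K) x).card := by
    intro a b ha hb hab hxa hxb
    exact Finset.one_lt_card.mpr ⟨a, mem_at'.mpr ⟨ha, hxa⟩, b, mem_at'.mpr ⟨hb, hxb⟩, hab⟩
  have hT1 : ∀ (y : ↥(hubsOf γ)) (a : Sym2 (ZG (hubsOf γ))), a ∈ T1 y → a ∈ gadI j γ F K :=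
    fun y a ha => mem_gadI.mpr (Or.inr (Or.inr ⟨y, ha⟩))
  rcases x with z | ⟨y, i⟩
  · by_cases hz : z ∈ hubsOf γ
    · -- a marked old vertex: the first triangle
      set y : ↥(hubsOf γ) := ⟨z, hz⟩ with hy
      refine two s(Sum.inl y.1, Sum.inr (y, 0)) s(Sum.inl y.1, Sum.inr (y, 1))
        (hT1 y _ (by simp [T1])) (hT1 y _ (by simp [T1])) ?_ (by simp [hy]) (by simp [hy])
      simp
    · -- a colour zero vertex
      have hγ : γ z = 0 := by
        by_contra h
        exact hz (Finset.mem_filter.mpr ⟨Finset.mem_univ _, h⟩)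
      have hpt : ptJ j γ z = (j z, 0) := by simp [ptJ, hγ]
      -- the pair is a base pair
      have hbase : ∃ e₀ ∈ F.edgeSet, Sym2.map (ptJ j γ) e₀ ∈ K ∧ z ∈ e₀ := by
        rcases mem_gadI.mp he with ⟨e₀, h1, h2, rfl⟩ | ⟨y, h1, h2⟩ | ⟨y, h1⟩
        · obtain ⟨a, ha, hae⟩ := Sym2.mem_map.mp hxe
          have : a = z := Sum.inl_injective hae
          exact ⟨e₀, h1, h2, this ▸ ha⟩
        · exfalso
          simp only [T2, Finset.mem_insert, Finset.mem_singleton] at h2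
          have hzy : z = y.1 := by
            rcases h2 with rfl | rfl | rfl <;> simp_all
          exact hz (hzy ▸ y.2)
        · exfalso
          simp only [T1, Finset.mem_insert, Finset.mem_singleton] at h1
          have hzy : z = y.1 := by
            rcases h1 with rfl | rfl | rfl <;> simp_all
          exact hz (hzy ▸ y.2)
      obtain ⟨e₀, h1, h2, h3⟩ := hbase
      have h4 : (j z, 0) ∈ Sym2.map (ptJ j γ) e₀ :=
        Sym2.mem_map.mpr ⟨z, h3, hpt⟩
      have h5 := hL (j z) _ h2 h4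
      obtain ⟨r₁, hr₁, r₂, hr₂, hne⟩ := Finset.one_lt_card.mp h5
      rcases Finset.mem_filter.mp hr₁ with ⟨hr₁K, hr₁z⟩
      rcases Finset.mem_filter.mp hr₂ with ⟨hr₂K, hr₂z⟩
      -- pairs of the pattern at the point `(j z, 0)` are base pairs
      have hform : ∀ r ∈ K, (j z, 0) ∈ r → ∃ e' ∈ F.edgeSet, Sym2.map (ptJ j γ) e' = r ∧ z ∈ e' := by
        intro r hr hzr
        rcases Finset.mem_union.mp (hK hr) with h6 | h6
        · obtain ⟨e', he', rfl⟩ := Finset.mem_image.mp h6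
          obtain ⟨a, ha, hae⟩ := Sym2.mem_map.mp hzr
          have haz : a = z := hj (Prod.ext_iff.mp hae).1
          exact ⟨e', mem_edgesF.mp he', rfl, haz ▸ ha⟩
        · exfalso
          obtain ⟨w, hw, rfl⟩ := Finset.mem_image.mp h6
          have hw' : γ w ≠ 0 := (Finset.mem_filter.mp hw).2
          have h7 : (j z, 0) = ptJ j γ w := by
            simpa using hzr
          have h8 : (0 : ℕ) = γ w := (Prod.ext_iff.mp h7).2
          exact hw' h8.symm
      obtain ⟨e₁, he₁, hm₁, hz₁⟩ := hform r₁ hr₁K hr₁z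
      obtain ⟨e₂, he₂, hm₂, hz₂⟩ := hform r₂ hr₂K hr₂z
      refine two (Sym2.map Sum.inl e₁) (Sym2.map Sum.inl e₂)
        (mem_gadI.mpr (Or.inl ⟨e₁, he₁, hm₁ ▸ hr₁K, rfl⟩))
        (mem_gadI.mpr (Or.inl ⟨e₂, he₂, hm₂ ▸ hr₂K, rfl⟩)) ?_
        (Sym2.mem_map.mpr ⟨z, hz₁, rfl⟩) (Sym2.mem_map.mpr ⟨z, hz₂, rfl⟩)
      intro h6
      have h7 : e₁ = e₂ := Sym2.map.injective Sum.inl_injective h6
      exact hne (by rw [← hm₁, ← hm₂, h7])
  · -- a new vertex
    have hi : i = 0 ∨ i = 1 ∨ i = 2 ∨ i = 3 := by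
      fin_cases i <;> simp
    have hT2 : (i = 2 ∨ i = 3) → s(ptJ j γ y.1, ptJ j γ y.1) ∈ K := by
      intro hi2
      rcases mem_gadI.mp he with ⟨e₀, h1, h2, rfl⟩ | ⟨y', h1, h2⟩ | ⟨y', h1⟩
      · exact absurd hxe map_inl_no_new
      · have hyy := (new_mem_T2 h2 hxe).1
        exact hyy ▸ h1
      · exfalso
        have h3 := (new_mem_T1 h1 hxe).2
        rcases hi2 with rfl | rfl <;> rcases h3 with h3 | h3 <;> exact absurd h3 (by decide)
    rcases hi with rfl | rfl | rfl | rfl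
    · refine two s(Sum.inl y.1, Sum.inr (y, 0)) s(Sum.inr (y, 0), Sum.inr (y, 1))
        (hT1 y _ (by simp [T1])) (hT1 y _ (by simp [T1])) ?_ (by simp) (by simp)
      simp
    · refine two s(Sum.inl y.1, Sum.inr (y, 1)) s(Sum.inr (y, 0), Sum.inr (y, 1))
        (hT1 y _ (by simp [T1])) (hT1 y _ (by simp [T1])) ?_ (by simp) (by simp)
      simp
    · have hl := hT2 (Or.inl rfl)
      refine two s(Sum.inl y.1, Sum.inr (y, 2)) s(Sum.inr (y, 2), Sum.inr (y, 3))
        (mem_gadI.mpr (Or.inr (Or.inl ⟨y, hl, by simp [T2]⟩)))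
        (mem_gadI.mpr (Or.inr (Or.inl ⟨y, hl, by simp [T2]⟩))) ?_ (by simp) (by simp)
      simp
    · have hl := hT2 (Or.inr rfl)
      refine two s(Sum.inl y.1, Sum.inr (y, 3)) s(Sum.inr (y, 2), Sum.inr (y, 3))
        (mem_gadI.mpr (Or.inr (Or.inl ⟨y, hl, by simp [T2]⟩)))
        (mem_gadI.mpr (Or.inr (Or.inl ⟨y, hl, by simp [T2]⟩))) ?_ (by simp) (by simp)
      simp

/-- The bound for chains of a typed pattern of a connected graph. -/
theorem ChP_bound {F : SimpleGraph Z} (hF : F.Connected) {j : Z → U} (hj : Function.Injective j)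
    (γ : Z → ℕ) (P : Finset (Sym2 (U × ℕ)) → Prop) (hP : ∀ K, P K → LowTwice K) {k : ℕ}
    (hk : 1 ≤ k) :
    ChP P k (patW j γ F) ≤
      32 ^ (numEdges F + 6 * (hubsOf γ).card) * k ^ (2 * cyc F + 4 * (hubsOf γ).card - 1) := by
  set Y := hubsOf γ with hY
  set W := patW j γ F with hW
  have h1 := ChP_le_Ch P (gadI j γ F) W (fun K₁ h₁ K₂ h₂ h => gadI_inj hj h₁ h₂ h)
    (fun _ _ h => gadI_mono h) (fun K hK hPK => gadI_isM hj hK (hP K hPK)) k W
    (Finset.Subset.refl _)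
  refine h1.trans ?_
  have hsub : ∀ K ⊆ gadI j γ F W, K ⊆ imgE id (edgesF (gad F Y)) := by
    intro K hK e he
    exact subset_imgE_id _ (mem_edgesF.mpr (gadI_edge (hK he)))
  have hnd : NoDiag (gadI j γ F W) := fun e he =>
    (gad F Y).not_isDiag_of_mem_edgeSet (gadI_edge he)
  have hb := Ch_bound hnd hk (cm := 2 * cyc (gad F Y) - 1) (fun K hK hM c ν h2 h3 h4 =>
    cm_conn (gad_connected hF Y) (j := id) Function.injective_id (hsub K hK) hM h2 h3 h4)
  refine hb.trans ?_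
  have hc : (gadI j γ F W).card ≤ numEdges F + 6 * Y.card := by
    refine le_trans ?_ (numEdges_gad_le F Y)
    rw [← card_edgesF]
    refine Finset.card_le_card fun e he => mem_edgesF.mpr (gadI_edge he)
  have hcy := cyc_gad_le hF Y
  refine Nat.mul_le_mul (Nat.pow_le_pow_right (by norm_num) hc) (Nat.pow_le_pow_right hk ?_)
  omega

end Vale.Agent.Lib.P064c
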