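import Vale.Agent.Lib.P064c.TPerm

/-!
Removal of pendant typed pairs and isolated marks, and the chain of extremal subsets.
-/

namespace Vale.Agent.Lib.P064c

open Finset
open scoped Classical Nat

set_option linter.unusedSectionVars false
set_option linter.unusedVariables false

variable {U : Type*} [Fintype U]

/-- The vertices covered by a set of typed pairs. -/
noncomputable def vtxT (B : Finset (Sym2 (U × ℕ))) : Finset U :=
  B.biUnion (fun e => e.toFinset.image Prod.fst)

lemma mem_vtxT {B : Finset (Sym2 (U × ℕ))} {x : U} : x ∈ vtxT B ↔ ∃ e ∈ B, ∃ t, (x, t) ∈ e := by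
  simp only [vtxT, Finset.mem_biUnion, Finset.mem_image, Sym2.mem_toFinset, Prod.exists,
    exists_and_right, exists_eq_right]

lemma vtxT_mono {B B' : Finset (Sym2 (U × ℕ))} (h : B ⊆ B') : vtxT B ⊆ vtxT B' :=
  Finset.biUnion_subset_biUnion_of_subset_left _ h

/-- The pairs of `B` at the typed point `p`. -/
noncomputable def atT (B : Finset (Sym2 (U × ℕ))) (p : U × ℕ) : Finset (Sym2 (U × ℕ)) :=
  B.filter (fun e => p ∈ e)

lemma mem_atT {B : Finset (Sym2 (U × ℕ))} {p : U × ℕ} {e : Sym2 (U × ℕ)} :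
    e ∈ atT B p ↔ e ∈ B ∧ p ∈ e := by
  simp [atT]

/-- The loops (marks) of colour `t`. -/
noncomputable def loopsT (B : Finset (Sym2 (U × ℕ))) (t : ℕ) : Finset (Sym2 (U × ℕ)) :=
  B.filter (fun e => ∃ v, e = s((v, t), (v, t)))

/-- All points of `W` carry the colour given by `γ`. -/
def Cons (γ : U → ℕ) (W : Finset (Sym2 (U × ℕ))) : Prop := ∀ e ∈ W, ∀ p ∈ e, p.2 = γ p.1

/-- No loop of colour `0`. -/
def NoZL (W : Finset (Sym2 (U × ℕ))) : Prop := ∀ x : U, s((x, 0), (x, 0)) ∉ W

lemma Cons.mono {γ : U → ℕ} {W W' : Finset (Sym2 (U × ℕ))} (h : W ⊆ W') (hW : Cons γ W') :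
    Cons γ W := fun e he => hW e (h he)

lemma NoZL.mono {W W' : Finset (Sym2 (U × ℕ))} (h : W ⊆ W') (hW : NoZL W') : NoZL W :=
  fun x hx => hW x (h hx)

/-- The core class: points of colour `0` lie in at least two pairs, and every loop shares its
vertex with a pair which is not a loop. -/
def IsMT (K : Finset (Sym2 (U × ℕ))) : Prop :=
  (∀ e ∈ K, ∀ p ∈ e, p.2 = 0 → 2 ≤ (atT K p).card) ∧
  (∀ x t, s((x, t), (x, t)) ∈ K → ∃ f ∈ K, ¬ f.IsDiag ∧ (x, t) ∈ f)

lemma isMT_empty : IsMT (∅ : Finset (Sym2 (U × ℕ))) := by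
  constructor
  · intro e he
    simp at he
  · intro x t h
    simp at h

/-- A permutation swapping two vertices off the pairs fixes the pairs. -/
lemma tmap_swap_fix {z w : U} {e : Sym2 (U × ℕ)} (h : ∀ p ∈ e, p.1 ≠ z ∧ p.1 ≠ w) :
    tmap (Equiv.swap z w) e = e := by
  induction e using Sym2.ind with
  | _ a b =>
    have ha := h a (Sym2.mem_mk_left a b)
    have hb := h b (Sym2.mem_mk_right a b)
    rw [tmap_mk, Equiv.swap_apply_of_ne_of_ne ha.1 ha.2, Equiv.swap_apply_of_ne_of_ne hb.1 hb.2]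

/-- The counting step for a pendant pair. -/
theorem leaf_countT {G A : Finset (Sym2 (U × ℕ))} {D i j : ℕ} {y z : U}
    (hD : ∀ v, (atT G (v, i)).card ≤ D)
    (hyz : y ≠ z) (he : s((y, i), (z, j)) ∈ A) (hz : z ∉ vtxT (A.erase s((y, i), (z, j))))
    {X : Finset U} (hX : X = insert y (vtxT (A.erase s((y, i), (z, j))))) :
    mt G A * (Xᶜ).card ≤ mt G (A.erase s((y, i), (z, j))) * D := by
  set e := s((y, i), (z, j)) with he'
  have hzX : z ∉ X := by
    rw [hX]
    simp only [Finset.mem_insert, not_or]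
    exact ⟨hyz.symm, hz⟩
  have hyX : y ∈ X := by
    rw [hX]
    exact Finset.mem_insert_self _ _
  set P₁ := (intoT G A) ×ˢ (Xᶜ) with hP₁
  set P₂ := (intoT G (A.erase e)).sigma
    (fun σ => (Xᶜ).filter (fun w => s((σ y, i), (σ w, j)) ∈ G)) with hP₂
  have hcard : P₁.card ≤ P₂.card := by
    refine Finset.card_le_card_of_injOn
      (fun a => (⟨a.1 * Equiv.swap z a.2, a.2⟩ : Σ _ : Equiv.Perm U, U)) ?_ ?_
    · rintro ⟨σ, w⟩ hσw
      have hσw' := Finset.mem_coe.mp hσw
      rcases Finset.mem_product.mp hσw' with ⟨h1, h2⟩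
      have hw : w ∉ X := by simpa using h2
      have hwy : y ≠ w := fun h => hw (h ▸ hyX)
      refine Finset.mem_coe.mpr (Finset.mem_sigma.mpr ⟨?_, ?_⟩)
      · refine mem_intoT.mpr fun e' he'' => ?_
        rw [tmap_mul]
        have hfix : tmap (Equiv.swap z w) e' = e' := by
          refine tmap_swap_fix fun p hp => ?_
          have ha' : p.1 ∈ vtxT (A.erase e) := mem_vtxT.mpr ⟨e', he'', p.2, hp⟩
          refine ⟨fun h => hz (h ▸ ha'), fun h => hw ?_⟩
          rw [hX, ← h]
          exact Finset.mem_insert_of_mem ha'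
        rw [hfix]
        exact mem_intoT.mp h1 e' (Finset.mem_of_mem_erase he'')
      · refine Finset.mem_filter.mpr ⟨h2, ?_⟩
        have h3 := mem_intoT.mp h1 e he
        have h4 : (σ * Equiv.swap z w) y = σ y := by
          simp [Equiv.swap_apply_of_ne_of_ne hyz hwy]
        have h5 : (σ * Equiv.swap z w) w = σ z := by simp
        simp only [h4, h5]
        rw [he', tmap_mk] at h3
        exact h3
    · rintro ⟨σ, w⟩ _ ⟨σ', w'⟩ _ h
      simp only [Sigma.mk.injEq, heq_eq_eq] at h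
      rcases h with ⟨h1, h2⟩
      subst h2
      have h3 := mul_right_cancel h1
      rw [h3]
  rw [hP₁, Finset.card_product] at hcard
  refine hcard.trans ?_
  rw [hP₂, Finset.card_sigma]
  have h6 : ∀ σ ∈ intoT G (A.erase e),
      ((Xᶜ).filter (fun w => s((σ y, i), (σ w, j)) ∈ G)).card ≤ D := by
    intro σ _
    refine le_trans ?_ (hD (σ y))
    refine Finset.card_le_card_of_injOn (fun w => s((σ y, i), (σ w, j))) ?_ ?_
    · intro w hw
      have hw' := Finset.mem_coe.mp hw
      exact Finset.mem_coe.mpr (mem_atT.mpr ⟨(Finset.mem_filter.mp hw').2, Sym2.mem_mk_left _ _⟩)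
    · intro w _ w' _ h
      have h1 : s((σ y, i), (σ w, j)) = s((σ y, i), (σ w', j)) := h
      have h2 := Sym2.congr_right.mp h1
      exact σ.injective (congrArg Prod.fst h2)
  calc ∑ σ ∈ intoT G (A.erase e), ((Xᶜ).filter (fun w => s((σ y, i), (σ w, j)) ∈ G)).card
      ≤ ∑ _σ ∈ intoT G (A.erase e), D := Finset.sum_le_sum h6
    _ = _ := by rw [Finset.sum_const, smul_eq_mul]; rfl

/-- The counting step for an isolated mark. -/
theorem mark_countT {G A : Finset (Sym2 (U × ℕ))} {t : ℕ} {z : U}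
    (he : s((z, t), (z, t)) ∈ A) (hz : z ∉ vtxT (A.erase s((z, t), (z, t))))
    {X : Finset U} (hX : X = vtxT (A.erase s((z, t), (z, t)))) :
    mt G A * (Xᶜ).card ≤ mt G (A.erase s((z, t), (z, t))) * (loopsT G t).card := by
  set e := s((z, t), (z, t)) with he'
  have hzX : z ∉ X := by
    rw [hX]
    exact hz
  set P₁ := (intoT G A) ×ˢ (Xᶜ) with hP₁
  set P₂ := (intoT G (A.erase e)).sigma
    (fun σ => (Xᶜ).filter (fun w => s((σ w, t), (σ w, t)) ∈ G)) with hP₂
  have hcard : P₁.card ≤ P₂.card := by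
    refine Finset.card_le_card_of_injOn
      (fun a => (⟨a.1 * Equiv.swap z a.2, a.2⟩ : Σ _ : Equiv.Perm U, U)) ?_ ?_
    · rintro ⟨σ, w⟩ hσw
      have hσw' := Finset.mem_coe.mp hσw
      rcases Finset.mem_product.mp hσw' with ⟨h1, h2⟩
      have hw : w ∉ X := by simpa using h2
      refine Finset.mem_coe.mpr (Finset.mem_sigma.mpr ⟨?_, ?_⟩)
      · refine mem_intoT.mpr fun e' he'' => ?_
        rw [tmap_mul]
        have hfix : tmap (Equiv.swap z w) e' = e' := by
          refine tmap_swap_fix fun p hp => ?_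
          have ha' : p.1 ∈ vtxT (A.erase e) := mem_vtxT.mpr ⟨e', he'', p.2, hp⟩
          refine ⟨fun h => hz (h ▸ ha'), fun h => hw ?_⟩
          rw [hX, ← h]
          exact ha'
        rw [hfix]
        exact mem_intoT.mp h1 e' (Finset.mem_of_mem_erase he'')
      · refine Finset.mem_filter.mpr ⟨h2, ?_⟩
        have h3 := mem_intoT.mp h1 e he
        have h5 : (σ * Equiv.swap z w) w = σ z := by simp
        simp only [h5]
        rw [he', tmap_mk] at h3
        exact h3
    · rintro ⟨σ, w⟩ _ ⟨σ', w'⟩ _ h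
      simp only [Sigma.mk.injEq, heq_eq_eq] at h
      rcases h with ⟨h1, h2⟩
      subst h2
      have h3 := mul_right_cancel h1
      rw [h3]
  rw [hP₁, Finset.card_product] at hcard
  refine hcard.trans ?_
  rw [hP₂, Finset.card_sigma]
  have h6 : ∀ σ ∈ intoT G (A.erase e),
      ((Xᶜ).filter (fun w => s((σ w, t), (σ w, t)) ∈ G)).card ≤ (loopsT G t).card := by
    intro σ _
    refine Finset.card_le_card_of_injOn (fun w => s((σ w, t), (σ w, t))) ?_ ?_
    · intro w hw
      have hw' := Finset.mem_coe.mp hw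
      exact Finset.mem_coe.mpr (Finset.mem_filter.mpr ⟨(Finset.mem_filter.mp hw').2, σ w, rfl⟩)
    · intro w _ w' _ h
      have h1 : s((σ w, t), (σ w, t)) = s((σ w', t), (σ w', t)) := h
      have h2 : (σ w, t) = (σ w', t) := by
        have h3 : (σ w, t) ∈ s((σ w', t), (σ w', t)) := h1 ▸ Sym2.mem_mk_left _ _
        rcases Sym2.mem_iff.mp h3 with h4 | h4 <;> exact h4
      exact σ.injective (congrArg Prod.fst h2)
  calc ∑ σ ∈ intoT G (A.erase e), ((Xᶜ).filter (fun w => s((σ w, t), (σ w, t)) ∈ G)).card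
      ≤ ∑ _σ ∈ intoT G (A.erase e), (loopsT G t).card := Finset.sum_le_sum h6
    _ = _ := by rw [Finset.sum_const, smul_eq_mul]; rfl

/-- If `A` goes into `G` then its vertices go into the vertices of `G`. -/
lemma vtxT_card_le_of_mt {G A : Finset (Sym2 (U × ℕ))} (h : mt G A ≠ 0) :
    (vtxT A).card ≤ (vtxT G).card := by
  obtain ⟨σ, hσ⟩ := Finset.card_pos.mp (Nat.pos_of_ne_zero h)
  refine Finset.card_le_card_of_injOn σ ?_ (fun _ _ _ _ h' => σ.injective h')
  intro x hx
  obtain ⟨e, he, t, hxe⟩ := mem_vtxT.mp (Finset.mem_coe.mp hx)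
  refine Finset.mem_coe.mpr (mem_vtxT.mpr ⟨_, mem_intoT.mp hσ e he, t, ?_⟩)
  exact Sym2.mem_map.mpr ⟨(x, t), hxe, rfl⟩

/-- Removal of a pendant pair, in real form. -/
theorem leaf_realT {G A : Finset (Sym2 (U × ℕ))} {D n i j : ℕ} {y z : U} (hn : 0 < n)
    (hD : ∀ v, (atT G (v, i)).card ≤ D) (hG : (vtxT G).card ≤ n) (hN : 2 * n ≤ Fintype.card U)
    (hyz : y ≠ z) (he : s((y, i), (z, j)) ∈ A) (hz : z ∉ vtxT (A.erase s((y, i), (z, j)))) :
    (mt G A : ℝ) ≤ ((D : ℝ) / n) * (mt G (A.erase s((y, i), (z, j))) : ℝ) := by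
  have hn' : (0 : ℝ) < n := by exact_mod_cast hn
  by_cases h0 : mt G A = 0
  · rw [h0]
    simp only [Nat.cast_zero]
    positivity
  · set X := insert y (vtxT (A.erase s((y, i), (z, j)))) with hX
    have h1 := leaf_countT hD hyz he hz hX
    have hXA : X ⊆ vtxT A := by
      intro x hx
      rcases Finset.mem_insert.mp hx with rfl | hx'
      · exact mem_vtxT.mpr ⟨_, he, i, Sym2.mem_mk_left _ _⟩
      · exact vtxT_mono (Finset.erase_subset _ _) hx'
    have h2 : X.card ≤ n := (Finset.card_le_card hXA).trans ((vtxT_card_le_of_mt h0).trans hG)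
    have h3 : n ≤ (Xᶜ).card := by
      rw [Finset.card_compl]
      omega
    have h4 : mt G A * n ≤ mt G (A.erase s((y, i), (z, j))) * D :=
      (Nat.mul_le_mul_left _ h3).trans h1
    have h5 : (mt G A : ℝ) * n ≤ (mt G (A.erase s((y, i), (z, j))) : ℝ) * D := by exact_mod_cast h4
    rw [div_mul_eq_mul_div, le_div_iff₀ hn']
    linarith

/-- Removal of an isolated mark, in real form. -/
theorem mark_realT {G A : Finset (Sym2 (U × ℕ))} {n t : ℕ} {z : U} (hn : 0 < n)
    (hG : (vtxT G).card ≤ n) (hN : 2 * n ≤ Fintype.card U)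
    (he : s((z, t), (z, t)) ∈ A) (hz : z ∉ vtxT (A.erase s((z, t), (z, t)))) :
    (mt G A : ℝ) ≤ (((loopsT G t).card : ℝ) / n) * (mt G (A.erase s((z, t), (z, t))) : ℝ) := by
  have hn' : (0 : ℝ) < n := by exact_mod_cast hn
  by_cases h0 : mt G A = 0
  · rw [h0]
    simp only [Nat.cast_zero]
    positivity
  · set X := vtxT (A.erase s((z, t), (z, t))) with hX
    have h1 := mark_countT (G := G) he hz hX
    have hXA : X ⊆ vtxT A := vtxT_mono (Finset.erase_subset _ _)
    have h2 : X.card ≤ n := (Finset.card_le_card hXA).trans ((vtxT_card_le_of_mt h0).trans hG)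
    have h3 : n ≤ (Xᶜ).card := by
      rw [Finset.card_compl]
      omega
    have h4 : mt G A * n ≤ mt G (A.erase s((z, t), (z, t))) * (loopsT G t).card :=
      (Nat.mul_le_mul_left _ h3).trans h1
    have h5 : (mt G A : ℝ) * n ≤ (mt G (A.erase s((z, t), (z, t))) : ℝ) * ((loopsT G t).card : ℝ) := by
      exact_mod_cast h4
    rw [div_mul_eq_mul_div, le_div_iff₀ hn']
    linarith

/-- A set of typed pairs which is not in the class has a removable element. -/
lemma exists_removable {γ : U → ℕ} {A : Finset (Sym2 (U × ℕ))} (hc : Cons γ A) (hz : NoZL A)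
    (h : ¬ IsMT A) :
    (∃ y i z, y ≠ z ∧ s((y, i), (z, 0)) ∈ A ∧ z ∉ vtxT (A.erase s((y, i), (z, 0)))) ∨
    (∃ z t, s((z, t), (z, t)) ∈ A ∧ z ∉ vtxT (A.erase s((z, t), (z, t)))) := by
  unfold IsMT at h
  rw [not_and_or] at h
  rcases h with h | h
  · left
    push Not at h
    obtain ⟨e, he, p, hp, hp0, hc2⟩ := h
    have h2 : e ∈ atT A p := mem_atT.mpr ⟨he, hp⟩
    have h1 : atT A p = {e} := by
      have h3 : (atT A p).card = 1 := by
        have : 0 < (atT A p).card := Finset.card_pos.mpr ⟨e, h2⟩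
        omega
      obtain ⟨a, ha⟩ := Finset.card_eq_one.mp h3
      rw [ha] at h2 ⊢
      rw [Finset.mem_singleton.mp h2]
    obtain ⟨q, rfl⟩ := Sym2.mem_iff_exists.mp hp
    obtain ⟨z, t⟩ := p
    simp only at hp0
    subst hp0
    obtain ⟨y, i⟩ := q
    have hz0 : γ z = 0 := (hc _ he (z, 0) (Sym2.mem_mk_left _ _)).symm
    have hyi : i = γ y := hc _ he (y, i) (Sym2.mem_mk_right _ _)
    have hyz : y ≠ z := by
      rintro rfl
      have hi : i = 0 := by rw [hyi, hz0]
      subst hi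
      exact hz y he
    refine ⟨y, i, z, hyz, ?_, ?_⟩
    · rw [Sym2.eq_swap]
      exact he
    · intro hm
      obtain ⟨e', he', t', hz'⟩ := mem_vtxT.mp hm
      have he'A := Finset.mem_of_mem_erase he'
      have ht' : t' = 0 := by
        have := hc _ he'A (z, t') hz'
        simp only at this
        rw [this, hz0]
      subst ht'
      have h3 : e' ∈ atT A (z, 0) := mem_atT.mpr ⟨he'A, hz'⟩
      rw [h1, Finset.mem_singleton] at h3
      rw [h3] at he'
      exact (Finset.ne_of_mem_erase he') Sym2.eq_swap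
  · right
    push Not at h
    obtain ⟨z, t, he, hno⟩ := h
    refine ⟨z, t, he, ?_⟩
    intro hm
    obtain ⟨e', he', t', hz'⟩ := mem_vtxT.mp hm
    have he'A := Finset.mem_of_mem_erase he'
    have ht : t = γ z := hc _ he (z, t) (Sym2.mem_mk_left _ _)
    have ht' : t' = t := by
      have := hc _ he'A (z, t') hz'
      simp only at this
      rw [this, ht]
    subst ht'
    by_cases hd : e'.IsDiag
    · -- another loop at the same point is the same loop
      obtain ⟨q, rfl⟩ := Sym2.mem_iff_exists.mp hz'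
      have hq : q = (z, t') := by
        simpa using hd.symm
      rw [hq] at he'
      exact Finset.ne_of_mem_erase he' rfl
    · exact hno e' he'A hd hz'

/-- Removal of all pendant pairs and isolated marks. -/
theorem pendT {γ : U → ℕ} {G : Finset (Sym2 (U × ℕ))} {D : ℕ → ℕ} {n : ℕ} {ω : Sym2 (U × ℕ) → ℝ}
    (hn : 0 < n) (hω : ∀ r, 0 < ω r)
    (hD : ∀ v i, (atT G (v, i)).card ≤ D i) (hG : (vtxT G).card ≤ n) (hN : 2 * n ≤ Fintype.card U)
    (hleaf : ∀ y i z, y ≠ z → (D i : ℝ) / n ≤ ω s((y, i), (z, 0)))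
    (hmark : ∀ z t, ((loopsT G t).card : ℝ) / n ≤ ω s((z, t), (z, t))) :
    ∀ (m : ℕ) (A : Finset (Sym2 (U × ℕ))), A.card = m → Cons γ A → NoZL A →
      (mt G A : ℝ) ≤ ∑ K ∈ A.powerset.filter IsMT, Om ω (A \ K) * (mt G K : ℝ) := by
  have hom : ∀ S : Finset (Sym2 (U × ℕ)), 0 ≤ Om ω S := fun S => (Om_pos hω S).le
  -- the induction step, for a removable element
  have hstep : ∀ (A : Finset (Sym2 (U × ℕ))) (r : Sym2 (U × ℕ)), r ∈ A →
      (mt G A : ℝ) ≤ ω r * (mt G (A.erase r) : ℝ) →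
      (mt G (A.erase r) : ℝ) ≤ ∑ K ∈ (A.erase r).powerset.filter IsMT,
        Om ω (A.erase r \ K) * (mt G K : ℝ) →
      (mt G A : ℝ) ≤ ∑ K ∈ A.powerset.filter IsMT, Om ω (A \ K) * (mt G K : ℝ) := by
    intro A r hr h1 h2
    refine h1.trans ?_
    refine (mul_le_mul_of_nonneg_left h2 (hω r).le).trans ?_
    rw [Finset.mul_sum]
    have hsub : (A.erase r).powerset.filter IsMT ⊆ A.powerset.filter IsMT := by
      intro K hK
      rcases Finset.mem_filter.mp hK with ⟨h3, h4⟩
      exact Finset.mem_filter.mpr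
        ⟨Finset.mem_powerset.mpr ((Finset.mem_powerset.mp h3).trans (Finset.erase_subset _ _)), h4⟩
    refine le_trans (le_of_eq ?_) (Finset.sum_le_sum_of_subset_of_nonneg hsub
      (fun K _ _ => mul_nonneg (hom _) (Nat.cast_nonneg _)))
    refine Finset.sum_congr rfl fun K hK => ?_
    have hK' : K ⊆ A.erase r := Finset.mem_powerset.mp (Finset.mem_filter.mp hK).1
    have hrK : r ∉ K := fun h => (Finset.mem_erase.mp (hK' h)).1 rfl
    have hAK : A \ K = insert r (A.erase r \ K) := by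
      ext e
      simp only [Finset.mem_sdiff, Finset.mem_insert, Finset.mem_erase]
      constructor
      · rintro ⟨h5, h6⟩
        by_cases h7 : e = r
        · exact Or.inl h7
        · exact Or.inr ⟨⟨h7, h5⟩, h6⟩
      · rintro (rfl | ⟨⟨_, h5⟩, h6⟩)
        · exact ⟨hr, hrK⟩
        · exact ⟨h5, h6⟩
    rw [hAK]
    unfold Om
    rw [Finset.prod_insert (by simp)]
    ring
  intro m
  induction m with
  | zero =>
    intro A hA _ _
    have hA0 : A = ∅ := Finset.card_eq_zero.mp hA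
    subst hA0
    have h1 : (∅ : Finset (Sym2 (U × ℕ))) ∈ (∅ : Finset (Sym2 (U × ℕ))).powerset.filter IsMT :=
      Finset.mem_filter.mpr ⟨Finset.mem_powerset_self _, isMT_empty⟩
    have h2 := Finset.single_le_sum
      (f := fun K => Om ω ((∅ : Finset (Sym2 (U × ℕ))) \ K) * (mt G K : ℝ))
      (fun K _ => mul_nonneg (hom _) (Nat.cast_nonneg _)) h1
    simpa [Om] using h2
  | succ m ih =>
    intro A hA hc hz
    by_cases hM : IsMT A
    · have h1 : A ∈ A.powerset.filter IsMT :=
        Finset.mem_filter.mpr ⟨Finset.mem_powerset_self A, hM⟩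
      have h2 := Finset.single_le_sum (f := fun K => Om ω (A \ K) * (mt G K : ℝ))
        (fun K _ => mul_nonneg (hom _) (Nat.cast_nonneg _)) h1
      simpa [Om] using h2
    · rcases exists_removable hc hz hM with ⟨y, i, z, hyz, he, hz'⟩ | ⟨z, t, he, hz'⟩
      · have h1 := leaf_realT hn (hD · i) hG hN hyz he hz'
        have hcard : (A.erase s((y, i), (z, 0))).card = m := by
          rw [Finset.card_erase_of_mem he, hA]
          rfl
        have h2 := ih _ hcard (Cons.mono (Finset.erase_subset _ _) hc)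
          (NoZL.mono (Finset.erase_subset _ _) hz)
        refine hstep A _ he ?_ h2
        exact h1.trans (mul_le_mul_of_nonneg_right (hleaf y i z hyz) (Nat.cast_nonneg _))
      · have h1 := mark_realT hn hG hN he hz'
        have hcard : (A.erase s((z, t), (z, t))).card = m := by
          rw [Finset.card_erase_of_mem he, hA]
          rfl
        have h2 := ih _ hcard (Cons.mono (Finset.erase_subset _ _) hc)
          (NoZL.mono (Finset.erase_subset _ _) hz)
        refine hstep A _ he ?_ h2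
        exact h1.trans (mul_le_mul_of_nonneg_right (hmark z t) (Nat.cast_nonneg _))

/-- The number of sets between `K` and `W`. -/
lemma card_between {W K : Finset (Sym2 (U × ℕ))} (hK : K ⊆ W) :
    (W.powerset.filter (fun A => K ⊆ A)).card = 2 ^ (W \ K).card := by
  rw [← Finset.card_powerset]
  refine Finset.card_nbij' (fun A => A \ K) (fun B => B ∪ K) ?_ ?_ ?_ ?_
  · intro A hA
    rcases Finset.mem_filter.mp (Finset.mem_coe.mp hA) with ⟨h3, h4⟩
    exact Finset.mem_coe.mpr
      (Finset.mem_powerset.mpr (Finset.sdiff_subset_sdiff (Finset.mem_powerset.mp h3) le_rfl))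
  · intro B hB
    have h3 := Finset.mem_powerset.mp (Finset.mem_coe.mp hB)
    refine Finset.mem_coe.mpr (Finset.mem_filter.mpr ⟨Finset.mem_powerset.mpr ?_,
      Finset.subset_union_right⟩)
    exact Finset.union_subset (h3.trans Finset.sdiff_subset) hK
  · intro A hA
    rcases Finset.mem_filter.mp (Finset.mem_coe.mp hA) with ⟨h3, h4⟩
    exact Finset.sdiff_union_of_subset h4
  · intro B hB
    have h3 := Finset.mem_powerset.mp (Finset.mem_coe.mp hB)
    refine Finset.union_sdiff_cancel_right ?_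
    exact Finset.disjoint_of_subset_left h3 Finset.sdiff_disjoint

/-- One step of the chain: from `G` to its extremal subset `F`. -/
theorem step_T {γ : U → ℕ} {G F : Finset (Sym2 (U × ℕ))} {D : ℕ → ℕ} {n : ℕ}
    {ω : Sym2 (U × ℕ) → ℝ} (hn : 0 < n) (hω : ∀ r, 0 < ω r)
    (hinv : ∀ (σ : Equiv.Perm U) r, ω (tmap σ r) = ω r) (hFG : F ⊆ G)
    (hF : ∀ S : Finset (Sym2 (U × ℕ)), (mt G S : ℝ) * Om ω F ≤ (mt G F : ℝ) * Om ω S)
    (hpos : 0 < mt G F)
    (hD : ∀ v i, (atT F (v, i)).card ≤ D i) (hFv : (vtxT F).card ≤ n)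
    (hN : 2 * n ≤ Fintype.card U)
    (hleaf : ∀ y i z, y ≠ z → (D i : ℝ) / n ≤ ω s((y, i), (z, 0)))
    (hmark : ∀ z t, ((loopsT F t).card : ℝ) / n ≤ ω s((z, t), (z, t)))
    {W : Finset (Sym2 (U × ℕ))} (hc : Cons γ W) (hz : NoZL W) :
    (mt G W : ℝ) ≤ ∑ K ∈ W.powerset.filter IsMT,
      (2 : ℝ) ^ (W \ K).card * Om ω (W \ K) * (mt F K : ℝ) := by
  have h1 := plantedT hω hinv hFG hF hpos W
  refine h1.trans ?_
  have hom : ∀ S : Finset (Sym2 (U × ℕ)), 0 ≤ Om ω S := fun S => (Om_pos hω S).le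
  have h2 : ∑ A ∈ W.powerset, Om ω (W \ A) * (mt F A : ℝ) ≤
      ∑ A ∈ W.powerset, Om ω (W \ A) * ∑ K ∈ A.powerset.filter IsMT,
        Om ω (A \ K) * (mt F K : ℝ) := by
    refine Finset.sum_le_sum fun A hA => ?_
    refine mul_le_mul_of_nonneg_left ?_ (hom _)
    have hAW := Finset.mem_powerset.mp hA
    exact pendT hn hω hD hFv hN hleaf hmark _ A rfl (Cons.mono hAW hc) (NoZL.mono hAW hz)
  refine h2.trans (le_of_eq ?_)
  simp_rw [Finset.mul_sum]
  rw [Finset.sum_comm' (s' := fun K => W.powerset.filter (fun A => K ⊆ A))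
    (t' := W.powerset.filter IsMT)]
  · refine Finset.sum_congr rfl fun K hK => ?_
    have hKW : K ⊆ W := Finset.mem_powerset.mp (Finset.mem_filter.mp hK).1
    have h3 : ∀ A ∈ W.powerset.filter (fun A => K ⊆ A),
        Om ω (W \ A) * (Om ω (A \ K) * (mt F K : ℝ)) = Om ω (W \ K) * (mt F K : ℝ) := by
      intro A hA
      rcases Finset.mem_filter.mp hA with ⟨h4, h5⟩
      have h6 := Finset.mem_powerset.mp h4
      have h7 : W \ K = (W \ A) ∪ (A \ K) := by
        ext e
        simp only [Finset.mem_sdiff, Finset.mem_union]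
        constructor
        · rintro ⟨h8, h9⟩
          by_cases h10 : e ∈ A
          · exact Or.inr ⟨h10, h9⟩
          · exact Or.inl ⟨h8, h10⟩
        · rintro (⟨h8, h9⟩ | ⟨h8, h9⟩)
          · exact ⟨h8, fun h10 => h9 (h5 h10)⟩
          · exact ⟨h6 h8, h9⟩
      have h8 : Disjoint (W \ A) (A \ K) :=
        Finset.disjoint_left.mpr fun e h9 h10 =>
          (Finset.mem_sdiff.mp h9).2 (Finset.mem_sdiff.mp h10).1
      rw [h7]
      unfold Om
      rw [Finset.prod_union h8]
      ring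
    rw [Finset.sum_congr rfl h3, Finset.sum_const, nsmul_eq_mul, card_between hKW]
    push_cast
    ring
  · intro A K
    simp only [Finset.mem_powerset, Finset.mem_filter]
    constructor
    · rintro ⟨h3, h4, h5⟩
      exact ⟨⟨h3, h4⟩, h4.trans h3, h5⟩
    · rintro ⟨⟨h3, h4⟩, _, h5⟩
      exact ⟨h3, h4, h5⟩

/-- The number of chains. -/
noncomputable def ChT : ℕ → Finset (Sym2 (U × ℕ)) → ℕ
  | 0, W => if W = ∅ then 1 else 0
  | k + 1, W => ∑ K ∈ W.powerset.filter IsMT, ChT k K

/-- The size of the extremal subset. -/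
lemma shrink_ofT {m f : ℕ} (hf : 0 < f) (h : (6 : ℝ) ^ f ≤ (m.choose f : ℝ)) : 2 * f ≤ m := by
  have hf' : (0 : ℝ) < f := by exact_mod_cast hf
  have h1 : (m.choose f : ℝ) ≤ (m : ℝ) ^ f / (f ! : ℝ) := Nat.choose_le_pow_div f m
  have hfac : (0 : ℝ) < (f ! : ℝ) := by exact_mod_cast Nat.factorial_pos f
  have h2 : (f : ℝ) ^ f / (f ! : ℝ) ≤ Real.exp f :=
    Real.pow_div_factorial_le_exp _ (Nat.cast_nonneg f) f
  have h3 : Real.exp f ≤ 3 ^ f := by
    have : Real.exp f = Real.exp 1 ^ f := by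
      rw [← Real.exp_nat_mul]; simp
    rw [this]
    exact pow_le_pow_left₀ (Real.exp_pos 1).le Real.exp_one_lt_three.le f
  have h4 : (f : ℝ) ^ f ≤ 3 ^ f * (f ! : ℝ) := by
    have := (div_le_iff₀ hfac).mp (h2.trans h3)
    linarith
  have h5 : (6 : ℝ) ^ f * (f : ℝ) ^ f ≤ (3 * (m : ℝ)) ^ f := by
    calc (6 : ℝ) ^ f * (f : ℝ) ^ f ≤ ((m : ℝ) ^ f / (f ! : ℝ)) * (3 ^ f * (f ! : ℝ)) :=
          mul_le_mul (h.trans h1) h4 (by positivity) (by positivity)
      _ = (3 * (m : ℝ)) ^ f := by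
          rw [mul_pow]
          field_simp
  rw [← mul_pow] at h5
  have h6 : 6 * (f : ℝ) ≤ 3 * (m : ℝ) :=
    (pow_le_pow_iff_left₀ (by positivity) (by positivity) hf.ne').mp h5
  have h7 : ((2 * f : ℕ) : ℝ) ≤ (m : ℝ) := by
    push_cast
    linarith
  exact_mod_cast h7

/-- The chain bound. -/
theorem chainT {γ : U → ℕ} {Hh : Finset (Sym2 (U × ℕ))} {D : ℕ → ℕ} {n : ℕ}
    {ω : Sym2 (U × ℕ) → ℝ} (hn : 0 < n) (hω : ∀ r, 0 < ω r)
    (hinv : ∀ (σ : Equiv.Perm U) r, ω (tmap σ r) = ω r)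
    (hD : ∀ v i, (atT Hh (v, i)).card ≤ D i) (hv : (vtxT Hh).card ≤ n)
    (hN : 2 * n ≤ Fintype.card U)
    (hleaf : ∀ y i z, y ≠ z → (D i : ℝ) / n ≤ ω s((y, i), (z, 0)))
    (hmark : ∀ z t, ((loopsT Hh t).card : ℝ) / n ≤ ω s((z, t), (z, t)))
    (HS : ∀ G ⊆ Hh, ∀ F ⊆ G, (mt G F : ℝ) * 6 ^ F.card ≤
      (G.card.choose F.card : ℝ) * ((Fintype.card U)! : ℝ) * Om ω F) :
    ∀ (k : ℕ) (G : Finset (Sym2 (U × ℕ))), G ⊆ Hh → G.card < 2 ^ k →
      ∀ W : Finset (Sym2 (U × ℕ)), Cons γ W → NoZL W →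
      (mt G W : ℝ) ≤ ((Fintype.card U)! : ℝ) * Om (fun r => 2 * ω r) W * (ChT k W : ℝ) := by
  set N := Fintype.card U with hNdef
  have hfac : (0 : ℝ) < (N ! : ℝ) := by exact_mod_cast Nat.factorial_pos N
  have hω2 : ∀ r, 0 < 2 * ω r := fun r => by have := hω r; positivity
  intro k
  induction k with
  | zero =>
    intro G _ hG W _ _
    have hG0 : G = ∅ := by
      rw [pow_zero] at hG
      exact Finset.card_eq_zero.mp (by omega)
    subst hG0
    by_cases hW : W = ∅
    · subst hW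
      rw [mt_empty_right]
      simp [ChT, hNdef, Om]
    · rw [mt_empty_left (Finset.nonempty_iff_ne_empty.mpr hW)]
      simp [ChT, hW]
  | succ k ih =>
    intro G hGH hG W hc hz
    obtain ⟨F, hFG, hF⟩ := exists_extremalT G hω hinv
    have hFH := hFG.trans hGH
    have hOF := Om_pos hω F
    have hlow : (N ! : ℝ) * Om ω F ≤ (mt G F : ℝ) := by
      have := hF ∅
      rw [mt_empty_right] at this
      simpa [Om] using this
    have hpos : 0 < mt G F := by
      have h1 : (0 : ℝ) < (mt G F : ℝ) :=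
        lt_of_lt_of_le (mul_pos hfac hOF) hlow
      exact_mod_cast h1
    have hDF : ∀ v i, (atT F (v, i)).card ≤ D i := fun v i =>
      (Finset.card_le_card (Finset.filter_subset_filter _ hFH)).trans (hD v i)
    have hFv : (vtxT F).card ≤ n := (Finset.card_le_card (vtxT_mono hFH)).trans hv
    have hmarkF : ∀ z t, ((loopsT F t).card : ℝ) / n ≤ ω s((z, t), (z, t)) := by
      intro z t
      refine le_trans ?_ (hmark z t)
      have h1 : (loopsT F t).card ≤ (loopsT Hh t).card :=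
        Finset.card_le_card (Finset.filter_subset_filter _ hFH)
      have h2 : ((loopsT F t).card : ℝ) ≤ (loopsT Hh t).card := by exact_mod_cast h1
      exact div_le_div_of_nonneg_right h2 (Nat.cast_nonneg _)
    have hFsize : F.card < 2 ^ k := by
      by_cases hF0 : F.card = 0
      · rw [hF0]
        positivity
      · have h1 := HS G hGH F hFG
        have h3 : (6 : ℝ) ^ F.card ≤ (G.card.choose F.card : ℝ) := by
          have h4 : (0 : ℝ) < (N ! : ℝ) * Om ω F := mul_pos hfac hOF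
          have h5 : (6 : ℝ) ^ F.card * ((N ! : ℝ) * Om ω F) ≤
              (G.card.choose F.card : ℝ) * ((N ! : ℝ) * Om ω F) := by
            calc (6 : ℝ) ^ F.card * ((N ! : ℝ) * Om ω F)
                ≤ (6 : ℝ) ^ F.card * (mt G F : ℝ) :=
                  mul_le_mul_of_nonneg_left hlow (by positivity)
              _ = (mt G F : ℝ) * 6 ^ F.card := by ring
              _ ≤ _ := h1
              _ = _ := by ring
          exact le_of_mul_le_mul_right h5 h4
        have h6 := shrink_ofT (Nat.pos_of_ne_zero hF0) h3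
        rw [pow_succ] at hG
        omega
    have h1 := step_T hn hω hinv hFG hF hpos hDF hFv hN hleaf hmarkF hc hz
    refine h1.trans ?_
    have h2 : ∀ K ∈ W.powerset.filter IsMT,
        (2 : ℝ) ^ (W \ K).card * Om ω (W \ K) * (mt F K : ℝ) ≤
          (N ! : ℝ) * Om (fun r => 2 * ω r) W * (ChT k K : ℝ) := by
      intro K hK
      have hKW : K ⊆ W := Finset.mem_powerset.mp (Finset.mem_filter.mp hK).1
      have h3 := ih F hFH hFsize K (Cons.mono hKW hc) (NoZL.mono hKW hz)
      have h4 : (2 : ℝ) ^ (W \ K).card * Om ω (W \ K) = Om (fun r => 2 * ω r) (W \ K) := by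
        unfold Om
        rw [Finset.prod_mul_distrib, Finset.prod_const]
      rw [h4]
      calc Om (fun r => 2 * ω r) (W \ K) * (mt F K : ℝ)
          ≤ Om (fun r => 2 * ω r) (W \ K) *
              ((N ! : ℝ) * Om (fun r => 2 * ω r) K * (ChT k K : ℝ)) :=
            mul_le_mul_of_nonneg_left h3 (Om_pos hω2 _).le
        _ = (N ! : ℝ) * (Om (fun r => 2 * ω r) (W \ K) * Om (fun r => 2 * ω r) K) *
              (ChT k K : ℝ) := by ring
        _ = _ := by rw [Om_sdiff_mul hKW]
    refine (Finset.sum_le_sum h2).trans (le_of_eq ?_)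
    rw [← Finset.mul_sum]
    simp only [ChT]
    push_cast
    rfl

end Vale.Agent.Lib.P064c
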