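import Vale.Agent.Lib.P064c.ChT
import Vale.Agent.Lib.P064c.TChain

/-!
The bound for `ChT`.
-/

namespace Vale.Agent.Lib.P064c

open Finset SimpleGraph Vale.Agent.Lib.P064 Vale.Agent.Lib.P064k
open scoped Classical Nat

set_option linter.unusedSectionVars false
set_option linter.unusedVariables false

universe u u'

variable {Z : Type u} [Fintype Z] {U : Type u'} [Fintype U]

lemma ChT_eq_ChP : ∀ (k : ℕ) (W : Finset (Sym2 (U × ℕ))), ChT k W = ChP IsMT k W := by
  intro k
  induction k with
  | zero => intro W; simp [ChT, ChP]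
  | succ k ih =>
    intro W
    simp only [ChT, ChP]
    exact Finset.sum_congr rfl fun K _ => ih K

lemma lowTwice_of_isMT {K : Finset (Sym2 (U × ℕ))} (h : IsMT K) : LowTwice K := by
  intro x e he hx
  have h1 := h.1 e he (x, 0) hx rfl
  exact h1

/-- The bound for chains of a typed pattern of a connected graph. -/
theorem ChT_bound {F : SimpleGraph Z} (hF : F.Connected) {j : Z → U} (hj : Function.Injective j)
    (γ : Z → ℕ) {k : ℕ} (hk : 1 ≤ k) :
    ChT k (patW j γ F) ≤
      32 ^ (numEdges F + 6 * (hubsOf γ).card) * k ^ (2 * cyc F + 4 * (hubsOf γ).card - 1) := by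
  rw [ChT_eq_ChP]
  exact ChP_bound hF hj γ IsMT (fun K h => lowTwice_of_isMT h) hk

end Vale.Agent.Lib.P064c
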