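import Mathlib

/-!
The weights of the coloured chain, and the sum over the colours of a vertex.
-/

namespace Vale.Agent.Lib.P064c

open Finset

set_option linter.unusedSectionVars false
set_option linter.unusedVariables false

/-- The factor of an edge at a vertex of colour `t`. -/
noncomputable def rhoC (Δ t : ℕ) : ℝ := if t = 0 then 1 else 140 * ((t : ℝ) + 1) / ((Δ : ℝ) + 1)

/-- The weight of a vertex of degree `t`. -/
noncomputable def wC (a : ℝ) (t : ℕ) : ℝ := (2 * Real.exp 1 * a / ((t - 4 : ℕ) : ℝ)) ^ (t - 4)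

/-- The weight of a mark. -/
noncomputable def mkC (a : ℝ) (t : ℕ) : ℝ := 6 * wC a t

/-- The density of the pairs. -/
noncomputable def pC (n : ℕ) (q : ℝ) (Δ : ℕ) : ℝ := 6 * q + ((Δ : ℝ) + 1) / n

lemma rhoC_zero (Δ : ℕ) : rhoC Δ 0 = 1 := by simp [rhoC]

lemma rhoC_pos (Δ t : ℕ) : 0 < rhoC Δ t := by
  unfold rhoC
  split_ifs
  · norm_num
  · positivity

lemma wC_nonneg {a : ℝ} (ha : 0 ≤ a) (t : ℕ) : 0 ≤ wC a t := by
  unfold wC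
  have := Real.exp_pos 1
  positivity

lemma wC_pos {a : ℝ} (ha : 0 < a) (t : ℕ) : 0 < wC a t := by
  unfold wC
  by_cases h : t - 4 = 0
  · rw [h]
    simp
  · have h1 : (0 : ℝ) < ((t - 4 : ℕ) : ℝ) := by
      exact_mod_cast Nat.pos_of_ne_zero h
    have := Real.exp_pos 1
    positivity

lemma mkC_pos {a : ℝ} (ha : 0 < a) (t : ℕ) : 0 < mkC a t := by
  unfold mkC
  have := wC_pos ha t
  positivity

lemma succ_pow_le (t : ℕ) : ((t : ℝ) + 1) ^ 4 ≤ 64 * 2 ^ t := by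
  have h : ∀ t : ℕ, (t + 1) ^ 4 ≤ 64 * 2 ^ t := by
    intro t
    induction t using Nat.strong_induction_on with
    | _ t ih =>
      by_cases h6 : t ≤ 6
      · interval_cases t <;> norm_num
      · obtain ⟨s, rfl⟩ : ∃ s, t = s + 1 := ⟨t - 1, by omega⟩
        have h1 := ih s (by omega)
        have h2 : 6 ≤ s := by omega
        have h3 : (s + 1 + 1) ^ 4 ≤ 2 * (s + 1) ^ 4 := by
          obtain ⟨r, rfl⟩ : ∃ r, s = r + 6 := ⟨s - 6, by omega⟩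
          ring_nf
          nlinarith [Nat.zero_le r, sq_nonneg r]
        calc (s + 1 + 1) ^ 4 ≤ 2 * (s + 1) ^ 4 := h3
          _ ≤ 2 * (64 * 2 ^ s) := by omega
          _ = 64 * 2 ^ (s + 1) := by ring
  exact_mod_cast h t

lemma geom_third (Δ n : ℕ) :
    ∑ t ∈ Finset.Icc (Δ + 1) n, ((1 : ℝ) / 3) ^ t ≤ ((1 : ℝ) / 3) ^ Δ := by
  have h : ∀ n : ℕ, Δ ≤ n → ∑ t ∈ Finset.Icc (Δ + 1) n, ((1 : ℝ) / 3) ^ t ≤
      ((1 : ℝ) / 3) ^ Δ - ((1 : ℝ) / 3) ^ n := by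
    intro n hn
    induction n, hn using Nat.le_induction with
    | base => simp
    | succ n hn ih =>
      rw [Finset.sum_Icc_succ_top (by omega)]
      have h3 : ((1 : ℝ) / 3) ^ (n + 1) = ((1 : ℝ) / 3) ^ n * (1 / 3) := pow_succ _ _
      have h4 : (0 : ℝ) ≤ ((1 : ℝ) / 3) ^ n := by positivity
      rw [h3]
      linarith
  by_cases hn : Δ ≤ n
  · have h1 := h n hn
    have h2 : (0 : ℝ) ≤ ((1 : ℝ) / 3) ^ n := by positivity
    linarith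
  · rw [Finset.Icc_eq_empty (by omega)]
    simp

/-- One term of the sum over colours. -/
lemma term_le {a : ℝ} {Δ k t d : ℕ} (ha : 0 < a) (hΔa : 12000 * a ≤ Δ) (hΔ : 85 ≤ Δ)
    (ht : Δ + 1 ≤ t) (hd : d ≤ t) :
    2 * mkC a t * 32 ^ 6 * (k : ℝ) ^ 5 * rhoC Δ t ^ d ≤
      2 ^ 80 * (k : ℝ) ^ 5 * ((1 : ℝ) / 3) ^ t := by
  obtain ⟨r, rfl⟩ : ∃ r, t = r + 4 := ⟨t - 4, by omega⟩
  have hr : 82 ≤ r := by omega
  have hr0 : (0 : ℝ) < r := by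
    have : 0 < r := by omega
    exact_mod_cast this
  have hr82 : (82 : ℝ) ≤ r := by exact_mod_cast hr
  have ht0 : r + 4 ≠ 0 := by omega
  have hΔ0 : (0 : ℝ) < (Δ : ℝ) + 1 := by positivity
  set x := 140 * (((r + 4 : ℕ) : ℝ) + 1) / ((Δ : ℝ) + 1) with hx
  have hrho : rhoC Δ (r + 4) = x := by
    unfold rhoC
    rw [if_neg ht0]
  have hle : ((Δ : ℝ) + 1) ≤ ((r + 4 : ℕ) : ℝ) := by exact_mod_cast ht
  have hx1 : 1 ≤ x := by
    rw [hx, le_div_iff₀ hΔ0]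
    nlinarith
  have hx0 : 0 < x := by linarith
  have hw : wC a (r + 4) = (2 * Real.exp 1 * a / (r : ℝ)) ^ r := by
    unfold wC
    simp
  have hbase : 2 * Real.exp 1 * a / (r : ℝ) * x ≤ 1 / 7 := by
    have he : Real.exp 1 < 2.7182818286 := Real.exp_one_lt_d9
    have he0 := Real.exp_pos 1
    have h1 : a * 12000 ≤ (Δ : ℝ) + 1 := by linarith
    have h2 : 2 * Real.exp 1 * a / (r : ℝ) * x =
        (2 * Real.exp 1 * 140) * (a / ((Δ : ℝ) + 1)) * (((r : ℝ) + 5) / r) := by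
      rw [hx]
      push_cast
      field_simp
      ring
    rw [h2]
    have h3 : a / ((Δ : ℝ) + 1) ≤ 1 / 12000 := by
      rw [div_le_div_iff₀ hΔ0 (by norm_num)]
      linarith
    have h4 : ((r : ℝ) + 5) / r ≤ 2 := by
      rw [div_le_iff₀ hr0]
      linarith
    have h5 : 0 ≤ a / ((Δ : ℝ) + 1) := by positivity
    have h6 : 0 ≤ ((r : ℝ) + 5) / r := by positivity
    calc (2 * Real.exp 1 * 140) * (a / ((Δ : ℝ) + 1)) * (((r : ℝ) + 5) / r)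
        ≤ (2 * 2.7182818286 * 140) * (1 / 12000) * 2 := by
          refine mul_le_mul (mul_le_mul ?_ h3 h5 (by positivity)) h4 h6 (by positivity)
          linarith
      _ ≤ 1 / 7 := by norm_num
  have hpow : rhoC Δ (r + 4) ^ d ≤ x ^ r * x ^ 4 := by
    rw [hrho, ← pow_add]
    exact pow_le_pow_right₀ hx1 hd
  have hbase0 : 0 ≤ 2 * Real.exp 1 * a / (r : ℝ) := by
    have := Real.exp_pos 1
    positivity
  have hw2 : wC a (r + 4) * (x ^ r * x ^ 4) ≤ ((1 : ℝ) / 7) ^ r * x ^ 4 := by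
    rw [hw, ← mul_assoc, ← mul_pow]
    refine mul_le_mul_of_nonneg_right ?_ (by positivity)
    exact pow_le_pow_left₀ (by positivity) hbase r
  have hx4 : x ^ 4 ≤ 140 ^ 4 * (64 * 2 ^ (r + 4)) := by
    have h1 : x ≤ 140 * (((r + 4 : ℕ) : ℝ) + 1) := by
      rw [hx, div_le_iff₀ hΔ0]
      have : 0 ≤ 140 * (((r + 4 : ℕ) : ℝ) + 1) * (Δ : ℝ) := by positivity
      linarith
    calc x ^ 4 ≤ (140 * (((r + 4 : ℕ) : ℝ) + 1)) ^ 4 := pow_le_pow_left₀ hx0.le h1 4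
      _ = 140 ^ 4 * (((r + 4 : ℕ) : ℝ) + 1) ^ 4 := by rw [mul_pow]
      _ ≤ 140 ^ 4 * (64 * 2 ^ (r + 4)) :=
          mul_le_mul_of_nonneg_left (succ_pow_le _) (by norm_num)
  have hw0 : 0 ≤ wC a (r + 4) := wC_nonneg ha.le _
  have hk : (0 : ℝ) ≤ (k : ℝ) ^ 5 := by positivity
  have hmain : mkC a (r + 4) * rhoC Δ (r + 4) ^ d ≤
      6 * (((1 : ℝ) / 7) ^ r * (140 ^ 4 * (64 * 2 ^ (r + 4)))) := by
    unfold mkC
    rw [mul_assoc]
    refine mul_le_mul_of_nonneg_left ?_ (by norm_num)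
    calc wC a (r + 4) * rhoC Δ (r + 4) ^ d ≤ wC a (r + 4) * (x ^ r * x ^ 4) :=
          mul_le_mul_of_nonneg_left hpow hw0
      _ ≤ ((1 : ℝ) / 7) ^ r * x ^ 4 := hw2
      _ ≤ _ := mul_le_mul_of_nonneg_left hx4 (by positivity)
  have hfin : 6 * (((1 : ℝ) / 7) ^ r * (140 ^ 4 * (64 * 2 ^ (r + 4)))) * 2 * 32 ^ 6 ≤
      2 ^ 80 * ((1 : ℝ) / 3) ^ (r + 4) := by
    have h1 : ((2 : ℝ) / 7) ^ r ≤ ((1 : ℝ) / 3) ^ r :=
      pow_le_pow_left₀ (by norm_num) (by norm_num) r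
    have e1 : 6 * (((1 : ℝ) / 7) ^ r * (140 ^ 4 * (64 * 2 ^ (r + 4)))) * 2 * 32 ^ 6 =
        (6 * 140 ^ 4 * 64 * 2 ^ 4 * 2 * 32 ^ 6) * ((2 : ℝ) / 7) ^ r := by
      rw [pow_add, div_pow, div_pow]
      simp only [one_pow]
      field_simp
    have e2 : (2 : ℝ) ^ 80 * ((1 : ℝ) / 3) ^ (r + 4) = (2 ^ 80 * (1 / 81)) * ((1 : ℝ) / 3) ^ r := by
      rw [pow_add]
      norm_num
      ring
    rw [e1, e2]
    have h2 : (0 : ℝ) ≤ ((2 : ℝ) / 7) ^ r := by positivity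
    calc (6 * 140 ^ 4 * 64 * 2 ^ 4 * 2 * 32 ^ 6) * ((2 : ℝ) / 7) ^ r
        ≤ (2 ^ 80 * (1 / 81)) * ((2 : ℝ) / 7) ^ r := by
          refine mul_le_mul_of_nonneg_right ?_ h2
          norm_num
      _ ≤ _ := mul_le_mul_of_nonneg_left h1 (by norm_num)
  calc 2 * mkC a (r + 4) * 32 ^ 6 * (k : ℝ) ^ 5 * rhoC Δ (r + 4) ^ d
      = (mkC a (r + 4) * rhoC Δ (r + 4) ^ d) * 2 * 32 ^ 6 * (k : ℝ) ^ 5 := by ring
    _ ≤ (6 * (((1 : ℝ) / 7) ^ r * (140 ^ 4 * (64 * 2 ^ (r + 4))))) * 2 * 32 ^ 6 * (k : ℝ) ^ 5 := by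
        refine mul_le_mul_of_nonneg_right ?_ hk
        refine mul_le_mul_of_nonneg_right ?_ (by norm_num)
        exact mul_le_mul_of_nonneg_right hmain (by norm_num)
    _ ≤ (2 ^ 80 * ((1 : ℝ) / 3) ^ (r + 4)) * (k : ℝ) ^ 5 :=
        mul_le_mul_of_nonneg_right hfin hk
    _ = _ := by ring

/-- The sum over the colours of a vertex. -/
theorem hsum_num {a : ℝ} {Δ k n d : ℕ} (ha : 0 < a) (hΔa : 12000 * a ≤ Δ)
    (hL : 85 * (Nat.log 2 k + 1) ≤ Δ) :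
    ∑ t ∈ (Finset.Icc (Δ + 1) n).filter (fun t => d ≤ t),
      2 * mkC a t * 32 ^ 6 * (k : ℝ) ^ 5 * rhoC Δ t ^ d ≤ 1 := by
  have hΔ : 85 ≤ Δ := by omega
  have h1 : ∀ t ∈ (Finset.Icc (Δ + 1) n).filter (fun t => d ≤ t),
      2 * mkC a t * 32 ^ 6 * (k : ℝ) ^ 5 * rhoC Δ t ^ d ≤
        2 ^ 80 * (k : ℝ) ^ 5 * ((1 : ℝ) / 3) ^ t := by
    intro t ht
    rcases Finset.mem_filter.mp ht with ⟨h2, h3⟩
    exact term_le ha hΔa hΔ (Finset.mem_Icc.mp h2).1 h3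
  refine (Finset.sum_le_sum h1).trans ?_
  rw [← Finset.mul_sum]
  have h2 : ∑ t ∈ (Finset.Icc (Δ + 1) n).filter (fun t => d ≤ t), ((1 : ℝ) / 3) ^ t ≤
      ((1 : ℝ) / 3) ^ Δ := by
    refine le_trans ?_ (geom_third Δ n)
    exact Finset.sum_le_sum_of_subset_of_nonneg (Finset.filter_subset _ _)
      (fun _ _ _ => by positivity)
  have hk : (k : ℝ) ≤ 2 ^ (Nat.log 2 k + 1) := by
    have h3 : k < 2 ^ (Nat.log 2 k + 1) := Nat.lt_pow_succ_log_self (by norm_num) k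
    exact_mod_cast h3.le
  set L := Nat.log 2 k + 1 with hLdef
  have hk5 : (k : ℝ) ^ 5 ≤ 2 ^ (5 * L) := by
    calc (k : ℝ) ^ 5 ≤ ((2 : ℝ) ^ L) ^ 5 := pow_le_pow_left₀ (by positivity) hk 5
      _ = 2 ^ (5 * L) := by rw [← pow_mul]; congr 1; ring
  have hL1 : 1 ≤ L := by omega
  have h3 : (2 : ℝ) ^ 80 * (k : ℝ) ^ 5 ≤ 2 ^ Δ := by
    calc (2 : ℝ) ^ 80 * (k : ℝ) ^ 5 ≤ 2 ^ 80 * 2 ^ (5 * L) :=
          mul_le_mul_of_nonneg_left hk5 (by norm_num)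
      _ = 2 ^ (80 + 5 * L) := by rw [pow_add]
      _ ≤ 2 ^ Δ := pow_le_pow_right₀ (by norm_num) (by omega)
  have h4 : (2 : ℝ) ^ Δ * ((1 : ℝ) / 3) ^ Δ ≤ 1 := by
    rw [← mul_pow]
    exact pow_le_one₀ (by norm_num) (by norm_num)
  calc (2 : ℝ) ^ 80 * (k : ℝ) ^ 5 * ∑ t ∈ (Finset.Icc (Δ + 1) n).filter (fun t => d ≤ t), ((1 : ℝ) / 3) ^ t
      ≤ 2 ^ Δ * ((1 : ℝ) / 3) ^ Δ :=
        mul_le_mul h3 h2 (Finset.sum_nonneg fun _ _ => by positivity) (by positivity)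
    _ ≤ 1 := h4

end Vale.Agent.Lib.P064c
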