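import Vale.Agent.Lib.P064c.Typed
import Vale.Agent.Lib.P064c.Num

/-!
From the chain for typed pairs to a bound for the embeddings of a connected graph.
-/

namespace Vale.Agent.Lib.P064c

open Finset SimpleGraph Vale.Agent.Lib.P064 Vale.Agent.Lib.P064k
open scoped Classical Nat

set_option linter.unusedSectionVars false
set_option linter.unusedVariables false

universe u u' v

variable {U : Type u'} [Fintype U] {Z : Type u} [Fintype Z] {V₀ : Type v} [Fintype V₀]

lemma rhoT_eq (Δ t : ℕ) : rhoT 140 Δ t = rhoC Δ t := rfl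

lemma mark_eq (a : ℝ) (t : ℕ) : 6 * wMark a t = mkC a t := rfl

/-- The factor of a vertex with a colour. -/
noncomputable def Gv (a : ℝ) (Δ k d t : ℕ) : ℝ :=
  if t = 0 then 1 else 2 * mkC a t * 32 ^ 6 * (k : ℝ) ^ 5 * rhoC Δ t ^ d

lemma Gv_nonneg {a : ℝ} (ha : 0 < a) (Δ k d t : ℕ) : 0 ≤ Gv a Δ k d t := by
  unfold Gv
  split_ifs
  · norm_num
  · have := mkC_pos ha t
    have := rhoC_pos Δ t
    positivity

/-- The options for the colour of a vertex of degree `d`. -/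
noncomputable def Opt (Δ n d : ℕ) : Finset ℕ :=
  insert 0 ((Finset.Icc (Δ + 1) n).filter (fun t => d ≤ t))

lemma sum_Gv_le {a : ℝ} {Δ k n d : ℕ} (ha : 0 < a) (hΔa : 12000 * a ≤ Δ)
    (hL : 85 * (Nat.log 2 k + 1) ≤ Δ) : ∑ t ∈ Opt Δ n d, Gv a Δ k d t ≤ 2 := by
  unfold Opt
  rw [Finset.sum_insert (by simp)]
  have h1 : ∑ t ∈ (Finset.Icc (Δ + 1) n).filter (fun t => d ≤ t), Gv a Δ k d t =
      ∑ t ∈ (Finset.Icc (Δ + 1) n).filter (fun t => d ≤ t),
        2 * mkC a t * 32 ^ 6 * (k : ℝ) ^ 5 * rhoC Δ t ^ d := by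
    refine Finset.sum_congr rfl fun t ht => ?_
    have h2 := (Finset.mem_Icc.mp (Finset.mem_filter.mp ht).1).1
    unfold Gv
    rw [if_neg (by omega)]
  rw [h1]
  have h2 := hsum_num (n := n) (d := d) ha hΔa hL
  have h3 : Gv a Δ k d 0 = 1 := by simp [Gv]
  rw [h3]
  linarith

/-- The sum over the colourings. -/
lemma sum_patterns_le {T : SimpleGraph Z} {a : ℝ} {Δ k n : ℕ} (ha : 0 < a)
    (hΔa : 12000 * a ≤ Δ) (hL : 85 * (Nat.log 2 k + 1) ≤ Δ) :
    ∑ γ ∈ Fintype.piFinset (fun z => Opt Δ n (nb T z).card),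
      ∏ z, Gv a Δ k (nb T z).card (γ z) ≤ 2 ^ Fintype.card Z := by
  rw [← Finset.prod_univ_sum]
  calc ∏ z, ∑ t ∈ Opt Δ n (nb T z).card, Gv a Δ k (nb T z).card t
      ≤ ∏ _z : Z, (2 : ℝ) :=
        Finset.prod_le_prod (fun z _ => Finset.sum_nonneg fun t _ => Gv_nonneg ha _ _ _ _)
          (fun z _ => sum_Gv_le ha hΔa hL)
    _ = _ := by simp

/-- The number of marks of a pattern. -/
noncomputable def bOf (γ : Z → ℕ) : ℕ := (Finset.univ.filter (fun z => γ z ≠ 0)).card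

/-- The bound for a colouring. -/
theorem embC_le {H : SimpleGraph V₀} {T : SimpleGraph Z} {n Δ k : ℕ} {q a P : ℝ} (hn : 0 < n)
    (hq : 0 < q) (hV : Fintype.card V₀ ≤ n) (ha : 0 < a) (hP : P = 6 * q + ((Δ : ℝ) + 1) / n)
    {ι : V₀ → U} (hι : Function.Injective ι) (hU : Fintype.card U = 2 * n)
    {j : Z → U} (hj : Function.Injective j)
    (hHS : ∀ G ⊆ hostT H Δ ι, ∀ F ⊆ G, (mt G F : ℝ) * 6 ^ F.card ≤
      (G.card.choose F.card : ℝ) * ((Fintype.card U)! : ℝ) * Om (omegaT P 140 a Δ) F)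
    (hmark : ∀ (z : U) (t : ℕ), ((loopsT (hostT H Δ ι) t).card : ℝ) / n ≤ omegaT P 140 a Δ s((z, t), (z, t)))
    (hk : (hostT H Δ ι).card < 2 ^ k) (γ : Z → ℕ) :
    ((EmbC T H (colr H Δ) γ).card : ℝ) ≤ ((2 * n).descFactorial (Fintype.card Z) : ℝ) *
      ((2 * P) ^ numEdges T * (∏ z, rhoC Δ (γ z) ^ (nb T z).card) *
        ∏ z ∈ Finset.univ.filter (fun z => γ z ≠ 0), (2 * mkC a (γ z))) *
        (ChT k (typedOf T j γ) : ℝ) := by
  have hn' : (0 : ℝ) < n := by exact_mod_cast hn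
  have hPpos : 0 < P := by
    rw [hP]
    positivity
  have hZU : Fintype.card Z ≤ Fintype.card U := Fintype.card_le_of_injective j hj
  have h140 : (0 : ℝ) < 140 := by norm_num
  -- the colouring of `U`
  set γ' : U → ℕ := Function.extend j γ 0 with hγ'
  have hγ'j : ∀ z, γ' (j z) = γ z := fun z => hj.extend_apply _ _ z
  have hc : Cons γ' (typedOf T j γ) := cons_typedOf hj hγ'j
  have hz := noZL_typedOf (G := T) hj (c := γ)
  have hD : ∀ v i, (atT (hostT H Δ ι) (v, i)).card ≤ degT Δ i := by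
    intro v i
    refine atT_typedOf_le hι ?_ v i
    intro x
    unfold colr degT
    by_cases h : (nb H x).card ≤ Δ
    · simp only [if_pos h]
      simp
      omega
    · simp only [if_neg h]
      have h0 : (nb H x).card ≠ 0 := by omega
      simp [h0]
  have hvt : (vtxT (hostT H Δ ι)).card ≤ n := (vtxT_typedOf_le).trans hV
  have hleaf : ∀ (y : U) (i : ℕ) (z : U), y ≠ z → ((degT Δ i : ℕ) : ℝ) / n ≤ omegaT P 140 a Δ s((y, i), (z, 0)) := by
    intro y i z hyz
    have hne : (y, i) ≠ (z, 0) := fun h => hyz (congrArg Prod.fst h)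
    rw [omegaT_ne _ _ _ _ hne]
    have hP1 : ((Δ : ℝ) + 1) / n ≤ P := by
      rw [hP]
      have : 0 ≤ 6 * q := by positivity
      linarith
    unfold degT rhoT
    by_cases hi : i = 0
    · subst hi
      simp only [if_true]
      push_cast
      simpa using hP1
    · simp only [hi, if_false]
      simp only [if_true]
      push_cast
      have hΔ0 : (0 : ℝ) < (Δ : ℝ) + 1 := by positivity
      have hi0 : (0 : ℝ) ≤ (i : ℝ) + 1 := by positivity
      have h1 : ((i : ℝ) + 1) / n = (((Δ : ℝ) + 1) / n) * (((i : ℝ) + 1) / ((Δ : ℝ) + 1)) := by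
        field_simp
      rw [h1]
      have h2 : 0 ≤ ((i : ℝ) + 1) / ((Δ : ℝ) + 1) := by positivity
      calc ((Δ : ℝ) + 1) / n * (((i : ℝ) + 1) / ((Δ : ℝ) + 1))
          ≤ P * (((i : ℝ) + 1) / ((Δ : ℝ) + 1)) := mul_le_mul_of_nonneg_right hP1 h2
        _ ≤ P * (140 * (((i : ℝ) + 1) / ((Δ : ℝ) + 1))) := by
            refine mul_le_mul_of_nonneg_left ?_ hPpos.le
            linarith
        _ = _ := by ring
  have hω := omegaT_pos (U := U) (Δ := Δ) hPpos h140 ha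
  have hinv := omegaT_inv (U := U) P 140 a Δ
  have hchain := chainT (γ := γ') hn hω hinv hD hvt (by omega) hleaf hmark hHS k _
    (Finset.Subset.refl _) hk _ hc hz
  have h1 := embC_mul_le_mt (T := T) (H := H) (c₀ := colr H Δ) (γ := γ) hι hj
  rw [hU] at h1 hchain
  rw [Om_typedOf hj] at hchain
  have h3 := Nat.factorial_mul_descFactorial (n := 2 * n) (k := Fintype.card Z) (by omega)
  set f := ((2 * n - Fintype.card Z)! : ℝ) with hf
  have hf0 : 0 < f := by
    rw [hf]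
    exact_mod_cast Nat.factorial_pos _
  have h3' : ((2 * n)! : ℝ) = f * ((2 * n).descFactorial (Fintype.card Z) : ℝ) := by
    rw [hf]
    exact_mod_cast h3.symm
  have h4 : ((EmbC T H (colr H Δ) γ).card : ℝ) * f ≤ (mt (hostT H Δ ι) (typedOf T j γ) : ℝ) := by
    rw [hf]
    exact_mod_cast h1
  have h5 : ((EmbC T H (colr H Δ) γ).card : ℝ) * f ≤
      (((2 * n).descFactorial (Fintype.card Z) : ℝ) *
      ((2 * P) ^ numEdges T * (∏ z, rhoC Δ (γ z) ^ (nb T z).card) *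
        ∏ z ∈ Finset.univ.filter (fun z => γ z ≠ 0), (2 * mkC a (γ z))) *
        (ChT k (typedOf T j γ) : ℝ)) * f := by
    calc _ ≤ _ := h4
      _ ≤ _ := hchain
      _ = _ := by
        rw [h3']
        simp only [rhoT_eq, mark_eq]
        ring
  exact le_of_mul_le_mul_right h5 hf0

/-- The count of levels, in the form used below. -/
theorem embC_le' {H : SimpleGraph V₀} {T : SimpleGraph Z} {n Δ k : ℕ} {q a P : ℝ} (hn : 0 < n)
    (hq : 0 < q) (hV : Fintype.card V₀ ≤ n) (ha : 0 < a) (hP : P = 6 * q + ((Δ : ℝ) + 1) / n)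
    {ι : V₀ → U} (hι : Function.Injective ι) (hU : Fintype.card U = 2 * n)
    {j : Z → U} (hj : Function.Injective j)
    (hHS : ∀ G ⊆ hostT H Δ ι, ∀ F ⊆ G, (mt G F : ℝ) * 6 ^ F.card ≤
      (G.card.choose F.card : ℝ) * ((Fintype.card U)! : ℝ) * Om (omegaT P 140 a Δ) F)
    (hmark : ∀ (z : U) (t : ℕ), ((loopsT (hostT H Δ ι) t).card : ℝ) / n ≤ omegaT P 140 a Δ s((z, t), (z, t)))
    (hk : (hostT H Δ ι).card < 2 ^ k) {g : ℕ} (hk1 : 1 ≤ k) (hg : 1 ≤ g)
    (hCh : ∀ γ : Z → ℕ, ChT k (typedOf T j γ) ≤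
      32 ^ (numEdges T + 6 * bOf γ) * k ^ (2 * g + 4 * bOf γ - 1)) :
    (∀ γ : Z → ℕ, γ ≠ 0 → ((EmbC T H (colr H Δ) γ).card : ℝ) ≤
      ((2 * n).descFactorial (Fintype.card Z) : ℝ) * (64 * P) ^ numEdges T * (k : ℝ) ^ (2 * g - 2) *
        ∏ z, Gv a Δ k (nb T z).card (γ z)) ∧
    ((EmbC T H (colr H Δ) 0).card : ℝ) ≤
      ((2 * n).descFactorial (Fintype.card Z) : ℝ) * (64 * P) ^ numEdges T *
        (k : ℝ) ^ (2 * g - 1) := by
  have hn' : (0 : ℝ) < n := by exact_mod_cast hn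
  have hPpos : 0 < P := by
    rw [hP]
    positivity
  have hk1' : (1 : ℝ) ≤ k := by exact_mod_cast hk1
  have hdesc : (0 : ℝ) ≤ ((2 * n).descFactorial (Fintype.card Z) : ℝ) := by positivity
  constructor
  · intro γ hγ
    have h1 := embC_le (T := T) (γ := γ) hn hq hV ha hP hι hU hj hHS hmark hk
    refine h1.trans ?_
    set b := bOf γ with hb
    have hb1 : 1 ≤ b := by
      rw [hb]
      unfold bOf
      obtain ⟨z, hz⟩ := Function.ne_iff.mp hγ
      exact Finset.card_pos.mpr ⟨z, Finset.mem_filter.mpr ⟨Finset.mem_univ _, hz⟩⟩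
    have hCh' : (ChT k (typedOf T j γ) : ℝ) ≤ 32 ^ numEdges T * (32 ^ 6) ^ b * (k : ℝ) ^ (2 * g - 2) *
        ((k : ℝ) ^ 5) ^ b := by
      have h2 : (ChT k (typedOf T j γ) : ℝ) ≤
          32 ^ (numEdges T + 6 * b) * (k : ℝ) ^ (2 * g + 4 * b - 1) := by
        exact_mod_cast hCh γ
      refine h2.trans ?_
      have h3 : (k : ℝ) ^ (2 * g + 4 * b - 1) ≤ (k : ℝ) ^ (2 * g - 2) * ((k : ℝ) ^ 5) ^ b := by
        rw [← pow_mul, ← pow_add]
        exact pow_le_pow_right₀ hk1' (by omega)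
      calc (32 : ℝ) ^ (numEdges T + 6 * b) * (k : ℝ) ^ (2 * g + 4 * b - 1)
          ≤ 32 ^ (numEdges T + 6 * b) * ((k : ℝ) ^ (2 * g - 2) * ((k : ℝ) ^ 5) ^ b) :=
            mul_le_mul_of_nonneg_left h3 (by positivity)
        _ = _ := by
            rw [pow_add, pow_mul]
            ring
    have hprod : ∏ z, Gv a Δ k (nb T z).card (γ z) =
        (∏ z, rhoC Δ (γ z) ^ (nb T z).card) *
          ((∏ z ∈ Finset.univ.filter (fun z => γ z ≠ 0), (2 * mkC a (γ z))) *
            ((32 ^ 6) ^ b * ((k : ℝ) ^ 5) ^ b)) := by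
      have h2 : ∀ z, Gv a Δ k (nb T z).card (γ z) = rhoC Δ (γ z) ^ (nb T z).card *
          (if γ z ≠ 0 then 2 * mkC a (γ z) * (32 ^ 6 * (k : ℝ) ^ 5) else 1) := by
        intro z
        unfold Gv
        by_cases h : γ z = 0
        · simp [h, rhoC_zero]
        · simp only [h, if_false, ne_eq, not_false_eq_true, if_true]
          ring
      simp_rw [h2]
      rw [Finset.prod_mul_distrib]
      congr 1
      rw [Finset.prod_ite]
      simp only [Finset.prod_const_one, mul_one]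
      rw [Finset.prod_mul_distrib, Finset.prod_const]
      rw [← mul_pow]
      rfl
    have hrho : 0 ≤ ∏ z, rhoC Δ (γ z) ^ (nb T z).card :=
      Finset.prod_nonneg fun z _ => pow_nonneg (rhoC_pos Δ _).le _
    have hmk : 0 ≤ ∏ z ∈ Finset.univ.filter (fun z => γ z ≠ 0), (2 * mkC a (γ z)) :=
      Finset.prod_nonneg fun z _ => by
        have := mkC_pos ha (γ z)
        positivity
    have hP2 : 0 ≤ (2 * P) ^ numEdges T := by positivity
    rw [hprod]
    set A := ∏ z, rhoC Δ (γ z) ^ (nb T z).card with hA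
    set M := ∏ z ∈ Finset.univ.filter (fun z => γ z ≠ 0), (2 * mkC a (γ z)) with hM
    set D := ((2 * n).descFactorial (Fintype.card Z) : ℝ) with hD
    have e64 : (64 * P) ^ numEdges T = (2 * P) ^ numEdges T * 32 ^ numEdges T := by
      rw [← mul_pow]
      congr 1
      ring
    rw [e64]
    calc D * ((2 * P) ^ numEdges T * A * M) * (ChT k (typedOf T j γ) : ℝ)
        ≤ D * ((2 * P) ^ numEdges T * A * M) *
            (32 ^ numEdges T * (32 ^ 6) ^ b * (k : ℝ) ^ (2 * g - 2) * ((k : ℝ) ^ 5) ^ b) :=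
          mul_le_mul_of_nonneg_left hCh' (by positivity)
      _ = _ := by ring
  · have h1 := embC_le (T := T) (γ := 0) hn hq hV ha hP hι hU hj hHS hmark hk
    refine h1.trans ?_
    have hb0 : bOf (0 : Z → ℕ) = 0 := by simp [bOf]
    have hCh' : (ChT k (typedOf T j 0) : ℝ) ≤ 32 ^ numEdges T * (k : ℝ) ^ (2 * g - 1) := by
      have := hCh 0
      rw [hb0] at this
      simp only [mul_zero, add_zero] at this
      exact_mod_cast this
    have e1 : (∏ z, rhoC Δ ((0 : Z → ℕ) z) ^ (nb T z).card) = 1 := by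
      simp [rhoC_zero]
    have e2 : (∏ z ∈ Finset.univ.filter (fun z => (0 : Z → ℕ) z ≠ 0), (2 * mkC a ((0 : Z → ℕ) z))) = 1 := by
      simp
    rw [e1, e2]
    have e64 : (64 * P) ^ numEdges T = (2 * P) ^ numEdges T * 32 ^ numEdges T := by
      rw [← mul_pow]
      congr 1
      ring
    rw [e64]
    calc ((2 * n).descFactorial (Fintype.card Z) : ℝ) * ((2 * P) ^ numEdges T * 1 * 1) *
          (ChT k (typedOf T j 0) : ℝ)
        ≤ ((2 * n).descFactorial (Fintype.card Z) : ℝ) * ((2 * P) ^ numEdges T * 1 * 1) *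
          (32 ^ numEdges T * (k : ℝ) ^ (2 * g - 1)) :=
          mul_le_mul_of_nonneg_left hCh' (by positivity)
      _ = _ := by ring

/-- The bound for all colourings together. -/
theorem emb_split {H : SimpleGraph V₀} {T : SimpleGraph Z} {n Δ k : ℕ} {q a P : ℝ} (hn : 0 < n)
    (hq : 0 < q) (hV : Fintype.card V₀ ≤ n) (ha : 0 < a) (hP : P = 6 * q + ((Δ : ℝ) + 1) / n)
    {ι : V₀ → U} (hι : Function.Injective ι) (hU : Fintype.card U = 2 * n)
    {j : Z → U} (hj : Function.Injective j)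
    (hHS : ∀ G ⊆ hostT H Δ ι, ∀ F ⊆ G, (mt G F : ℝ) * 6 ^ F.card ≤
      (G.card.choose F.card : ℝ) * ((Fintype.card U)! : ℝ) * Om (omegaT P 140 a Δ) F)
    (hmark : ∀ (z : U) (t : ℕ), ((loopsT (hostT H Δ ι) t).card : ℝ) / n ≤ omegaT P 140 a Δ s((z, t), (z, t)))
    (hk : (hostT H Δ ι).card < 2 ^ k) {g : ℕ} (hk1 : 1 ≤ k) (hg : 1 ≤ g)
    (hCh : ∀ γ : Z → ℕ, ChT k (typedOf T j γ) ≤
      32 ^ (numEdges T + 6 * bOf γ) * k ^ (2 * g + 4 * bOf γ - 1))
    (hΔa : 12000 * a ≤ Δ) (hL : 85 * (Nat.log 2 k + 1) ≤ Δ) :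
    ((Emb T H Finset.univ).card : ℝ) ≤ ((EmbC T H (colr H Δ) 0).card : ℝ) +
      ((2 * n).descFactorial (Fintype.card Z) : ℝ) * (64 * P) ^ numEdges T *
        (k : ℝ) ^ (2 * g - 2) * 2 ^ Fintype.card Z := by
  have hPpos : 0 < P := by
    have hn' : (0 : ℝ) < n := by exact_mod_cast hn
    rw [hP]
    positivity
  have hmain := (embC_le' (T := T) hn hq hV ha hP hι hU hj hHS hmark hk hk1 hg hCh).1
  set Γ := Fintype.piFinset (fun z => Opt Δ n (nb T z).card) with hΓ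
  have h0 : (0 : Z → ℕ) ∈ Γ := by
    rw [hΓ]
    refine Fintype.mem_piFinset.mpr fun z => ?_
    simp [Opt]
  have hmem : ∀ f ∈ Emb T H Finset.univ, (fun z => colr H Δ (f z)) ∈ Γ := by
    intro f hf
    rw [hΓ]
    refine Fintype.mem_piFinset.mpr fun z => ?_
    unfold Opt colr
    by_cases h : (nb H (f z)).card ≤ Δ
    · simp [h]
    · simp only [if_neg h]
      refine Finset.mem_insert_of_mem (Finset.mem_filter.mpr ⟨Finset.mem_Icc.mpr ⟨by omega, ?_⟩,
        deg_le_of_emb hf z⟩)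
      refine (Finset.card_le_univ _).trans ?_
      exact hV
  have h1 := emb_card_le_sum hmem
  have h2 : ((Emb T H Finset.univ).card : ℝ) ≤ ∑ γ ∈ Γ, ((EmbC T H (colr H Δ) γ).card : ℝ) := by
    exact_mod_cast h1
  refine h2.trans ?_
  rw [← Finset.add_sum_erase _ _ h0]
  refine add_le_add_right ?_ _
  have h3 : ∑ γ ∈ Γ.erase 0, ((EmbC T H (colr H Δ) γ).card : ℝ) ≤
      ∑ γ ∈ Γ.erase 0, (((2 * n).descFactorial (Fintype.card Z) : ℝ) * (64 * P) ^ numEdges T *
        (k : ℝ) ^ (2 * g - 2)) * ∏ z, Gv a Δ k (nb T z).card (γ z) :=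
    Finset.sum_le_sum fun γ hγ => hmain γ (Finset.ne_of_mem_erase hγ)
  refine h3.trans ?_
  rw [← Finset.mul_sum]
  refine mul_le_mul_of_nonneg_left ?_ (by positivity)
  refine le_trans ?_ (sum_patterns_le (T := T) (n := n) ha hΔa hL)
  exact Finset.sum_le_sum_of_subset_of_nonneg (Finset.erase_subset _ _)
    (fun γ _ _ => Finset.prod_nonneg fun z _ => Gv_nonneg ha _ _ _ _)

end Vale.Agent.Lib.P064c
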