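import Vale.Agent.Lib.P064c.Hs2

/-!
The count of a short unicyclic graph on the vertices of small degree.
-/

namespace Vale.Agent.Lib.P064c

open Finset SimpleGraph Vale.Agent.Lib.P064 Vale.Agent.Lib.P064k
open scoped Classical Nat

set_option linter.unusedSectionVars false
set_option linter.unusedVariables false

universe u u' v

variable {U : Type u'} [Fintype U] {V₀ : Type v} [Fintype V₀] {Z : Type u} [Fintype Z]

/-- The restriction of a graph to the vertices of degree at most `Δ`. -/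
def lowG (H : SimpleGraph V₀) (Δ : ℕ) : SimpleGraph V₀ where
  Adj x y := H.Adj x y ∧ colr H Δ x = 0 ∧ colr H Δ y = 0
  symm := ⟨fun _ _ h => ⟨h.1.symm, h.2.2, h.2.1⟩⟩
  loopless := ⟨fun x h => H.loopless.irrefl x h.1⟩

/-- A subgraph of a smaller graph as a subgraph of the larger one. -/
def liftSub {H₀ H : SimpleGraph V₀} (h : H₀ ≤ H) (F : H₀.Subgraph) : H.Subgraph where
  verts := F.verts
  Adj := F.Adj
  adj_sub := fun hab => h (F.adj_sub hab)
  edge_vert := F.edge_vert
  symm := F.symm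

lemma hyp_mono {H₀ H : SimpleGraph V₀} (h : H₀ ≤ H) {n : ℕ} {q : ℝ}
    (hyp : ∀ F : H.Subgraph, 1 ≤ expCopies n q F.coe) :
    ∀ F : H₀.Subgraph, 1 ≤ expCopies n q F.coe := fun F => hyp (liftSub h F)

lemma lowG_le (H : SimpleGraph V₀) (Δ : ℕ) : lowG H Δ ≤ H := fun _ _ h => h.1

lemma lowG_deg (H : SimpleGraph V₀) (Δ : ℕ) (u : V₀) : (nb (lowG H Δ) u).card ≤ Δ := by
  by_cases hu : colr H Δ u = 0
  · have h1 : (nb H u).card ≤ Δ := by
      unfold colr at hu
      by_contra h
      rw [if_neg h] at hu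
      omega
    refine le_trans (Finset.card_le_card ?_) h1
    intro w hw
    exact mem_nb.mpr (mem_nb.mp hw).1
  · have h0 : nb (lowG H Δ) u = ∅ := by
      refine Finset.eq_empty_of_forall_notMem fun w hw => ?_
      exact hu (mem_nb.mp hw).2.1
    rw [h0]
    simp

/-- The count of a short connected graph with one independent cycle, on low vertices. -/
theorem short_low {H : SimpleGraph V₀} {n Δ m : ℕ} {q : ℝ} (hn : 0 < n) (hq : 0 < q)
    (hV : Fintype.card V₀ ≤ n) (hyp : ∀ F : H.Subgraph, 1 ≤ expCopies n q F.coe)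
    (ha : 1 ≤ (n : ℝ) * q) (ham : ((n : ℝ) * q) ^ (2 * m) < n)
    {T : SimpleGraph Z} (hT : T.Connected) (hg : cyc T = 1) (he : numEdges T ≤ m) :
    ((((Emb T H Finset.univ).filter (fun f => ∀ z, colr H Δ (f z) = 0)).card : ℕ) : ℝ) ≤
      3 * ((2 * n).descFactorial (Fintype.card Z) : ℝ) * (3 * q + (Δ : ℝ) / n) ^ numEdges T := by
  have hsub : (Emb T H Finset.univ).filter (fun f => ∀ z, colr H Δ (f z) = 0) ⊆
      Emb T (lowG H Δ) Finset.univ := by
    intro f hf
    rcases Finset.mem_filter.mp hf with ⟨h1, h2⟩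
    rcases mem_Emb.mp h1 with ⟨h3, h4, h5⟩
    exact mem_Emb.mpr ⟨h3, fun a b hab => ⟨h4 a b hab, h2 a, h2 b⟩, h5⟩
  by_cases hEm : Emb T (lowG H Δ) Finset.univ = ∅
  · rw [hEm, Finset.subset_empty] at hsub
    rw [hsub]
    simp only [Finset.card_empty, Nat.cast_zero]
    positivity
  obtain ⟨f, hf⟩ := Finset.nonempty_iff_ne_empty.mpr hEm
  have hvn : Fintype.card Z ≤ n := by
    rcases mem_Emb.mp hf with ⟨h1, _⟩
    exact (Fintype.card_le_of_injective f h1).trans hV
  have hUc : Fintype.card (V₀ ⊕ ULift.{v} (Fin (2 * n - Fintype.card V₀))) = 2 * n := by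
    rw [Fintype.card_sum, Fintype.card_ulift, Fintype.card_fin]
    omega
  let U' : Type v := V₀ ⊕ ULift.{v} (Fin (2 * n - Fintype.card V₀))
  let ι : V₀ → U' := fun x => Sum.inl x
  have hι : Function.Injective ι := fun a b h => Sum.inl.inj h
  have hU' : Fintype.card U' = 2 * n := hUc
  have hZU : Fintype.card Z ≤ Fintype.card U' := by rw [hU']; omega
  obtain ⟨je⟩ := Function.Embedding.nonempty_of_card_le hZU
  have h1 := emb_short hn hq hV (hyp_mono (lowG_le H Δ) hyp) hι hU' (lowG_deg H Δ) ha ham hT hg he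
    je.injective
  refine le_trans ?_ h1
  exact_mod_cast Finset.card_le_card hsub

end Vale.Agent.Lib.P064c
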