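import Vale.Agent.Lib.P064c.Final1
import Vale.Agent.Lib.P064c.Short

/-!
The bound for connected graphs with at least one cycle.
-/

namespace Vale.Agent.Lib.P064c

open Finset SimpleGraph Vale.Agent.Lib.P064 Vale.Agent.Lib.P064k
open scoped Classical Nat

set_option linter.unusedSectionVars false
set_option linter.unusedVariables false

universe u u' v

variable {U : Type u'} [Fintype U] {Z : Type u} [Fintype Z] {V₀ : Type v} [Fintype V₀]

/-- The power of the number of levels is at most `3^e`. -/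
lemma pow_levels_le {H : SimpleGraph V₀} {T : SimpleGraph Z} {n m k : ℕ} {q : ℝ} (hq : 0 < q)
    (hyp : ∀ F : H.Subgraph, 1 ≤ expCopies n q F.coe)
    (hT : T.Connected) (hk : k ≤ 2 ^ m) (hk1 : 1 ≤ k) (ha : 1 ≤ (n : ℝ) * q)
    (ham : ((n : ℝ) * q) ^ (2 * m) < n) (hne : (Emb T H Finset.univ).Nonempty)
    (hg1 : 1 ≤ cyc T) (hsh : ¬ (cyc T = 1 ∧ numEdges T < m)) :
    k ^ (2 * cyc T - 1) ≤ 3 ^ numEdges T := by
  set e := numEdges T with he
  set v := Fintype.card Z with hv
  by_cases hg : cyc T = 1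
  · have hme : m ≤ e := by
      by_contra h
      exact hsh ⟨hg, by omega⟩
    rw [hg]
    simp only [Nat.reduceMul, Nat.reduceSub, pow_one]
    calc k ≤ 2 ^ m := hk
      _ ≤ 2 ^ e := Nat.pow_le_pow_right (by norm_num) hme
      _ ≤ 3 ^ e := Nat.pow_le_pow_left (by norm_num) e
  · obtain ⟨f, hf⟩ := hne
    rcases mem_Emb.mp hf with ⟨hf1, hf2, _⟩
    set x := cyc T - 1 with hx
    have hx1 : 1 ≤ x := by omega
    have hve := card_le_of_connected hT
    have hex : e = v + x := by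
      have h9 : cyc T = numEdges T + 1 - Fintype.card Z := rfl
      omega
    set E' := (edgesF T).image (Sym2.map f) with hE'
    have hE'c : E'.card = e := by
      rw [hE', Finset.card_image_of_injective _ (Sym2.map.injective hf1), card_edgesF]
    have hE'H : ∀ e' ∈ E', e' ∈ H.edgeSet := by
      intro e' he'
      obtain ⟨e'', he'', rfl⟩ := Finset.mem_image.mp he'
      have h7 := mem_edgesF.mp he''
      induction e'' using Sym2.ind with
      | _ a b => exact hf2 a b h7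
    have h1 := one_le_of_edges hq hyp E' hE'H
    rw [hE'c] at h1
    have h2 : (vertsOf E').card ≤ v := by
      have h3 : vertsOf E' ⊆ Finset.univ.image f := by
        intro y hy
        obtain ⟨e', he', hye'⟩ := mem_vertsOf.mp hy
        obtain ⟨e'', _, rfl⟩ := Finset.mem_image.mp he'
        obtain ⟨z, _, rfl⟩ := Sym2.mem_map.mp hye'
        exact Finset.mem_image_of_mem _ (Finset.mem_univ _)
      refine (Finset.card_le_card h3).trans (Finset.card_image_le.trans ?_)
      rw [Finset.card_univ]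
    have hn1 : (1 : ℝ) ≤ n := by
      by_contra hlt
      push Not at hlt
      have h0 : n = 0 := by
        have : (n : ℝ) < 1 := hlt
        have h5 : n < 1 := by exact_mod_cast this
        omega
      rw [h0] at ha
      simp at ha
      linarith
    have h3 : 1 ≤ (n : ℝ) ^ v * q ^ e :=
      h1.trans (mul_le_mul_of_nonneg_right (pow_le_pow_right₀ hn1 h2) (by positivity))
    have h4 : (n : ℝ) ^ x ≤ ((n : ℝ) * q) ^ e := by
      have e2 : ((n : ℝ) * q) ^ e = (n : ℝ) ^ x * ((n : ℝ) ^ v * q ^ e) := by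
        rw [mul_pow, ← mul_assoc, ← pow_add]
        congr 2
        omega
      rw [e2]
      calc (n : ℝ) ^ x = (n : ℝ) ^ x * 1 := (mul_one _).symm
        _ ≤ _ := mul_le_mul_of_nonneg_left h3 (by positivity)
    have h5 : 2 * m * x ≤ e := by
      by_contra hlt
      push Not at hlt
      have h6 : ((n : ℝ) * q) ^ e ≤ ((n : ℝ) * q) ^ (2 * m * x) :=
        pow_le_pow_right₀ ha hlt.le
      have h7 : ((n : ℝ) * q) ^ (2 * m * x) < (n : ℝ) ^ x := by
        rw [pow_mul]
        exact pow_lt_pow_left₀ ham (by positivity) (by omega)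
      linarith
    have hcm : 2 * cyc T - 1 ≤ 3 * x := by omega
    calc k ^ (2 * cyc T - 1) ≤ k ^ (3 * x) := Nat.pow_le_pow_right hk1 hcm
      _ ≤ (2 ^ m) ^ (3 * x) := Nat.pow_le_pow_left hk _
      _ = 8 ^ (m * x) := by
          rw [← pow_mul, show (8 : ℕ) = 2 ^ 3 by norm_num, ← pow_mul]
          congr 1
          ring
      _ ≤ 9 ^ (m * x) := Nat.pow_le_pow_left (by norm_num) _
      _ = 3 ^ (2 * m * x) := by
          rw [show (9 : ℕ) = 3 ^ 2 by norm_num, ← pow_mul]
          congr 1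
          ring
      _ ≤ 3 ^ e := Nat.pow_le_pow_right (by norm_num) h5

/-- The bound for a connected graph with at least one cycle. -/
theorem conn_cycle {H : SimpleGraph V₀} {T : SimpleGraph Z} {n m Δ k : ℕ} {q : ℝ} (hn : 0 < n)
    (hq : 0 < q) (hV : Fintype.card V₀ ≤ n) (hyp : ∀ F : H.Subgraph, 1 ≤ expCopies n q F.coe)
    {ι : V₀ → U} (hι : Function.Injective ι) (hU : Fintype.card U = 2 * n)
    {j : Z → U} (hj : Function.Injective j)
    (hHS : ∀ G ⊆ hostT H Δ ι, ∀ F ⊆ G, (mt G F : ℝ) * 6 ^ F.card ≤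
      (G.card.choose F.card : ℝ) * ((Fintype.card U)! : ℝ) *
        Om (omegaT (6 * q + ((Δ : ℝ) + 1) / n) 140 ((n : ℝ) * q) Δ) F)
    (hmark : ∀ (z : U) (t : ℕ), ((loopsT (hostT H Δ ι) t).card : ℝ) / n ≤
      omegaT (6 * q + ((Δ : ℝ) + 1) / n) 140 ((n : ℝ) * q) Δ s((z, t), (z, t)))
    (hkh : (hostT H Δ ι).card < 2 ^ k) (hk1 : 1 ≤ k) (hk2 : k ≤ 2 ^ m) (hT : T.Connected)
    (hg1 : 1 ≤ cyc T) (hE : 1 ≤ numEdges T)
    (hCh : ∀ γ : Z → ℕ, ChT k (typedOf T j γ) ≤
      32 ^ (numEdges T + 6 * bOf γ) * k ^ (2 * cyc T + 4 * bOf γ - 1))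
    (hΔa : 12000 * ((n : ℝ) * q) ≤ Δ) (hΔb : (Δ : ℝ) + 1 ≤ 13000 * ((n : ℝ) * q))
    (hL : 85 * (Nat.log 2 k + 1) ≤ Δ) (ha : 1 ≤ (n : ℝ) * q)
    (ham : ((n : ℝ) * q) ^ (2 * m) < n) :
    ((Emb T H Finset.univ).card : ℝ) ≤ ((2 * n).descFactorial (Fintype.card Z) : ℝ) *
      (20000000 * q) ^ numEdges T := by
  have hn' : (0 : ℝ) < n := by exact_mod_cast hn
  have ha0 : 0 < (n : ℝ) * q := by positivity
  set P := 6 * q + ((Δ : ℝ) + 1) / n with hP
  set e := numEdges T with he
  set v := Fintype.card Z with hv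
  have hPpos : 0 < P := by
    rw [hP]
    positivity
  have hPle : P ≤ 13006 * q := by
    have h1 : ((Δ : ℝ) + 1) / n ≤ 13000 * q := by
      rw [div_le_iff₀ hn']
      nlinarith
    rw [hP]
    linarith
  have h64 : 64 * P ≤ 832384 * q := by linarith
  have hve := card_le_of_connected hT
  have hsplit := emb_split (T := T) hn hq hV ha0 hP hι hU hj hHS hmark hkh hk1 hg1 hCh hΔa hL
  have hdesc : (0 : ℝ) ≤ ((2 * n).descFactorial v : ℝ) := by positivity
  have hk1' : (1 : ℝ) ≤ k := by exact_mod_cast hk1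
  have hqe : (0 : ℝ) ≤ (832384 * q) ^ e := by positivity
  have h64e : (64 * P) ^ e ≤ (832384 * q) ^ e := pow_le_pow_left₀ (by positivity) h64 e
  by_cases hEm : (Emb T H Finset.univ).Nonempty
  swap
  · rw [Finset.not_nonempty_iff_eq_empty.mp hEm]
    simp only [Finset.card_empty, Nat.cast_zero]
    positivity
  by_cases hsh : cyc T = 1 ∧ e < m
  · -- the short case
    have hem : e ≤ m := hsh.2.le
    have h1 : ((EmbC T H (colr H Δ) 0).card : ℝ) ≤
        3 * ((2 * n).descFactorial v : ℝ) * (3 * q + (Δ : ℝ) / n) ^ e := by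
      exact short_low (Δ := Δ) hn hq hV hyp ha ham hT hsh.1 hem
    have hvv : v = e := by
      have h9 : cyc T = numEdges T + 1 - Fintype.card Z := rfl
      have := hsh.1
      omega
    have h3 : 3 * q + (Δ : ℝ) / n ≤ 13003 * q := by
      have h4 : (Δ : ℝ) / n ≤ 13000 * q := by
        rw [div_le_iff₀ hn']
        nlinarith
      linarith
    have h4 : (3 * q + (Δ : ℝ) / n) ^ e ≤ (13003 * q) ^ e :=
      pow_le_pow_left₀ (by positivity) h3 e
    have h5 : (3 : ℝ) ≤ 3 ^ e := by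
      calc (3 : ℝ) = 3 ^ 1 := by norm_num
        _ ≤ 3 ^ e := pow_le_pow_right₀ (by norm_num) hE
    have h6 : 3 * ((2 * n).descFactorial v : ℝ) * (3 * q + (Δ : ℝ) / n) ^ e ≤
        ((2 * n).descFactorial v : ℝ) * (39009 * q) ^ e := by
      have e1 : (39009 * q) ^ e = 3 ^ e * (13003 * q) ^ e := by
        rw [← mul_pow]
        congr 1
        ring
      rw [e1]
      calc 3 * ((2 * n).descFactorial v : ℝ) * (3 * q + (Δ : ℝ) / n) ^ e
          ≤ 3 ^ e * ((2 * n).descFactorial v : ℝ) * (13003 * q) ^ e := by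
            refine mul_le_mul ?_ h4 (by positivity) (by positivity)
            exact mul_le_mul_of_nonneg_right h5 hdesc
        _ = _ := by ring
    have h7 : ((2 * n).descFactorial v : ℝ) * (64 * P) ^ e * (k : ℝ) ^ (2 * cyc T - 2) * 2 ^ v ≤
        ((2 * n).descFactorial v : ℝ) * ((1664768 * q) ^ e) := by
      rw [hsh.1, hvv]
      simp only [Nat.mul_one, Nat.sub_self, pow_zero, mul_one]
      have e1 : (1664768 * q) ^ e = (832384 * q) ^ e * 2 ^ e := by
        rw [← mul_pow]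
        congr 1
        ring
      rw [e1, mul_assoc]
      refine mul_le_mul_of_nonneg_left ?_ (by positivity)
      exact mul_le_mul_of_nonneg_right h64e (by positivity)
    have h8 : (39009 * q) ^ e ≤ (1664768 * q) ^ e :=
      pow_le_pow_left₀ (by positivity) (by nlinarith) e
    have h9 : 2 * (1664768 * q) ^ e ≤ (20000000 * q) ^ e := by
      have e1 : (20000000 * q) ^ e = ((20000000 : ℝ) / 1664768) ^ e * (1664768 * q) ^ e := by
        rw [← mul_pow]
        congr 1
        field_simp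
      rw [e1]
      refine mul_le_mul_of_nonneg_right ?_ (by positivity)
      calc (2 : ℝ) ≤ (20000000 : ℝ) / 1664768 := by norm_num
        _ = ((20000000 : ℝ) / 1664768) ^ 1 := by norm_num
        _ ≤ _ := pow_le_pow_right₀ (by norm_num) hE
    calc ((Emb T H Finset.univ).card : ℝ)
        ≤ ((EmbC T H (colr H Δ) 0).card : ℝ) +
          ((2 * n).descFactorial v : ℝ) * (64 * P) ^ e * (k : ℝ) ^ (2 * cyc T - 2) * 2 ^ v := hsplit
      _ ≤ ((2 * n).descFactorial v : ℝ) * (39009 * q) ^ e +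
            ((2 * n).descFactorial v : ℝ) * ((1664768 * q) ^ e) :=
          add_le_add (h1.trans h6) h7
      _ ≤ ((2 * n).descFactorial v : ℝ) * (2 * (1664768 * q) ^ e) := by
          have := mul_le_mul_of_nonneg_left h8 hdesc
          linarith
      _ ≤ _ := mul_le_mul_of_nonneg_left h9 hdesc
  · -- the long case
    have hpow := pow_levels_le hq hyp hT hk2 hk1 ha ham hEm hg1 hsh
    have hpow' : (k : ℝ) ^ (2 * cyc T - 1) ≤ 3 ^ e := by exact_mod_cast hpow
    have h0 := (embC_le' (T := T) (g := cyc T) hn hq hV ha0 hP hι hU hj hHS hmark hkh hk1 hg1 hCh).2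
    have h2 : (k : ℝ) ^ (2 * cyc T - 2) ≤ (k : ℝ) ^ (2 * cyc T - 1) :=
      pow_le_pow_right₀ hk1' (by omega)
    have h3 : (2 : ℝ) ^ v ≤ 2 * 2 ^ e := by
      calc (2 : ℝ) ^ v ≤ 2 ^ (e + 1) := pow_le_pow_right₀ (by norm_num) hve
        _ = _ := by rw [pow_succ]; ring
    have h4 : (1 : ℝ) + 2 ^ v ≤ 8 ^ e := by
      have h5 : (1 : ℝ) ≤ 2 ^ e := one_le_pow₀ (by norm_num)
      have h6 : (4 : ℝ) ≤ 4 ^ e := by
        calc (4 : ℝ) = 4 ^ 1 := by norm_num
          _ ≤ 4 ^ e := pow_le_pow_right₀ (by norm_num) hE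
      have e1 : (8 : ℝ) ^ e = 4 ^ e * 2 ^ e := by
        rw [← mul_pow]
        norm_num
      rw [e1]
      have h7 : (4 : ℝ) * 2 ^ e ≤ 4 ^ e * 2 ^ e := mul_le_mul_of_nonneg_right h6 (by positivity)
      linarith
    have hD0 : 0 ≤ ((2 * n).descFactorial v : ℝ) * (64 * P) ^ e := by positivity
    have hsum : ((Emb T H Finset.univ).card : ℝ) ≤
        ((2 * n).descFactorial v : ℝ) * (64 * P) ^ e * (k : ℝ) ^ (2 * cyc T - 1) *
          ((1 : ℝ) + 2 ^ v) := by
      refine hsplit.trans ?_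
      have h5 := mul_le_mul_of_nonneg_left h2 hD0
      have h6 : ((2 * n).descFactorial v : ℝ) * (64 * P) ^ e * (k : ℝ) ^ (2 * cyc T - 2) * 2 ^ v ≤
          ((2 * n).descFactorial v : ℝ) * (64 * P) ^ e * (k : ℝ) ^ (2 * cyc T - 1) * 2 ^ v :=
        mul_le_mul_of_nonneg_right h5 (by positivity)
      have e2 : ((2 * n).descFactorial v : ℝ) * (64 * P) ^ e * (k : ℝ) ^ (2 * cyc T - 1) *
          ((1 : ℝ) + 2 ^ v) = ((2 * n).descFactorial v : ℝ) * (64 * P) ^ e * (k : ℝ) ^ (2 * cyc T - 1) +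
            ((2 * n).descFactorial v : ℝ) * (64 * P) ^ e * (k : ℝ) ^ (2 * cyc T - 1) * 2 ^ v := by
        ring
      rw [e2]
      exact add_le_add h0 h6
    refine hsum.trans ?_
    have h5 : (64 * P) ^ e * (k : ℝ) ^ (2 * cyc T - 1) * ((1 : ℝ) + 2 ^ v) ≤
        (20000000 * q) ^ e := by
      have e1 : (20000000 * q) ^ e =
          (832384 * q) ^ e * 3 ^ e * 8 ^ e * (((20000000 : ℝ) / 19977216) ^ e) := by
        rw [← mul_pow, ← mul_pow, ← mul_pow]
        congr 1
        field_simp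
        ring
      rw [e1]
      have h6 : (1 : ℝ) ≤ ((20000000 : ℝ) / 19977216) ^ e :=
        one_le_pow₀ (by norm_num)
      calc (64 * P) ^ e * (k : ℝ) ^ (2 * cyc T - 1) * ((1 : ℝ) + 2 ^ v)
          ≤ (832384 * q) ^ e * 3 ^ e * 8 ^ e := by
            refine mul_le_mul ?_ h4 (by positivity) (by positivity)
            exact mul_le_mul h64e hpow' (by positivity) hqe
        _ = (832384 * q) ^ e * 3 ^ e * 8 ^ e * 1 := by ring
        _ ≤ _ := mul_le_mul_of_nonneg_left h6 (by positivity)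
    calc ((2 * n).descFactorial v : ℝ) * (64 * P) ^ e * (k : ℝ) ^ (2 * cyc T - 1) *
          ((1 : ℝ) + 2 ^ v)
        = ((2 * n).descFactorial v : ℝ) *
            ((64 * P) ^ e * (k : ℝ) ^ (2 * cyc T - 1) * ((1 : ℝ) + 2 ^ v)) := by ring
      _ ≤ _ := mul_le_mul_of_nonneg_left h5 hdesc

end Vale.Agent.Lib.P064c
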