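import Vale.Agent.Lib.P064c.Final2
import Vale.Agent.Lib.P064c.ChTB

/-!
The bound for connected graphs.
-/

namespace Vale.Agent.Lib.P064c

open Finset SimpleGraph Vale.Agent.Lib.P064 Vale.Agent.Lib.P064k
open scoped Classical Nat

set_option linter.unusedSectionVars false
set_option linter.unusedVariables false

universe u u' v

variable {Z : Type u} [Fintype Z] {V₀ : Type v} [Fintype V₀]

/-- The constant. -/
noncomputable def constW : ℝ := constU + 20000000

lemma card_hostT_le {U : Type u'} [Fintype U] (H : SimpleGraph V₀) (Δ : ℕ) (ι : V₀ → U) :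
    (hostT H Δ ι).card ≤ numEdges H + Fintype.card V₀ := by
  unfold hostT
  refine (Finset.card_union_le _ _).trans (Nat.add_le_add ?_ ?_)
  · rw [← card_edgesF]
    exact Finset.card_image_le
  · refine Finset.card_image_le.trans ?_
    exact (Finset.card_le_univ _)

/-- The bound for a connected graph. -/
theorem conn_uni' {H : SimpleGraph V₀} {n m : ℕ} {q : ℝ} (hn : 0 < n) (hq : 0 < q)
    (hV : Fintype.card V₀ ≤ n) (hyp : ∀ F : H.Subgraph, 1 ≤ expCopies n q F.coe)
    (hnq : (m : ℝ) ≤ n * q) (hm : 2 * (Nat.log 2 n + 1) ≤ 2 ^ m) (hm1 : 1 ≤ m)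
    (ham : ((n : ℝ) * q) ^ (2 * m) < n)
    {T : SimpleGraph Z} (hT : T.Connected) (hE : 1 ≤ numEdges T) :
    ((Emb T H Finset.univ).card : ℝ) ≤ (2 * (n : ℝ)) ^ Fintype.card Z *
      (constW * q) ^ numEdges T := by
  have hU0 := constU_ge
  have hn' : (0 : ℝ) < n := by exact_mod_cast hn
  have hdiv0 : (0 : ℝ) ≤ (2 * (n : ℝ)) ^ Fintype.card Z := by positivity
  set ell := Nat.log 2 n + 1 with hell
  have hell1 : 1 ≤ ell := by omega
  have hm1' : (1 : ℝ) ≤ m := by exact_mod_cast hm1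
  have ha : 1 ≤ (n : ℝ) * q := hm1'.trans hnq
  have hW1 : constU ≤ constW := by
    unfold constW
    linarith
  have hW2 : (20000000 : ℝ) ≤ constW := by
    unfold constW
    linarith
  set e := numEdges T with he
  set v := Fintype.card Z with hv
  by_cases hvn : v ≤ n
  swap
  · have h0 : Emb T H Finset.univ = ∅ := by
      refine Finset.eq_empty_of_forall_notMem fun f hf => ?_
      rcases mem_Emb.mp hf with ⟨h1, _, _⟩
      have := Fintype.card_le_of_injective f h1
      omega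
    rw [h0]
    simp only [Finset.card_empty, Nat.cast_zero]
    positivity
  have hve := card_le_of_connected hT
  by_cases hg0 : cyc T = 0
  · -- a tree
    have hev : v = e + 1 := by
      unfold cyc at hg0
      omega
    have hK0 := constK_pos
    have h1 := card_emb_general hn hV hq (oBound_of_hyp hq hyp) hT (m := e) hev
    refine h1.trans ?_
    rw [hev]
    have h2 : ((e : ℝ) + 1) ≤ 2 ^ e := by
      exact_mod_cast Nat.lt_two_pow_self (n := e)
    have h3 : (24 : ℝ) ≤ 24 ^ e := by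
      calc (24 : ℝ) = 24 ^ 1 := by norm_num
        _ ≤ 24 ^ e := pow_le_pow_right₀ (by norm_num) hE
    have e1 : (2 * (n : ℝ)) ^ (e + 1) * (constU * q) ^ e =
        (2 * (2 ^ e * 24 ^ e)) * ((n : ℝ) * (constK * n * q) ^ e) := by
      have e2 : constU * q = 24 * (constK * q) := by
        unfold constU
        ring
      rw [e2, pow_succ, mul_pow, mul_pow, mul_pow, mul_pow, mul_pow]
      ring
    have h4 : 0 ≤ (n : ℝ) * (constK * n * q) ^ e := by positivity
    have h5 : ((e : ℝ) + 1) * 24 ≤ 2 * (2 ^ e * 24 ^ e) := by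
      have := mul_le_mul h2 h3 (by norm_num) (by positivity)
      have h6 : (0 : ℝ) ≤ 2 ^ e * 24 ^ e := by positivity
      linarith
    have h6 : (2 * (n : ℝ)) ^ (e + 1) * (constU * q) ^ e ≤
        (2 * (n : ℝ)) ^ (e + 1) * (constW * q) ^ e := by
      refine mul_le_mul_of_nonneg_left ?_ (by positivity)
      refine pow_le_pow_left₀ (by positivity) ?_ e
      exact mul_le_mul_of_nonneg_right hW1 hq.le
    refine le_trans ?_ h6
    rw [e1]
    calc ((e : ℝ) + 1) * (constK * n * q) ^ e * (24 * n)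
        = (((e : ℝ) + 1) * 24) * ((n : ℝ) * (constK * n * q) ^ e) := by ring
      _ ≤ _ := mul_le_mul_of_nonneg_right h5 h4
  -- the host
  have hUc : Fintype.card (V₀ ⊕ ULift.{v} (Fin (2 * n - Fintype.card V₀))) = 2 * n := by
    rw [Fintype.card_sum, Fintype.card_ulift, Fintype.card_fin]
    omega
  let U' : Type v := V₀ ⊕ ULift.{v} (Fin (2 * n - Fintype.card V₀))
  let ι : V₀ → U' := fun x => Sum.inl x
  have hι : Function.Injective ι := fun a b h => Sum.inl.inj h
  have hU' : Fintype.card U' = 2 * n := hUc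
  have hZU : Fintype.card Z ≤ Fintype.card U' := by rw [hU']; omega
  obtain ⟨je⟩ := Function.Embedding.nonempty_of_card_le hZU
  have hj := je.injective
  set Δ := ⌈12000 * ((n : ℝ) * q)⌉₊ with hΔ
  have hΔa : 12000 * ((n : ℝ) * q) ≤ Δ := Nat.le_ceil _
  have hΔb : (Δ : ℝ) + 1 ≤ 13000 * ((n : ℝ) * q) := by
    have h1 : (Δ : ℝ) < 12000 * ((n : ℝ) * q) + 1 := Nat.ceil_lt_add_one (by positivity)
    linarith
  set k := 2 * ell with hk
  have hk2 : k ≤ 2 ^ m := hm
  have hL : 85 * (Nat.log 2 k + 1) ≤ Δ := by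
    have h1 : Nat.log 2 k ≤ m := by
      calc Nat.log 2 k ≤ Nat.log 2 (2 ^ m) := Nat.log_mono_right hk2
        _ = m := Nat.log_pow (by norm_num) m
    have h2 : ((85 * (m + 1) : ℕ) : ℝ) ≤ Δ := by
      push_cast
      nlinarith
    have h3 : 85 * (m + 1) ≤ Δ := by exact_mod_cast h2
    have h4 : 85 * (Nat.log 2 k + 1) ≤ 85 * (m + 1) := by omega
    omega
  have hnt : n < 2 ^ ell := Nat.lt_pow_succ_log_self (by norm_num) n
  have hkh : (hostT H Δ ι).card < 2 ^ k := by
    have h1 := card_hostT_le H Δ ι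
    have h2 : numEdges H ≤ n ^ 2 :=
      (numEdges_le_sq H).trans (Nat.pow_le_pow_left hV 2)
    have h3 : (n + 1) ^ 2 ≤ (2 ^ ell) ^ 2 := Nat.pow_le_pow_left hnt 2
    have h4 : (2 : ℕ) ^ k = (2 ^ ell) ^ 2 := by
      rw [hk, ← pow_mul]
      ring_nf
    rw [h4]
    have h5 : (n + 1) ^ 2 = n ^ 2 + 2 * n + 1 := by ring
    omega
  have hden : (n : ℝ) * q ^ 2 < 1 := by
    have h1 : ((n : ℝ) * q) ^ 2 ≤ ((n : ℝ) * q) ^ (2 * m) :=
      pow_le_pow_right₀ ha (by omega)
    have h2 : ((n : ℝ) * q) ^ 2 < n := h1.trans_lt ham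
    have h3 : (n : ℝ) * ((n : ℝ) * q ^ 2) < (n : ℝ) * 1 := by
      have e1 : (n : ℝ) * ((n : ℝ) * q ^ 2) = ((n : ℝ) * q) ^ 2 := by ring
      rw [e1, mul_one]
      exact h2
    exact lt_of_mul_lt_mul_left h3 hn'.le
  set P := 6 * q + ((Δ : ℝ) + 1) / n with hP
  have hP1 : 6 * q ≤ P := by
    rw [hP]
    have : 0 ≤ ((Δ : ℝ) + 1) / n := by positivity
    linarith
  have hP2 : ((Δ : ℝ) + 1) / n ≤ P := by
    rw [hP]
    have : 0 ≤ 6 * q := by positivity
    linarith
  have h6a : 6 * ((n : ℝ) * q) ≤ Δ := by linarith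
  have hR2 : 3 / 2 * ((Δ : ℝ) + 1) ≤ (140 : ℝ) ^ 2 * ((n : ℝ) * q) := by
    linarith
  have hs1 := hs_final (U := U') (P := P) (R := 140) (a := (n : ℝ) * q) hn hq hV hyp hden hι hU'
    rfl ha h6a hP1 hP2 (by norm_num) hR2
  have hs2 := hmark_final (U := U') (P := P) (R := 140) (a := (n : ℝ) * q) hn hq hV hyp hden hι hU'
    rfl ha h6a hP1 hP2 (by norm_num) hR2
  have hk1 : 1 ≤ k := by omega
  have hCh' : ∀ γ : Z → ℕ, ChT k (typedOf T je γ) ≤
      32 ^ (numEdges T + 6 * bOf γ) * k ^ (2 * cyc T + 4 * bOf γ - 1) := by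
    intro γ
    exact ChT_bound hT hj γ hk1
  have hcyc : 1 ≤ cyc T := by omega
  have hmain := conn_cycle (T := T) (m := m) hn hq hV hyp hι hU' hj hs1 hs2 hkh (by omega) hk2 hT
    hcyc hE hCh' hΔa hΔb hL ha ham
  refine hmain.trans ?_
  have hdesc : ((2 * n).descFactorial v : ℝ) ≤ (2 * (n : ℝ)) ^ v := by
    have : ((2 * n).descFactorial v : ℝ) ≤ ((2 * n : ℕ) : ℝ) ^ v := by
      exact_mod_cast Nat.descFactorial_le_pow _ _
    simpa using this
  refine mul_le_mul hdesc ?_ (by positivity) hdiv0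
  exact pow_le_pow_left₀ (by positivity) (mul_le_mul_of_nonneg_right hW2 hq.le) e

end Vale.Agent.Lib.P064c
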