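import Vale.Agent.Lib.P064k.Uni
import Vale.Agent.Lib.P064r.Tokens

/-!
A bound for a group of permutations preserving a set of pairs and a set of marked points.
-/

namespace Vale.Agent.Lib.P064c

open Finset SimpleGraph Vale.Agent.Lib.P064 Vale.Agent.Lib.P064k
open scoped Classical Nat

set_option linter.unusedSectionVars false
set_option linter.unusedVariables false

variable {U : Type*} [Fintype U]

/-- The set `J` together with the pairs from the marked points to their lists. -/
noncomputable def addPairs (J : Finset (Sym2 U)) (Y : Finset U) (L : U → Finset U) :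
    Finset (Sym2 U) :=
  J ∪ Y.biUnion (fun y => (L y).image (fun z => s(y, z)))

lemma mem_addPairs_left {J : Finset (Sym2 U)} {Y : Finset U} {L : U → Finset U} {e : Sym2 U}
    (he : e ∈ J) : e ∈ addPairs J Y L :=
  Finset.mem_union_left _ he

lemma mem_addPairs_right {J : Finset (Sym2 U)} {Y : Finset U} {L : U → Finset U} {y z : U}
    (hy : y ∈ Y) (hz : z ∈ L y) : s(y, z) ∈ addPairs J Y L :=
  Finset.mem_union_right _ (Finset.mem_biUnion.mpr ⟨y, hy, Finset.mem_image_of_mem _ hz⟩)

lemma mem_addPairs {J : Finset (Sym2 U)} {Y : Finset U} {L : U → Finset U} {e : Sym2 U} :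
    e ∈ addPairs J Y L ↔ e ∈ J ∨ ∃ y ∈ Y, ∃ z ∈ L y, s(y, z) = e := by
  unfold addPairs
  simp only [Finset.mem_union, Finset.mem_biUnion, Finset.mem_image]

/-- The group bound. -/
theorem stab_bound (J : Finset (Sym2 U)) (Y : Finset U) (L : U → Finset U)
    (A : Finset (Equiv.Perm U))
    (hA : ∀ σ ∈ A, ∀ τ ∈ A, σ⁻¹ * τ ∈ A)
    (hJ : ∀ σ ∈ A, ∀ e ∈ J, Sym2.map σ e ∈ J) (hY : ∀ σ ∈ A, ∀ y ∈ Y, σ y ∈ Y)
    (hL : ∀ σ ∈ A, ∀ y ∈ Y, (L (σ y)).card = (L y).card) :
    A.card ≤ mm (addPairs J Y L) (addPairs J Y L) *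
      ∏ y ∈ Y, (Fintype.card U).choose (L y).card := by
  classical
  set Φ : Equiv.Perm U → (U → Finset U) :=
    fun σ y' => if y' ∈ Y then (L (σ⁻¹ y')).image σ else ∅ with hΦ
  set P : Finset (U → Finset U) := Fintype.piFinset (fun y' =>
    if y' ∈ Y then Finset.powersetCard (L y').card (Finset.univ : Finset U) else {∅}) with hP
  have hone : ∀ σ ∈ A, (1 : Equiv.Perm U) ∈ A := by
    intro σ hσ
    have := hA σ hσ σ hσ
    simpa using this
  have hinv : ∀ σ ∈ A, σ⁻¹ ∈ A := by
    intro σ hσ
    have := hA σ hσ 1 (hone σ hσ)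
    simpa using this
  have hcardP : P.card = ∏ y ∈ Y, (Fintype.card U).choose (L y).card := by
    rw [hP, Fintype.card_piFinset]
    have h1 : ∀ y' : U, (if y' ∈ Y then Finset.powersetCard (L y').card (Finset.univ : Finset U)
        else {∅}).card = if y' ∈ Y then (Fintype.card U).choose (L y').card else 1 := by
      intro y'
      by_cases h : y' ∈ Y
      · simp only [h, if_true, Finset.card_powersetCard, Finset.card_univ]
      · simp only [h, if_false, Finset.card_singleton]
    simp_rw [h1]
    rw [Finset.prod_ite_mem, Finset.univ_inter]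
  rw [← hcardP]
  refine Finset.card_le_mul_card_image_of_maps_to (f := Φ) ?_ _ ?_
  · intro σ hσ
    rw [hP, Fintype.mem_piFinset]
    intro y'
    by_cases hy : y' ∈ Y
    · simp only [hΦ, hy, if_true]
      rw [Finset.mem_powersetCard]
      refine ⟨Finset.subset_univ _, ?_⟩
      rw [Finset.card_image_of_injective _ σ.injective]
      have h1 := hY _ (hinv σ hσ) y' hy
      have h2 := hL σ hσ _ h1
      have h3 : σ (σ⁻¹ y') = y' := by simp
      rw [h3] at h2
      exact h2.symm
    · simp only [hΦ, hy, if_false, Finset.mem_singleton]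
  · intro b _
    by_cases hne : (A.filter (fun a => Φ a = b)).Nonempty
    · obtain ⟨σ₀, hσ₀⟩ := hne
      rcases Finset.mem_filter.mp hσ₀ with ⟨hσ₀A, hσ₀b⟩
      unfold mm
      refine Finset.card_le_card_of_injOn (fun σ => σ₀⁻¹ * σ) ?_ ?_
      · intro σ hσ
        rcases Finset.mem_filter.mp (Finset.mem_coe.mp hσ) with ⟨hσA, hσb⟩
        have hτ := hA σ₀ hσ₀A σ hσA
        refine Finset.mem_coe.mpr (mem_intoP.mpr fun e he => ?_)
        rcases mem_addPairs.mp he with he | ⟨y, hy, z, hz, rfl⟩
        · exact mem_addPairs_left (hJ _ hτ e he)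
        · have hy' := hY _ hτ y hy
          have h1 : σ y ∈ Y := hY σ hσA y hy
          have h2 : Φ σ (σ y) = Φ σ₀ (σ y) := by rw [hσb, hσ₀b]
          have h0 : σ⁻¹ (σ y) = y := by simp
          simp only [hΦ, h1, if_true, h0] at h2
          have h3 : σ z ∈ (L (σ₀⁻¹ (σ y))).image σ₀ := by
            rw [← h2]
            exact Finset.mem_image_of_mem _ hz
          obtain ⟨z', hz', hzz⟩ := Finset.mem_image.mp h3
          have h4 : (σ₀⁻¹ * σ) z = z' := by
            simp only [Equiv.Perm.coe_mul, Function.comp_apply]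
            rw [← hzz]
            simp
          have h5 : Sym2.map (⇑(σ₀⁻¹ * σ)) s(y, z) = s((σ₀⁻¹ * σ) y, z') := by
            simp only [Sym2.map_mk, h4]
          rw [h5]
          refine mem_addPairs_right hy' ?_
          simpa using hz'
      · intro σ _ σ' _ h
        simpa using h
    · rw [Finset.not_nonempty_iff_eq_empty] at hne
      rw [hne]
      simp

end Vale.Agent.Lib.P064c
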