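import Vale.Agent.Lib.P064c.Wts
import Vale.Agent.Lib.P064c.Stab

/-!
The bound for the stabilisers of typed sets of pairs.
-/

namespace Vale.Agent.Lib.P064c

open Finset SimpleGraph Vale.Agent.Lib.P064 Vale.Agent.Lib.P064k Vale.Agent.Lib.P064r
open scoped Classical Nat

set_option linter.unusedSectionVars false
set_option linter.unusedVariables false

universe u v

variable {U : Type*} [Fintype U] {V₀ : Type v} [Fintype V₀]

/-- The degree of a vertex in a set of pairs. -/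
noncomputable def dg (F₀ : Finset (Sym2 V₀)) (x : V₀) : ℕ := (F₀.filter (fun e => x ∈ e)).card

/-- The size of the list at a marked vertex. -/
noncomputable def lsz (H : SimpleGraph V₀) (F₀ : Finset (Sym2 V₀)) (x : V₀) : ℕ :=
  (nb H x).card - dg F₀ x - 4

/-- The kept neighbours of a vertex. -/
noncomputable def keepN (H : SimpleGraph V₀) (T : V₀ → V₀ → ℝ) (c : ℝ) (F₀ : Finset (Sym2 V₀))
    (x : V₀) : Finset V₀ :=
  (nb H x).filter (fun w => T x w < c / 2 ∧ s(x, w) ∉ F₀)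

lemma keepN_card {H : SimpleGraph V₀} {T : V₀ → V₀ → ℝ} {c : ℝ}
    (h0 : ∀ x y, H.Adj x y → 0 ≤ T x y)
    (hcap : ∀ x, ∑ y ∈ Finset.univ.filter (H.Adj x), T x y ≤ 2 * c) (hc : 0 < c)
    (F₀ : Finset (Sym2 V₀)) (x : V₀) : lsz H F₀ x ≤ (keepN H T c F₀ x).card := by
  have h1 := rank_card (c := c) (τ := c / 2) h0 hcap x
  set lost := Finset.univ.filter (fun y => H.Adj x y ∧ c / 2 ≤ T x y) with hlost
  have h2 : lost.card ≤ 4 := by
    have h3 : (lost.card : ℝ) ≤ 4 := by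
      have h4 : (lost.card : ℝ) * c ≤ 4 * c := by nlinarith
      exact le_of_mul_le_mul_right h4 hc
    exact_mod_cast h3
  set inn := (nb H x).filter (fun w => s(x, w) ∈ F₀) with hinn
  have h3 : inn.card ≤ dg F₀ x := by
    refine Finset.card_le_card_of_injOn (fun w => s(x, w)) ?_ ?_
    · intro w hw
      have hw' := Finset.mem_coe.mp hw
      exact Finset.mem_coe.mpr (Finset.mem_filter.mpr
        ⟨(Finset.mem_filter.mp hw').2, Sym2.mem_mk_left _ _⟩)
    · intro w _ w' _ h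
      exact Sym2.congr_right.mp h
  have h4 : nb H x ⊆ keepN H T c F₀ x ∪ (lost ∪ inn) := by
    intro w hw
    simp only [Finset.mem_union]
    by_cases h5 : s(x, w) ∈ F₀
    · exact Or.inr (Or.inr (Finset.mem_filter.mpr ⟨hw, h5⟩))
    · by_cases h6 : T x w < c / 2
      · exact Or.inl (Finset.mem_filter.mpr ⟨hw, h6, h5⟩)
      · exact Or.inr (Or.inl (Finset.mem_filter.mpr
          ⟨Finset.mem_univ _, mem_nb.mp hw, not_lt.mp h6⟩))
  have h5 := Finset.card_le_card h4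
  have h6 := Finset.card_union_le (keepN H T c F₀ x) (lost ∪ inn)
  have h7 := Finset.card_union_le lost inn
  unfold lsz
  omega

lemma card_at_img {ι : V₀ → U} (hι : Function.Injective ι) (F₀ : Finset (Sym2 V₀)) (x : V₀) :
    (at' (imgE ι F₀) (ι x)).card = dg F₀ x := by
  have h : at' (imgE ι F₀) (ι x) = (F₀.filter (fun e => x ∈ e)).image (Sym2.map ι) := by
    ext e
    simp only [mem_at', imgE, Finset.mem_image, Finset.mem_filter]
    constructor
    · rintro ⟨⟨e', he', rfl⟩, h2⟩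
      obtain ⟨y, hy, hyx⟩ := Sym2.mem_map.mp h2
      have := hι hyx
      subst this
      exact ⟨e', ⟨he', hy⟩, rfl⟩
    · rintro ⟨e', ⟨he', h2⟩, rfl⟩
      exact ⟨⟨e', he', rfl⟩, Sym2.mem_map.mpr ⟨x, h2, rfl⟩⟩
  rw [h, Finset.card_image_of_injective _ (Sym2.map.injective hι)]
  rfl

lemma card_at_le {J : Finset (Sym2 U)} {σ : Equiv.Perm U} (h : ∀ e ∈ J, Sym2.map σ e ∈ J) (y : U) :
    (at' J y).card ≤ (at' J (σ y)).card := by
  refine Finset.card_le_card_of_injOn (Sym2.map σ) ?_ ?_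
  · intro e he
    rcases mem_at'.mp (Finset.mem_coe.mp he) with ⟨h1, h2⟩
    exact Finset.mem_coe.mpr (mem_at'.mpr ⟨h _ h1, Sym2.mem_map.mpr ⟨y, h2, rfl⟩⟩)
  · intro a _ b _ hab
    exact map_perm_inj σ hab

/-- The core bound for a group of permutations. -/
theorem core_bound {H : SimpleGraph V₀} {n : ℕ} {q c : ℝ} {T : V₀ → V₀ → ℝ} (hq : 0 < q)
    (hV : Fintype.card V₀ ≤ n) (hyp : ∀ F : H.Subgraph, 1 ≤ expCopies n q F.coe)
    (h0 : ∀ x y, H.Adj x y → 0 ≤ T x y) (hT : ∀ x y, H.Adj x y → T x y + T y x = c)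
    (hcap : ∀ x, ∑ y ∈ Finset.univ.filter (H.Adj x), T x y ≤ 2 * c) (hc : 0 < c)
    {ι : V₀ → U} (hι : Function.Injective ι) (hN : n ≤ Fintype.card U)
    (F₀ : Finset (Sym2 V₀)) (hF₀ : F₀ ⊆ edgesF H) (Y₀ : Finset V₀) (A : Finset (Equiv.Perm U))
    (hA : ∀ σ ∈ A, ∀ τ ∈ A, σ⁻¹ * τ ∈ A)
    (hJ : ∀ σ ∈ A, ∀ e ∈ F₀, Sym2.map σ (Sym2.map ι e) ∈ imgE ι F₀)
    (hY : ∀ σ ∈ A, ∀ x ∈ Y₀, ∃ x' ∈ Y₀, σ (ι x) = ι x' ∧ (nb H x').card = (nb H x).card) :
    (A.card : ℝ) ≤ ((Fintype.card U)! : ℝ) * q ^ F₀.card *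
      ∏ x ∈ Y₀, (((Fintype.card U).choose (lsz H F₀ x) : ℝ) * q ^ lsz H F₀ x) := by
  classical
  have hex : ∀ x, ∃ S, S ⊆ keepN H T c F₀ x ∧ S.card = lsz H F₀ x := fun x =>
    Finset.exists_subset_card_eq (keepN_card h0 hcap hc F₀ x)
  choose L₀ hL₀ hL₀c using hex
  set L : U → Finset U := fun y => if h : ∃ x, ι x = y then (L₀ h.choose).image ι else ∅ with hLdef
  have hLι : ∀ x, L (ι x) = (L₀ x).image ι := by
    intro x
    have h : ∃ x', ι x' = ι x := ⟨x, rfl⟩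
    simp only [hLdef]
    rw [dif_pos h, hι h.choose_spec]
  have hLc : ∀ x, (L (ι x)).card = lsz H F₀ x := by
    intro x
    rw [hLι, Finset.card_image_of_injective _ hι, hL₀c]
  set J := imgE ι F₀ with hJdef
  set Y := Y₀.image ι with hYdef
  have hJ' : ∀ σ ∈ A, ∀ e ∈ J, Sym2.map σ e ∈ J := by
    intro σ hσ e he
    obtain ⟨e', he', rfl⟩ := Finset.mem_image.mp he
    exact hJ σ hσ e' he'
  have hY' : ∀ σ ∈ A, ∀ y ∈ Y, σ y ∈ Y := by
    intro σ hσ y hy
    obtain ⟨x, hx, rfl⟩ := Finset.mem_image.mp hy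
    obtain ⟨x', hx', h1, _⟩ := hY σ hσ x hx
    rw [h1]
    exact Finset.mem_image_of_mem _ hx'
  have hone : ∀ σ ∈ A, (1 : Equiv.Perm U) ∈ A := by
    intro σ hσ
    have := hA σ hσ σ hσ
    simpa using this
  have hinv : ∀ σ ∈ A, σ⁻¹ ∈ A := by
    intro σ hσ
    have := hA σ hσ 1 (hone σ hσ)
    simpa using this
  have hL' : ∀ σ ∈ A, ∀ y ∈ Y, (L (σ y)).card = (L y).card := by
    intro σ hσ y hy
    obtain ⟨x, hx, rfl⟩ := Finset.mem_image.mp hy
    obtain ⟨x', hx', h1, h2⟩ := hY σ hσ x hx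
    rw [h1, hLc, hLc]
    have h3 : dg F₀ x = dg F₀ x' := by
      rw [← card_at_img hι, ← card_at_img hι]
      apply le_antisymm
      · have := card_at_le (hJ' σ hσ) (ι x)
        rwa [h1] at this
      · have := card_at_le (hJ' _ (hinv σ hσ)) (ι x')
        have h4 : σ⁻¹ (ι x') = ι x := by
          rw [← h1]
          simp
        rwa [h4] at this
    unfold lsz
    rw [h2, h3]
  have hst := stab_bound J Y L A hA hJ' hY' hL'
  -- the elements of the added pairs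
  have hadd : ∀ x ∈ Y₀, ∀ z ∈ L (ι x), ∃ w ∈ L₀ x, z = ι w ∧ H.Adj x w ∧ T x w < c / 2 ∧
      s(x, w) ∉ F₀ := by
    intro x _ z hz
    rw [hLι] at hz
    obtain ⟨w, hw, rfl⟩ := Finset.mem_image.mp hz
    rcases Finset.mem_filter.mp (hL₀ x hw) with ⟨h1, h2, h3⟩
    exact ⟨w, hw, rfl, mem_nb.mp h1, h2, h3⟩
  set Jp := addPairs J Y L with hJp
  have hsub : Jp ⊆ imgE ι (edgesF H) := by
    intro e he
    rcases mem_addPairs.mp he with h1 | ⟨y, hy, z, hz, rfl⟩
    · obtain ⟨e', he', rfl⟩ := Finset.mem_image.mp h1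
      exact Finset.mem_image_of_mem _ (hF₀ he')
    · obtain ⟨x, hx, rfl⟩ := Finset.mem_image.mp hy
      obtain ⟨w, _, rfl, h2, _, _⟩ := hadd x hx z hz
      exact Finset.mem_image.mpr ⟨s(x, w), mem_edgesF.mpr h2, rfl⟩
  have hself := self_count hq hV hyp hι hN hsub
  have hcardJ : J.card = F₀.card := card_imgE hι F₀
  have hinjmap := Sym2.map.injective hι
  have hdisj1 : Disjoint J (Y.biUnion (fun y => (L y).image (fun z => s(y, z)))) := by
    rw [Finset.disjoint_left]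
    intro e he he'
    obtain ⟨y, hy, h2⟩ := Finset.mem_biUnion.mp he'
    obtain ⟨z, hz, rfl⟩ := Finset.mem_image.mp h2
    obtain ⟨x, hx, rfl⟩ := Finset.mem_image.mp hy
    obtain ⟨w, _, rfl, _, _, h5⟩ := hadd x hx z hz
    obtain ⟨e', he', h6⟩ := Finset.mem_image.mp he
    have h7 : Sym2.map ι e' = Sym2.map ι s(x, w) := by
      rw [h6]
      rfl
    rw [hinjmap h7] at he'
    exact h5 he'
  have hdisj2 : ∀ y ∈ Y, ∀ y' ∈ Y, y ≠ y' → Disjoint ((L y).image (fun z => s(y, z)))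
      ((L y').image (fun z => s(y', z))) := by
    intro y hy y' hy' hne
    rw [Finset.disjoint_left]
    intro e he he'
    obtain ⟨z, hz, rfl⟩ := Finset.mem_image.mp he
    obtain ⟨z', hz', h1⟩ := Finset.mem_image.mp he'
    obtain ⟨x, hx, rfl⟩ := Finset.mem_image.mp hy
    obtain ⟨x', hx', rfl⟩ := Finset.mem_image.mp hy'
    obtain ⟨w, _, rfl, h3, h4, _⟩ := hadd x hx z hz
    obtain ⟨w', _, rfl, h3', h4', _⟩ := hadd x' hx' z' hz'
    rcases Sym2.eq_iff.mp h1 with ⟨h5, _⟩ | ⟨h5, h6⟩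
    · exact hne h5.symm
    · have h7 := hι h5
      have h8 := hι h6
      subst h7
      subst h8
      have := hT _ _ h3
      linarith
  have hcardJp : Jp.card = F₀.card + ∑ x ∈ Y₀, lsz H F₀ x := by
    rw [hJp]
    unfold addPairs
    rw [Finset.card_union_of_disjoint hdisj1, Finset.card_biUnion hdisj2, hcardJ]
    congr 1
    rw [hYdef, Finset.sum_image (fun a _ b _ h => hι h)]
    refine Finset.sum_congr rfl fun x _ => ?_
    rw [Finset.card_image_of_injective _ (fun a b h => Sym2.congr_right.mp h), hLc]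
  have hprodY : ∏ y ∈ Y, (Fintype.card U).choose (L y).card =
      ∏ x ∈ Y₀, (Fintype.card U).choose (lsz H F₀ x) := by
    rw [hYdef, Finset.prod_image (fun a _ b _ h => hι h)]
    refine Finset.prod_congr rfl fun x _ => ?_
    rw [hLc]
  rw [hprodY] at hst
  have hst' : (A.card : ℝ) ≤ (mm Jp Jp : ℝ) *
      ∏ x ∈ Y₀, ((Fintype.card U).choose (lsz H F₀ x) : ℝ) := by
    have : ((∏ x ∈ Y₀, (Fintype.card U).choose (lsz H F₀ x) : ℕ) : ℝ) =
        ∏ x ∈ Y₀, ((Fintype.card U).choose (lsz H F₀ x) : ℝ) := by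
      push_cast
      rfl
    rw [← this]
    exact_mod_cast hst
  have hpos : (0 : ℝ) ≤ ∏ x ∈ Y₀, ((Fintype.card U).choose (lsz H F₀ x) : ℝ) :=
    Finset.prod_nonneg fun _ _ => Nat.cast_nonneg _
  refine hst'.trans ((mul_le_mul_of_nonneg_right hself hpos).trans (le_of_eq ?_))
  rw [hcardJp, Finset.prod_mul_distrib, Finset.prod_pow_eq_pow_sum, pow_add]
  ring

/-- The binomial bound with the exponential. -/
lemma choose_le_exp (N D : ℕ) (hD : 0 < D) : (N.choose D : ℝ) ≤ (Real.exp 1 * N / D) ^ D := by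
  have h1 : (N.choose D : ℝ) ≤ (N : ℝ) ^ D / D ! := Nat.choose_le_pow_div D N
  have hD' : (0 : ℝ) < D := by exact_mod_cast hD
  have h2 := Real.pow_div_factorial_le_exp (x := (D : ℝ)) hD'.le D
  have hf : (0 : ℝ) < (D ! : ℝ) := by exact_mod_cast Nat.factorial_pos D
  rw [div_le_iff₀ hf, ← Real.exp_one_pow] at h2
  refine h1.trans ?_
  rw [div_le_iff₀ hf, div_pow, mul_pow, div_mul_eq_mul_div, le_div_iff₀ (by positivity)]
  have hN : (0 : ℝ) ≤ (N : ℝ) ^ D := by positivity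
  calc (N : ℝ) ^ D * (D : ℝ) ^ D ≤ (N : ℝ) ^ D * (Real.exp 1 ^ D * (D ! : ℝ)) :=
        mul_le_mul_of_nonneg_left h2 hN
    _ = _ := by ring

/-- The numerical bound for a marked vertex. -/
lemma term_bound {a q : ℝ} {n t d : ℕ} (ha0 : 0 < a) (hq : 0 < q) (ha : a = n * q)
    (ht : 2 * a ≤ ((t - 4 : ℕ) : ℝ)) :
    (((2 * n).choose (t - d - 4) : ℝ)) * q ^ (t - d - 4) ≤
      wMark a t * (((t - 4 : ℕ) : ℝ) / (2 * a)) ^ d := by
  set u := t - 4 with hu
  have hE : t - d - 4 = u - d := by omega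
  rw [hE]
  have hu0 : (0 : ℝ) < (u : ℝ) := by linarith
  have hkap : 1 ≤ (u : ℝ) / (2 * a) := by
    rw [le_div_iff₀ (by positivity)]
    linarith
  have hee : (1 : ℝ) ≤ Real.exp 1 := by
    have := Real.add_one_le_exp (1 : ℝ)
    linarith
  unfold wMark
  rw [← hu]
  by_cases hdu : u ≤ d
  · have h0 : u - d = 0 := by omega
    rw [h0]
    simp only [Nat.choose_zero_right, Nat.cast_one, pow_zero, mul_one]
    have h1 : ((u : ℝ) / (2 * a)) ^ u ≤ ((u : ℝ) / (2 * a)) ^ d :=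
      pow_le_pow_right₀ hkap hdu
    have h2 : (2 * Real.exp 1 * a / (u : ℝ)) ^ u * ((u : ℝ) / (2 * a)) ^ u = Real.exp 1 ^ u := by
      rw [← mul_pow]
      congr 1
      field_simp
    have h3 : (1 : ℝ) ≤ Real.exp 1 ^ u := one_le_pow₀ hee
    have h4 : (0 : ℝ) ≤ (2 * Real.exp 1 * a / (u : ℝ)) ^ u := by positivity
    calc (1 : ℝ) ≤ Real.exp 1 ^ u := h3
      _ = _ := h2.symm
      _ ≤ _ := mul_le_mul_of_nonneg_left h1 h4
  · push Not at hdu
    set D := u - d with hDdef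
    have hD : 0 < D := by omega
    have hD' : (0 : ℝ) < D := by exact_mod_cast hD
    have huD : u = D + d := by omega
    have huD' : (u : ℝ) = (D : ℝ) + d := by rw [huD]; push_cast; ring
    have h1 := choose_le_exp (2 * n) D hD
    have h2 : ((2 * n).choose D : ℝ) * q ^ D ≤ (2 * Real.exp 1 * a / D) ^ D := by
      calc ((2 * n).choose D : ℝ) * q ^ D ≤ (Real.exp 1 * ((2 * n : ℕ) : ℝ) / D) ^ D * q ^ D :=
            mul_le_mul_of_nonneg_right h1 (by positivity)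
        _ = (2 * Real.exp 1 * a / D) ^ D := by
            rw [← mul_pow]
            congr 1
            rw [ha]
            push_cast
            ring
    refine h2.trans ?_
    -- the exact identity for the right side
    have h3 : (2 * Real.exp 1 * a / (u : ℝ)) ^ u * ((u : ℝ) / (2 * a)) ^ d =
        (2 * Real.exp 1 * a / (u : ℝ)) ^ D * Real.exp 1 ^ d := by
      rw [huD, pow_add, mul_assoc, ← mul_pow]
      rw [← huD]
      congr 2
      field_simp
    rw [h3]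
    have h4 : (2 * Real.exp 1 * a / D) = (2 * Real.exp 1 * a / (u : ℝ)) * ((u : ℝ) / D) := by
      field_simp
    rw [h4, mul_pow]
    refine mul_le_mul_of_nonneg_left ?_ (by positivity)
    have h5 : (u : ℝ) / D ≤ Real.exp ((d : ℝ) / D) := by
      have h6 := Real.add_one_le_exp ((d : ℝ) / D)
      have h7 : (u : ℝ) / D = (d : ℝ) / D + 1 := by
        rw [huD']
        field_simp
        ring
      rw [h7]
      exact h6
    calc ((u : ℝ) / D) ^ D ≤ Real.exp ((d : ℝ) / D) ^ D :=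
          pow_le_pow_left₀ (by positivity) h5 D
      _ = Real.exp 1 ^ d := by
          rw [← Real.exp_nat_mul, Real.exp_one_pow]
          congr 1
          field_simp

/-- The factor of a colour in the weight of a pair. -/
noncomputable def kap (a : ℝ) (i : ℕ) : ℝ := if i = 0 then 1 else ((i - 4 : ℕ) : ℝ) / (2 * a)

/-- The numerical bound for the weight of a pair. -/
lemma edge_weight {P R a q : ℝ} {n Δ i j : ℕ} (hn : 0 < n) (ha0 : 0 < a) (ha : a = n * q)
    (hP1 : 6 * q ≤ P) (hP2 : ((Δ : ℝ) + 1) / n ≤ P) (hR : 3 ≤ R)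
    (hR2 : 3 / 2 * ((Δ : ℝ) + 1) ≤ R ^ 2 * a) :
    6 * q * (kap a i * kap a j) ≤ P * rhoT R Δ i * rhoT R Δ j := by
  have hn' : (0 : ℝ) < n := by exact_mod_cast hn
  have hq : q = a / n := by
    rw [ha]
    field_simp
  have hD : (0 : ℝ) < (Δ : ℝ) + 1 := by positivity
  have hP : 0 < P := lt_of_lt_of_le (by positivity) hP2
  have hu : ∀ i : ℕ, ((i - 4 : ℕ) : ℝ) ≤ (i : ℝ) + 1 := by
    intro i
    have : ((i - 4 : ℕ) : ℝ) ≤ i := by exact_mod_cast Nat.sub_le _ _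
    linarith
  have hu0 : ∀ i : ℕ, (0 : ℝ) ≤ ((i - 4 : ℕ) : ℝ) := fun i => Nat.cast_nonneg _
  have hP3 : ∀ x : ℝ, 0 ≤ x → x * (((Δ : ℝ) + 1) / n) ≤ x * P := fun x hx =>
    mul_le_mul_of_nonneg_left hP2 hx
  have hone : ∀ i : ℕ, i ≠ 0 → 3 * ((i - 4 : ℕ) : ℝ) / n ≤ P * rhoT R Δ i := by
    intro i hi
    unfold rhoT
    rw [if_neg hi]
    have hx : (0 : ℝ) ≤ R * ((i : ℝ) + 1) / ((Δ : ℝ) + 1) := by positivity
    calc 3 * ((i - 4 : ℕ) : ℝ) / n ≤ R * ((i : ℝ) + 1) / n := by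
          refine div_le_div_of_nonneg_right ?_ hn'.le
          have := hu i
          have h0 := hu0 i
          nlinarith
      _ = (R * ((i : ℝ) + 1) / ((Δ : ℝ) + 1)) * (((Δ : ℝ) + 1) / n) := by
          field_simp
      _ ≤ (R * ((i : ℝ) + 1) / ((Δ : ℝ) + 1)) * P := hP3 _ hx
      _ = _ := by ring
  have hk : ∀ i : ℕ, i ≠ 0 → 6 * q * (((i - 4 : ℕ) : ℝ) / (2 * a)) = 3 * ((i - 4 : ℕ) : ℝ) / n := by
    intro i _
    rw [hq]
    field_simp
    ring
  by_cases hi : i = 0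
  · subst hi
    by_cases hj : j = 0
    · subst hj
      simp only [kap, rhoT, if_true]
      linarith
    · simp only [kap, rhoT, if_true, hj, if_false, one_mul, mul_one]
      rw [hk j hj]
      have := hone j hj
      simp only [rhoT, hj, if_false] at this
      exact this
  · by_cases hj : j = 0
    · subst hj
      simp only [kap, rhoT, if_true, hi, if_false, one_mul, mul_one]
      rw [hk i hi]
      have := hone i hi
      simp only [rhoT, hi, if_false] at this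
      exact this
    · simp only [kap, rhoT, hi, hj, if_false]
      have hx : (0 : ℝ) ≤ (R * ((i : ℝ) + 1) / ((Δ : ℝ) + 1)) * (R * ((j : ℝ) + 1) / ((Δ : ℝ) + 1)) := by
        positivity
      have hui := hu i
      have huj := hu j
      have hui0 := hu0 i
      have huj0 := hu0 j
      have hR0 : (0 : ℝ) < R := by linarith
      have e1 : 6 * q * (((i - 4 : ℕ) : ℝ) / (2 * a) * (((j - 4 : ℕ) : ℝ) / (2 * a))) =
          (3 / 2 * ((i - 4 : ℕ) : ℝ) * ((j - 4 : ℕ) : ℝ)) / (a * n) := by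
        rw [hq]
        field_simp
        ring
      have e2 : (R * ((i : ℝ) + 1) / ((Δ : ℝ) + 1)) * (R * ((j : ℝ) + 1) / ((Δ : ℝ) + 1)) *
          (((Δ : ℝ) + 1) / n) = (R ^ 2 * ((i : ℝ) + 1) * ((j : ℝ) + 1)) / (((Δ : ℝ) + 1) * n) := by
        field_simp
      have h3 : (3 / 2 * ((i - 4 : ℕ) : ℝ) * ((j - 4 : ℕ) : ℝ)) / (a * n) ≤
          (R ^ 2 * ((i : ℝ) + 1) * ((j : ℝ) + 1)) / (((Δ : ℝ) + 1) * n) := by
        rw [div_le_div_iff₀ (by positivity) (by positivity)]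
        have h4 : ((i - 4 : ℕ) : ℝ) * ((j - 4 : ℕ) : ℝ) ≤ ((i : ℝ) + 1) * ((j : ℝ) + 1) :=
          mul_le_mul hui huj huj0 (by positivity)
        have h5 : 3 / 2 * ((Δ : ℝ) + 1) * (((i - 4 : ℕ) : ℝ) * ((j - 4 : ℕ) : ℝ)) ≤
            R ^ 2 * a * (((i : ℝ) + 1) * ((j : ℝ) + 1)) :=
          mul_le_mul hR2 h4 (by positivity) (by positivity)
        have hn0 : (0 : ℝ) ≤ (n : ℝ) := hn'.le
        nlinarith [mul_le_mul_of_nonneg_right h5 hn0]
      rw [e1]
      refine h3.trans ?_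
      rw [← e2]
      calc _ ≤ (R * ((i : ℝ) + 1) / ((Δ : ℝ) + 1)) * (R * ((j : ℝ) + 1) / ((Δ : ℝ) + 1)) * P :=
            hP3 _ hx
        _ = _ := by ring

end Vale.Agent.Lib.P064c
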