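import Vale.Agent.Lib.P064c.Hs

/-!
The hypothesis on stabilisers of typed sets of pairs, in the form used by the chain.
-/

namespace Vale.Agent.Lib.P064c

open Finset SimpleGraph Vale.Agent.Lib.P064 Vale.Agent.Lib.P064k Vale.Agent.Lib.P064r
open scoped Classical Nat

set_option linter.unusedSectionVars false
set_option linter.unusedVariables false

universe u v

variable {U : Type*} [Fintype U] {V₀ : Type v} [Fintype V₀]

lemma ptT_inj {H : SimpleGraph V₀} {Δ : ℕ} {ι : V₀ → U} (hι : Function.Injective ι) :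
    Function.Injective (ptT H Δ ι) := fun _ _ h => hι (congrArg Prod.fst h)

lemma mem_hostT {H : SimpleGraph V₀} {Δ : ℕ} {ι : V₀ → U} {r : Sym2 (U × ℕ)} :
    r ∈ hostT H Δ ι ↔ (∃ e ∈ edgesF H, Sym2.map (ptT H Δ ι) e = r) ∨
      (∃ x, colr H Δ x ≠ 0 ∧ s(ptT H Δ ι x, ptT H Δ ι x) = r) := by
  unfold hostT
  simp only [Finset.mem_union, Finset.mem_image, Finset.mem_filter, Finset.mem_univ, true_and]

lemma not_diag_edge {H : SimpleGraph V₀} {Δ : ℕ} {ι : V₀ → U} (hι : Function.Injective ι)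
    {e : Sym2 V₀} (he : e ∈ edgesF H) : ¬ (Sym2.map (ptT H Δ ι) e).IsDiag := by
  rw [Sym2.isDiag_map (ptT_inj hι)]
  exact H.not_isDiag_of_mem_edgeSet (mem_edgesF.mp he)

lemma tmap_isDiag (σ : Equiv.Perm U) (r : Sym2 (U × ℕ)) : (tmap σ r).IsDiag ↔ r.IsDiag :=
  Sym2.isDiag_map (prodMap_inj σ)

lemma map_fst_tmap (σ : Equiv.Perm U) (r : Sym2 (U × ℕ)) :
    Sym2.map Prod.fst (tmap σ r) = Sym2.map σ (Sym2.map Prod.fst r) := by
  induction r using Sym2.ind with
  | _ a b => simp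

lemma map_fst_pt {H : SimpleGraph V₀} {Δ : ℕ} {ι : V₀ → U} (e : Sym2 V₀) :
    Sym2.map Prod.fst (Sym2.map (ptT H Δ ι) e) = Sym2.map ι e := by
  induction e using Sym2.ind with
  | _ a b => simp [ptT]

/-- The count in a larger set, through the stabiliser. -/
theorem mt_le_choose (G F : Finset (Sym2 (U × ℕ))) :
    mt G F ≤ mt F F * G.card.choose F.card := by
  classical
  rw [← Finset.card_powersetCard]
  refine Finset.card_le_mul_card_image_of_maps_to (f := fun σ => F.image (tmap σ)) ?_ _ ?_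
  · intro σ hσ
    refine Finset.mem_powersetCard.mpr ⟨?_, card_imgT σ F⟩
    intro r hr
    obtain ⟨r', hr', rfl⟩ := Finset.mem_image.mp hr
    exact mem_intoT.mp hσ r' hr'
  · intro b _
    by_cases hne : ((intoT G F).filter (fun σ => F.image (tmap σ) = b)).Nonempty
    · obtain ⟨σ₀, hσ₀⟩ := hne
      rcases Finset.mem_filter.mp hσ₀ with ⟨_, hσ₀b⟩
      unfold mt
      refine Finset.card_le_card_of_injOn (fun σ => σ₀⁻¹ * σ) ?_ ?_
      · intro σ hσ
        rcases Finset.mem_filter.mp (Finset.mem_coe.mp hσ) with ⟨_, hσb⟩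
        refine Finset.mem_coe.mpr (mem_intoT.mpr fun r hr => ?_)
        have h1 : tmap σ r ∈ F.image (tmap σ₀) := by
          rw [hσ₀b, ← hσb]
          exact Finset.mem_image_of_mem _ hr
        obtain ⟨r', hr', h2⟩ := Finset.mem_image.mp h1
        rw [tmap_mul, ← h2, ← tmap_mul, inv_mul_cancel, tmap_one]
        exact hr'
      · intro σ _ σ' _ h
        simpa using h
    · rw [Finset.not_nonempty_iff_eq_empty] at hne
      rw [hne]
      simp

/-- The stabiliser is closed. -/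
lemma intoT_closed {F : Finset (Sym2 (U × ℕ))} {σ τ : Equiv.Perm U} (hσ : σ ∈ intoT F F)
    (hτ : τ ∈ intoT F F) : σ⁻¹ * τ ∈ intoT F F := by
  have h1 : F.image (tmap σ) = F := by
    refine Finset.eq_of_subset_of_card_le ?_ ?_
    · intro r hr
      obtain ⟨r', hr', rfl⟩ := Finset.mem_image.mp hr
      exact mem_intoT.mp hσ r' hr'
    · exact le_of_eq (card_imgT σ F).symm
  refine mem_intoT.mpr fun r hr => ?_
  have h2 := mem_intoT.mp hτ r hr
  rw [← h1] at h2
  obtain ⟨r', hr', h3⟩ := Finset.mem_image.mp h2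
  rw [tmap_mul, ← h3, ← tmap_mul, inv_mul_cancel, tmap_one]
  exact hr'

lemma prod_le_of_subset {A : Type*} {S T : Finset A} (h : S ⊆ T) (f : A → ℝ)
    (hf : ∀ x ∈ T, 1 ≤ f x) : ∏ x ∈ S, f x ≤ ∏ x ∈ T, f x := by
  rw [← Finset.prod_sdiff h]
  have h1 : 1 ≤ ∏ x ∈ T \ S, f x := by
    calc (1 : ℝ) = ∏ x ∈ T \ S, 1 := by simp
      _ ≤ _ := Finset.prod_le_prod (fun _ _ => zero_le_one)
          (fun x hx => hf x (Finset.sdiff_subset hx))
  have h2 : 0 ≤ ∏ x ∈ S, f x :=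
    Finset.prod_nonneg fun x hx => zero_le_one.trans (hf x (h hx))
  nlinarith

/-- The double counting for the factors at the marked vertices. -/
lemma prod_dg_le {g : V₀ → ℝ} (hg : ∀ x, 1 ≤ g x) (F₀ : Finset (Sym2 V₀)) (Y₀ : Finset V₀) :
    ∏ x ∈ Y₀, g x ^ dg F₀ x ≤ ∏ e ∈ F₀, ∏ x ∈ e.toFinset, g x := by
  have h1 : ∏ x ∈ Y₀, g x ^ dg F₀ x = ∏ x ∈ Y₀, ∏ _e ∈ F₀.filter (fun e => x ∈ e), g x := by
    refine Finset.prod_congr rfl fun x _ => ?_
    rw [Finset.prod_const]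
    rfl
  rw [h1, Finset.prod_comm' (t' := F₀) (s' := fun e => Y₀.filter (fun x => x ∈ e))]
  · refine Finset.prod_le_prod (fun e _ => Finset.prod_nonneg fun x _ => zero_le_one.trans (hg x))
      (fun e _ => ?_)
    refine prod_le_of_subset ?_ g (fun x _ => hg x)
    intro x hx
    exact Sym2.mem_toFinset.mpr (Finset.mem_filter.mp hx).2
  · intro x e
    simp only [Finset.mem_filter]
    tauto

/-- The bound for the stabiliser of a typed subset of the host. -/
theorem stab_typed {H : SimpleGraph V₀} {n Δ : ℕ} {q P R a c : ℝ} {T : V₀ → V₀ → ℝ} (hn : 0 < n)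
    (hq : 0 < q) (hV : Fintype.card V₀ ≤ n) (hyp : ∀ F : H.Subgraph, 1 ≤ expCopies n q F.coe)
    (h0 : ∀ x y, H.Adj x y → 0 ≤ T x y) (hT : ∀ x y, H.Adj x y → T x y + T y x = c)
    (hcap : ∀ x, ∑ y ∈ Finset.univ.filter (H.Adj x), T x y ≤ 2 * c) (hc : 0 < c)
    {ι : V₀ → U} (hι : Function.Injective ι) (hU : Fintype.card U = 2 * n)
    (ha : a = n * q) (ha1 : 1 ≤ a) (hΔ : 6 * a ≤ Δ)
    (hP1 : 6 * q ≤ P) (hP2 : ((Δ : ℝ) + 1) / n ≤ P) (hR : 3 ≤ R)
    (hR2 : 3 / 2 * ((Δ : ℝ) + 1) ≤ R ^ 2 * a)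
    {F : Finset (Sym2 (U × ℕ))} (hF : F ⊆ hostT H Δ ι) :
    (mt F F : ℝ) * 6 ^ F.card ≤ ((Fintype.card U)! : ℝ) * Om (omegaT P R a Δ) F := by
  classical
  have ha0 : 0 < a := by linarith
  set pt := ptT H Δ ι with hpt
  have hptinj : Function.Injective pt := ptT_inj hι
  have hminj := Sym2.map.injective hptinj
  set ω := omegaT (U := U) P R a Δ with hω
  set F₀ := (edgesF H).filter (fun e => Sym2.map pt e ∈ F) with hF₀
  set Y₀ := Finset.univ.filter (fun x => colr H Δ x ≠ 0 ∧ s(pt x, pt x) ∈ F) with hY₀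
  have hlinj : Function.Injective (fun x => s(pt x, pt x)) := by
    intro x y h
    apply hptinj
    have h' : s(pt x, pt x) = s(pt y, pt y) := h
    have h1 : pt x ∈ s(pt y, pt y) := by
      rw [← h']
      exact Sym2.mem_mk_left _ _
    rcases Sym2.mem_iff.mp h1 with h2 | h2 <;> exact h2
  have hFdec : F = F₀.image (Sym2.map pt) ∪ Y₀.image (fun x => s(pt x, pt x)) := by
    ext r
    simp only [Finset.mem_union, Finset.mem_image]
    constructor
    · intro hr
      rcases mem_hostT.mp (hF hr) with ⟨e, he, rfl⟩ | ⟨x, hx, rfl⟩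
      · exact Or.inl ⟨e, Finset.mem_filter.mpr ⟨he, hr⟩, rfl⟩
      · exact Or.inr ⟨x, Finset.mem_filter.mpr ⟨Finset.mem_univ _, hx, hr⟩, rfl⟩
    · rintro (⟨e, he, rfl⟩ | ⟨x, hx, rfl⟩)
      · exact (Finset.mem_filter.mp he).2
      · exact (Finset.mem_filter.mp hx).2.2
  have hdisj : Disjoint (F₀.image (Sym2.map pt)) (Y₀.image (fun x => s(pt x, pt x))) := by
    rw [Finset.disjoint_left]
    intro r hr hr'
    obtain ⟨e, he, rfl⟩ := Finset.mem_image.mp hr
    obtain ⟨x, _, hx⟩ := Finset.mem_image.mp hr'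
    have h1 := not_diag_edge (H := H) (Δ := Δ) hι (Finset.mem_filter.mp he).1
    apply h1
    rw [← hpt, ← hx]
    exact Sym2.mk_isDiag_iff.mpr rfl
  have hcardF : F.card = F₀.card + Y₀.card := by
    conv_lhs => rw [hFdec]
    rw [Finset.card_union_of_disjoint hdisj, Finset.card_image_of_injective _ hminj,
      Finset.card_image_of_injective _ hlinj]
  have hOm : Om ω F = (∏ e ∈ F₀, ω (Sym2.map pt e)) * ∏ x ∈ Y₀, ω s(pt x, pt x) := by
    unfold Om
    conv_lhs => rw [hFdec]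
    rw [Finset.prod_union hdisj, Finset.prod_image (fun a _ b _ h => hminj h),
      Finset.prod_image (fun a _ b _ h => hlinj h)]
  have hF₀E : F₀ ⊆ edgesF H := Finset.filter_subset _ _
  -- colours
  have hcol : ∀ x, colr H Δ x ≠ 0 → colr H Δ x = (nb H x).card ∧ Δ < (nb H x).card := by
    intro x hx
    unfold colr at hx ⊢
    by_cases h : (nb H x).card ≤ Δ
    · simp [h] at hx
    · simp only [h, if_false]
      exact ⟨trivial, by omega⟩
  have hΔ6 : (6 : ℝ) ≤ Δ := by linarith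
  have hbig : ∀ x, colr H Δ x ≠ 0 → 2 * a ≤ ((colr H Δ x - 4 : ℕ) : ℝ) := by
    intro x hx
    obtain ⟨h1, h2⟩ := hcol x hx
    rw [h1]
    have h3 : Δ + 1 ≤ (nb H x).card := h2
    have h4 : ((Δ : ℝ) + 1) ≤ ((nb H x).card : ℝ) := by exact_mod_cast h3
    have h5 : 4 ≤ (nb H x).card := by
      have : (6 : ℝ) + 1 ≤ ((nb H x).card : ℝ) := by linarith
      have h6 : (7 : ℕ) ≤ (nb H x).card := by exact_mod_cast this
      omega
    rw [Nat.cast_sub h5]
    push_cast
    linarith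
  set g : V₀ → ℝ := fun x => kap a (colr H Δ x) with hg
  have hg1 : ∀ x, 1 ≤ g x := by
    intro x
    simp only [hg, kap]
    by_cases hx : colr H Δ x = 0
    · simp [hx]
    · rw [if_neg hx, le_div_iff₀ (by positivity)]
      have := hbig x hx
      linarith
  -- the group
  set A := intoT F F with hA
  have hcore := core_bound (U := U) hq hV hyp h0 hT hcap hc hι (by omega) F₀ hF₀E Y₀ A
    (fun σ hσ τ hτ => intoT_closed hσ hτ)
    (by
      intro σ hσ e he
      have h1 := mem_intoT.mp hσ _ (Finset.mem_filter.mp he).2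
      have hd : ¬ (tmap σ (Sym2.map pt e)).IsDiag := by
        rw [tmap_isDiag]
        exact not_diag_edge hι (Finset.mem_filter.mp he).1
      rcases mem_hostT.mp (hF h1) with ⟨e', he', h2⟩ | ⟨x, hx, h2⟩
      · have h3 : e' ∈ F₀ := by
          refine Finset.mem_filter.mpr ⟨he', ?_⟩
          rw [hpt, h2]
          exact h1
        have h4 := congrArg (Sym2.map Prod.fst) h2
        rw [map_fst_pt, map_fst_tmap, map_fst_pt] at h4
        rw [← h4]
        exact Finset.mem_image_of_mem _ h3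
      · exfalso
        apply hd
        rw [← h2]
        exact Sym2.mk_isDiag_iff.mpr rfl)
    (by
      intro σ hσ x hx
      rcases Finset.mem_filter.mp hx with ⟨_, hx1, hx2⟩
      have h1 := mem_intoT.mp hσ _ hx2
      rw [tmap_mk] at h1
      rcases mem_hostT.mp (hF h1) with ⟨e', he', h2⟩ | ⟨x', hx', h2⟩
      · exfalso
        apply not_diag_edge (H := H) (Δ := Δ) hι he'
        rw [h2]
        exact Sym2.mk_isDiag_iff.mpr rfl
      · have h3 : pt x' = (σ (pt x).1, (pt x).2) := by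
          have h4 : pt x' ∈ s((σ (pt x).1, (pt x).2), (σ (pt x).1, (pt x).2)) := by
            rw [← h2]
            exact Sym2.mem_mk_left _ _
          rcases Sym2.mem_iff.mp h4 with h5 | h5 <;> exact h5
        have h5 : ι x' = σ (ι x) := congrArg Prod.fst h3
        have h6 : colr H Δ x' = colr H Δ x := congrArg Prod.snd h3
        refine ⟨x', Finset.mem_filter.mpr ⟨Finset.mem_univ _, hx', ?_⟩, h5.symm, ?_⟩
        · rw [← h2] at h1
          exact h1
        · rw [← (hcol x' hx').1, ← (hcol x hx1).1, h6])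
  -- the term at a marked vertex
  have hterm : ∀ x ∈ Y₀, (((Fintype.card U).choose (lsz H F₀ x) : ℝ) * q ^ lsz H F₀ x) ≤
      wMark a (colr H Δ x) * g x ^ dg F₀ x := by
    intro x hx
    rcases Finset.mem_filter.mp hx with ⟨_, hx1, _⟩
    have h1 := term_bound (n := n) (t := colr H Δ x) (d := dg F₀ x) ha0 hq ha (hbig x hx1)
    rw [hU]
    have h2 : lsz H F₀ x = colr H Δ x - dg F₀ x - 4 := by
      unfold lsz
      rw [(hcol x hx1).1]
    rw [h2]
    have h3 : g x = ((colr H Δ x - 4 : ℕ) : ℝ) / (2 * a) := by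
      simp only [hg, kap]
      rw [if_neg hx1]
    rw [h3]
    exact h1
  have hwpos : ∀ t, 0 < wMark a t := wMark_pos ha0
  have hgpos : ∀ x, 0 < g x := fun x => lt_of_lt_of_le one_pos (hg1 x)
  have hprod1 : ∏ x ∈ Y₀, (((Fintype.card U).choose (lsz H F₀ x) : ℝ) * q ^ lsz H F₀ x) ≤
      (∏ x ∈ Y₀, wMark a (colr H Δ x)) * ∏ x ∈ Y₀, g x ^ dg F₀ x := by
    rw [← Finset.prod_mul_distrib]
    exact Finset.prod_le_prod (fun x _ => by positivity) hterm
  have hprod2 := prod_dg_le hg1 F₀ Y₀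
  have hedge : ∀ e ∈ F₀, 6 * q * ∏ x ∈ e.toFinset, g x ≤ ω (Sym2.map pt e) := by
    intro e he
    have hadj := mem_edgesF.mp (Finset.mem_filter.mp he).1
    induction e using Sym2.ind with
    | _ x y =>
      have hxy : x ≠ y := H.ne_of_adj hadj
      have h1 : (s(x, y) : Sym2 V₀).toFinset = {x, y} := by
        ext z
        simp [Sym2.mem_toFinset]
      rw [h1, Finset.prod_pair hxy, Sym2.map_mk, hω,
        omegaT_ne _ _ _ _ (fun h => hxy (hptinj h))]
      exact edge_weight hn ha0 ha hP1 hP2 hR hR2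
  have hNf : (0 : ℝ) ≤ ((Fintype.card U)! : ℝ) := by positivity
  have hprod3 : (6 * q) ^ F₀.card * ∏ e ∈ F₀, ∏ x ∈ e.toFinset, g x ≤
      ∏ e ∈ F₀, ω (Sym2.map pt e) := by
    have h1 : (6 * q) ^ F₀.card = ∏ _e ∈ F₀, (6 * q) := (Finset.prod_const _).symm
    rw [h1, ← Finset.prod_mul_distrib]
    refine Finset.prod_le_prod (fun e _ => ?_) hedge
    have : 0 ≤ ∏ x ∈ e.toFinset, g x := Finset.prod_nonneg fun x _ => (hgpos x).le
    positivity
  have hloop : ∏ x ∈ Y₀, ω s(pt x, pt x) = 6 ^ Y₀.card * ∏ x ∈ Y₀, wMark a (colr H Δ x) := by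
    have h1 : ∀ x ∈ Y₀, ω s(pt x, pt x) = 6 * wMark a (colr H Δ x) := by
      intro x _
      rw [hω, omegaT_loop]
      rfl
    rw [Finset.prod_congr rfl h1, Finset.prod_mul_distrib, Finset.prod_const]
  rw [hOm, hloop, hcardF]
  set C := ∏ x ∈ Y₀, (((Fintype.card U).choose (lsz H F₀ x) : ℝ) * q ^ lsz H F₀ x) with hC
  set W := ∏ x ∈ Y₀, wMark a (colr H Δ x) with hW
  set Kp := ∏ e ∈ F₀, ∏ x ∈ e.toFinset, g x with hKp
  set Ee := ∏ e ∈ F₀, ω (Sym2.map pt e) with hEe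
  have hW0 : 0 < W := Finset.prod_pos fun x _ => hwpos _
  have hGd0 : 0 ≤ ∏ x ∈ Y₀, g x ^ dg F₀ x := Finset.prod_nonneg fun x _ => pow_nonneg (hgpos x).le _
  have hC2 : C ≤ W * Kp := hprod1.trans (mul_le_mul_of_nonneg_left hprod2 hW0.le)
  have hmm : (mt F F : ℝ) ≤ ((Fintype.card U)! : ℝ) * q ^ F₀.card * (W * Kp) := by
    refine le_trans hcore ?_
    exact mul_le_mul_of_nonneg_left hC2 (by positivity)
  calc (mt F F : ℝ) * 6 ^ (F₀.card + Y₀.card)
      ≤ (((Fintype.card U)! : ℝ) * q ^ F₀.card * (W * Kp)) * 6 ^ (F₀.card + Y₀.card) :=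
        mul_le_mul_of_nonneg_right hmm (by positivity)
    _ = ((Fintype.card U)! : ℝ) * (6 ^ Y₀.card * W) * ((6 * q) ^ F₀.card * Kp) := by
        rw [pow_add, mul_pow]
        ring
    _ ≤ ((Fintype.card U)! : ℝ) * (6 ^ Y₀.card * W) * Ee :=
        mul_le_mul_of_nonneg_left hprod3 (by positivity)
    _ = _ := by ring

/-- Tokens exist in the range of densities. -/
lemma exists_tokens_sparse {H : SimpleGraph V₀} {n : ℕ} {q : ℝ} (hn : 0 < n) (hq : 0 < q)
    (hyp : ∀ F : H.Subgraph, 1 ≤ expCopies n q F.coe) (hden : (n : ℝ) * q ^ 2 < 1) :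
    ∃ (c : ℝ) (T : V₀ → V₀ → ℝ), 0 < c ∧ (∀ x y, H.Adj x y → 0 ≤ T x y) ∧
      (∀ x y, H.Adj x y → T x y + T y x = c) ∧
      ∀ x, ∑ y ∈ Finset.univ.filter (H.Adj x), T x y ≤ 2 * c := by
  have hn1 : (1 : ℝ) ≤ n := by exact_mod_cast hn
  have hq2 : q ^ 2 < 1 := by
    have : q ^ 2 ≤ (n : ℝ) * q ^ 2 := by
      have h0 : 0 ≤ q ^ 2 := by positivity
      nlinarith
    linarith
  have hq1 : q < 1 := by
    by_contra h
    push Not at h
    have : 1 ≤ q ^ 2 := one_le_pow₀ h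
    linarith
  have hc : 0 < Real.log (1 / q) := Real.log_pos (by
    rw [lt_div_iff₀ hq]
    linarith)
  have hN0 : 0 ≤ Real.log n := Real.log_nonneg hn1
  have hlt : Real.log n < 2 * Real.log (1 / q) := by
    have h1 : Real.log ((n : ℝ) * q ^ 2) < 0 :=
      Real.log_neg (by positivity) hden
    rw [Real.log_mul (by positivity) (by positivity), Real.log_pow] at h1
    rw [one_div, Real.log_inv]
    push_cast at h1
    linarith
  obtain ⟨T, h0, hT, hcap⟩ := exists_real_tokens (H := H) (N := Real.log n)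
    (Nt := 2 * Real.log (1 / q)) hc hlt hN0 (fun E' hE => density_log hn hq hyp E' hE)
  exact ⟨_, T, hc, h0, hT, hcap⟩

/-- The hypothesis of the chain. -/
theorem hs_final {H : SimpleGraph V₀} {n Δ : ℕ} {q P R a : ℝ} (hn : 0 < n)
    (hq : 0 < q) (hV : Fintype.card V₀ ≤ n) (hyp : ∀ F : H.Subgraph, 1 ≤ expCopies n q F.coe)
    (hden : (n : ℝ) * q ^ 2 < 1)
    {ι : V₀ → U} (hι : Function.Injective ι) (hU : Fintype.card U = 2 * n)
    (ha : a = n * q) (ha1 : 1 ≤ a) (hΔ : 6 * a ≤ Δ)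
    (hP1 : 6 * q ≤ P) (hP2 : ((Δ : ℝ) + 1) / n ≤ P) (hR : 3 ≤ R)
    (hR2 : 3 / 2 * ((Δ : ℝ) + 1) ≤ R ^ 2 * a) :
    ∀ G, G ⊆ hostT H Δ ι → ∀ F, F ⊆ G →
      (mt G F : ℝ) * 6 ^ F.card ≤ (G.card.choose F.card : ℝ) * ((Fintype.card U)! : ℝ) *
        Om (omegaT P R a Δ) F := by
  intro G hG F hF
  obtain ⟨c, T, hc, h0, hT, hcap⟩ := exists_tokens_sparse (H := H) hn hq hyp hden
  have h1 := stab_typed hn hq hV hyp h0 hT hcap hc hι hU ha ha1 hΔ hP1 hP2 hR hR2 (hF.trans hG)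
  have h2 : (mt G F : ℝ) ≤ (mt F F : ℝ) * (G.card.choose F.card : ℝ) := by
    exact_mod_cast mt_le_choose G F
  have h3 : (0 : ℝ) ≤ (G.card.choose F.card : ℝ) := by positivity
  calc (mt G F : ℝ) * 6 ^ F.card ≤ ((mt F F : ℝ) * (G.card.choose F.card : ℝ)) * 6 ^ F.card :=
        mul_le_mul_of_nonneg_right h2 (by positivity)
    _ = (G.card.choose F.card : ℝ) * ((mt F F : ℝ) * 6 ^ F.card) := by ring
    _ ≤ (G.card.choose F.card : ℝ) * (((Fintype.card U)! : ℝ) * Om (omegaT P R a Δ) F) :=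
        mul_le_mul_of_nonneg_left h1 h3
    _ = _ := by ring

/-- The number of marks of a colour. -/
theorem hmark_final {H : SimpleGraph V₀} {n Δ : ℕ} {q P R a : ℝ} (hn : 0 < n)
    (hq : 0 < q) (hV : Fintype.card V₀ ≤ n) (hyp : ∀ F : H.Subgraph, 1 ≤ expCopies n q F.coe)
    (hden : (n : ℝ) * q ^ 2 < 1)
    {ι : V₀ → U} (hι : Function.Injective ι) (hU : Fintype.card U = 2 * n)
    (ha : a = n * q) (ha1 : 1 ≤ a) (hΔ : 6 * a ≤ Δ)
    (hP1 : 6 * q ≤ P) (hP2 : ((Δ : ℝ) + 1) / n ≤ P) (hR : 3 ≤ R)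
    (hR2 : 3 / 2 * ((Δ : ℝ) + 1) ≤ R ^ 2 * a) (z : U) (t : ℕ) :
    ((loopsT (hostT H Δ ι) t).card : ℝ) / n ≤ omegaT P R a Δ s((z, t), (z, t)) := by
  classical
  have ha0 : 0 < a := by linarith
  have hn' : (0 : ℝ) < n := by exact_mod_cast hn
  have hw : 0 < wMark a t := wMark_pos ha0 t
  rw [omegaT_loop]
  set F := loopsT (hostT H Δ ι) t with hF
  set y := F.card with hy
  by_cases hy0 : y = 0
  · rw [hy0]
    simp only [Nat.cast_zero, zero_div]
    positivity
  have hy1 : 0 < y := Nat.pos_of_ne_zero hy0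
  have hy' : (0 : ℝ) < y := by exact_mod_cast hy1
  obtain ⟨c, T, hc, h0, hT, hcap⟩ := exists_tokens_sparse (H := H) hn hq hyp hden
  have hFH : F ⊆ hostT H Δ ι := Finset.filter_subset _ _
  have h1 := stab_typed hn hq hV hyp h0 hT hcap hc hι hU ha ha1 hΔ hP1 hP2 hR hR2 hFH
  have hOm : Om (omegaT P R a Δ) F = (6 * wMark a t) ^ y := by
    unfold Om
    have h2 : ∀ r ∈ F, omegaT P R a Δ r = 6 * wMark a t := by
      intro r hr
      obtain ⟨v, rfl⟩ := (Finset.mem_filter.mp hr).2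
      rw [omegaT_loop]
    rw [Finset.prod_congr rfl h2, Finset.prod_const]
  rw [hOm, mul_pow] at h1
  have h6 : (0 : ℝ) < 6 ^ y := by positivity
  have hNf : (0 : ℝ) < ((Fintype.card U)! : ℝ) := by exact_mod_cast Nat.factorial_pos _
  have h2 : (mt F F : ℝ) ≤ ((Fintype.card U)! : ℝ) * wMark a t ^ y := by
    have h3 : (mt F F : ℝ) * 6 ^ y ≤ (((Fintype.card U)! : ℝ) * wMark a t ^ y) * 6 ^ y := by
      calc _ ≤ _ := h1
        _ = _ := by ring
    exact le_of_mul_le_mul_right h3 h6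
  -- all the loops of the colour
  set Gall : Finset (Sym2 (U × ℕ)) := Finset.univ.image (fun v : U => s((v, t), (v, t))) with hGall
  have hGc : Gall.card ≤ 2 * n := by
    rw [← hU]
    exact Finset.card_image_le
  have hmtG : mt Gall F = (Fintype.card U)! := by
    unfold mt
    have h3 : intoT Gall F = Finset.univ := by
      ext σ
      simp only [Finset.mem_univ, iff_true]
      refine mem_intoT.mpr fun r hr => ?_
      obtain ⟨v, rfl⟩ := (Finset.mem_filter.mp hr).2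
      rw [tmap_mk]
      exact Finset.mem_image.mpr ⟨σ v, Finset.mem_univ _, rfl⟩
    rw [h3, Finset.card_univ, Fintype.card_perm]
  have h3 := mt_le_choose Gall F
  rw [hmtG] at h3
  have h4 : (Gall.card).choose y ≤ (2 * n).choose y := Nat.choose_le_choose y hGc
  have h5 : ((Fintype.card U)! : ℝ) ≤ ((Fintype.card U)! : ℝ) * wMark a t ^ y *
      ((2 * n).choose y : ℝ) := by
    have h7 : ((Fintype.card U)! : ℝ) ≤ (mt F F : ℝ) * ((2 * n).choose y : ℝ) := by
      exact_mod_cast h3.trans (Nat.mul_le_mul_left _ h4)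
    exact h7.trans (mul_le_mul_of_nonneg_right h2 (by positivity))
  have h7 : 1 ≤ wMark a t ^ y * ((2 * n).choose y : ℝ) := by
    have h8 : ((Fintype.card U)! : ℝ) * 1 ≤ ((Fintype.card U)! : ℝ) *
        (wMark a t ^ y * ((2 * n).choose y : ℝ)) := by
      rw [mul_one, ← mul_assoc]
      exact h5
    exact le_of_mul_le_mul_left h8 hNf
  have h8 := choose_le_exp (2 * n) y hy1
  have h9 : 1 ≤ (wMark a t * (Real.exp 1 * ((2 * n : ℕ) : ℝ) / y)) ^ y := by
    rw [mul_pow]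
    exact h7.trans (mul_le_mul_of_nonneg_left h8 (by positivity))
  have h10 : 1 ≤ wMark a t * (Real.exp 1 * ((2 * n : ℕ) : ℝ) / y) := by
    by_contra hlt
    push Not at hlt
    have h11 : (wMark a t * (Real.exp 1 * ((2 * n : ℕ) : ℝ) / y)) ^ y < 1 :=
      pow_lt_one₀ (by positivity) hlt hy0
    linarith
  have he : Real.exp 1 < 3 := by
    have := Real.exp_one_lt_d9
    linarith
  have h11 : (y : ℝ) ≤ wMark a t * (Real.exp 1 * ((2 * n : ℕ) : ℝ)) := by
    have h12 : wMark a t * (Real.exp 1 * ((2 * n : ℕ) : ℝ) / y) =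
        wMark a t * (Real.exp 1 * ((2 * n : ℕ) : ℝ)) / y := by
      ring
    rw [h12, le_div_iff₀ hy', one_mul] at h10
    exact h10
  rw [div_le_iff₀ hn']
  push_cast at h11
  nlinarith [mul_pos hw hn']

end Vale.Agent.Lib.P064c
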