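import Vale.Agent.Lib.P064c.Wts

/-!
The sum over the colours of a vertex of large degree.
-/

namespace Vale.Agent.Lib.P064c

open Finset

set_option linter.unusedSectionVars false
set_option linter.unusedVariables false

lemma pow_four_le_two_pow {t : ℕ} (ht : 5 ≤ t) : ((t : ℝ) + 1) ^ 4 ≤ 2 ^ (t + 8) := by
  induction t, ht using Nat.le_induction with
  | base => norm_num
  | succ t ht ih =>
    have h5 : (5 : ℝ) ≤ t := by exact_mod_cast ht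
    set x : ℝ := (t : ℝ) + 1 with hx
    have hx6 : 6 ≤ x := by rw [hx]; linarith
    have h1 : (x + 1) ^ 4 ≤ 2 * x ^ 4 := by
      have h2 : 0 ≤ x - 6 := by linarith
      have e1 : 2 * x ^ 4 - (x + 1) ^ 4 = x ^ 3 * (x - 6) + 2 * x ^ 2 * (x - 6) + 6 * x * (x - 6) + 32 * (x - 6) + 191 := by
        ring
      have h3 : 0 ≤ 2 * x ^ 4 - (x + 1) ^ 4 := by
        rw [e1]
        positivity
      linarith
    have e2 : ((t + 1 : ℕ) : ℝ) + 1 = x + 1 := by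
      rw [hx]
      push_cast
      ring
    rw [e2]
    calc (x + 1) ^ 4 ≤ 2 * x ^ 4 := h1
      _ ≤ 2 * 2 ^ (t + 8) := by linarith
      _ = 2 ^ (t + 1 + 8) := by ring

lemma geom_sum_le (Δ N : ℕ) : ∑ t ∈ Finset.Ioc Δ N, (1 / 2 : ℝ) ^ t ≤ (1 / 2) ^ Δ := by
  by_cases h : Δ ≤ N
  · have h2 : ∑ t ∈ Finset.Ioc Δ N, (1 / 2 : ℝ) ^ t = (1 / 2) ^ Δ - (1 / 2) ^ N := by
      induction N, h using Nat.le_induction with
      | base => simp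
      | succ N hN ih =>
        rw [Finset.sum_Ioc_succ_top hN, ih, pow_succ]
        ring
    rw [h2]
    have : (0 : ℝ) ≤ (1 / 2) ^ N := by positivity
    linarith
  · rw [Finset.Ioc_eq_empty (by omega)]
    simp only [Finset.sum_empty]
    positivity

/-- The bound for one colour. -/
lemma term_hub {a : ℝ} {Δ t d : ℕ} (ha1 : 1 ≤ a) (hΔ : 10 ^ 4 * a ≤ Δ) (ht : Δ < t) (hd : d ≤ t) :
    wMark a t * (rhoT 150 Δ t) ^ d ≤ (1 / 4) ^ (t - 4) * (150 * ((t : ℝ) + 1)) ^ 4 := by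
  have ha0 : 0 < a := by linarith
  have hΔ1 : (10 ^ 4 : ℝ) ≤ Δ := by nlinarith
  have hΔ2 : 10 ^ 4 ≤ Δ := by exact_mod_cast hΔ1
  have ht0 : t ≠ 0 := by omega
  have ht' : ((Δ : ℝ) + 1) ≤ (t : ℝ) := by exact_mod_cast ht
  have ht5 : (5 : ℝ) ≤ t := by linarith
  have hΔp : (0 : ℝ) < (Δ : ℝ) + 1 := by positivity
  unfold wMark
  set u := t - 4 with hu
  have htu : t = u + 4 := by omega
  have hu' : (u : ℝ) = (t : ℝ) - 4 := by
    rw [htu]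
    push_cast
    ring
  have hu0 : (0 : ℝ) < u := by rw [hu']; linarith
  set ρ := rhoT 150 Δ t with hρ
  have hρe : ρ = 150 * ((t : ℝ) + 1) / ((Δ : ℝ) + 1) := by
    rw [hρ]
    unfold rhoT
    rw [if_neg ht0]
  have hρ1 : 1 ≤ ρ := by
    rw [hρe, le_div_iff₀ hΔp]
    nlinarith
  have hρ0 : 0 < ρ := by linarith
  have he : Real.exp 1 < 3 := by
    have := Real.exp_one_lt_d9
    linarith
  have he0 := Real.exp_pos 1
  have hbase : 2 * Real.exp 1 * a / (u : ℝ) * ρ ≤ 1 / 4 := by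
    rw [hρe, div_mul_div_comm, div_le_iff₀ (by positivity)]
    have h1 : (t : ℝ) + 1 ≤ 2 * u := by rw [hu']; linarith
    have h2 : 10 ^ 4 * a ≤ (Δ : ℝ) + 1 := by linarith
    have h3 : (t : ℝ) + 1 > 0 := by linarith
    have h4 : 2 * Real.exp 1 * a * (150 * ((t : ℝ) + 1)) ≤ 900 * a * ((t : ℝ) + 1) := by
      have : 0 ≤ a * ((t : ℝ) + 1) := by positivity
      nlinarith
    have h5 : 900 * a * ((t : ℝ) + 1) ≤ 900 * a * (2 * u) :=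
      mul_le_mul_of_nonneg_left h1 (by positivity)
    have h6 : (1 / 4 : ℝ) * ((u : ℝ) * (10 ^ 4 * a)) ≤ 1 / 4 * ((u : ℝ) * ((Δ : ℝ) + 1)) := by
      refine mul_le_mul_of_nonneg_left ?_ (by norm_num)
      exact mul_le_mul_of_nonneg_left h2 hu0.le
    have h7 : 0 ≤ (u : ℝ) * a := by positivity
    nlinarith
  have hpow : ρ ^ d ≤ ρ ^ u * ρ ^ 4 := by
    rw [← pow_add, ← htu]
    exact pow_le_pow_right₀ hρ1 hd
  have hρ4 : ρ ^ 4 ≤ (150 * ((t : ℝ) + 1)) ^ 4 := by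
    refine pow_le_pow_left₀ hρ0.le ?_ 4
    rw [hρe]
    refine div_le_self (by positivity) ?_
    have : (0 : ℝ) ≤ Δ := by positivity
    linarith
  have hw0 : 0 ≤ (2 * Real.exp 1 * a / (u : ℝ)) ^ u := by positivity
  calc (2 * Real.exp 1 * a / (u : ℝ)) ^ u * ρ ^ d
      ≤ (2 * Real.exp 1 * a / (u : ℝ)) ^ u * (ρ ^ u * ρ ^ 4) :=
        mul_le_mul_of_nonneg_left hpow hw0
    _ = (2 * Real.exp 1 * a / (u : ℝ) * ρ) ^ u * ρ ^ 4 := by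
        rw [mul_pow]
        ring
    _ ≤ (1 / 4) ^ u * (150 * ((t : ℝ) + 1)) ^ 4 := by
        refine mul_le_mul (pow_le_pow_left₀ (by positivity) hbase u) hρ4 (by positivity)
          (by positivity)

/-- The sum over the colours of a vertex. -/
theorem hub_sum {a : ℝ} {m Δ k d : ℕ} (ha1 : 1 ≤ a) (hma : (m : ℝ) ≤ a) (hΔ : 10 ^ 4 * a ≤ Δ)
    (hk : k ≤ 2 ^ m) (S : Finset ℕ) (hS : ∀ t ∈ S, Δ < t ∧ d ≤ t) :
    ∑ t ∈ S, 12 * 32 ^ 6 * (k : ℝ) ^ 5 * (wMark a t * (rhoT 150 Δ t) ^ d) ≤ 1 := by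
  have hΔ1 : (10 ^ 4 : ℝ) ≤ Δ := by nlinarith
  have hΔ2 : 10 ^ 4 ≤ Δ := by exact_mod_cast hΔ1
  have hk5 : (k : ℝ) ^ 5 ≤ 2 ^ (5 * m) := by
    have h1 : (k : ℝ) ≤ 2 ^ m := by exact_mod_cast hk
    calc (k : ℝ) ^ 5 ≤ (2 ^ m) ^ 5 := pow_le_pow_left₀ (by positivity) h1 5
      _ = 2 ^ (5 * m) := by rw [← pow_mul, mul_comm]
  have hterm : ∀ t ∈ S, wMark a t * (rhoT 150 Δ t) ^ d ≤ (150 : ℝ) ^ 4 * 2 ^ 16 * (1 / 2) ^ t := by
    intro t ht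
    obtain ⟨h1, h2⟩ := hS t ht
    refine (term_hub ha1 hΔ h1 h2).trans ?_
    have ht5 : 5 ≤ t := by omega
    have h3 := pow_four_le_two_pow ht5
    have htu : t = (t - 4) + 4 := by omega
    set u := t - 4 with hu
    have e1 : (1 / 4 : ℝ) ^ u * (150 * ((t : ℝ) + 1)) ^ 4 =
        (150 : ℝ) ^ 4 * ((1 / 4) ^ u * ((t : ℝ) + 1) ^ 4) := by
      rw [mul_pow]
      ring
    rw [e1]
    have h4 : (1 / 4 : ℝ) ^ u * ((t : ℝ) + 1) ^ 4 ≤ (1 / 4) ^ u * 2 ^ (t + 8) :=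
      mul_le_mul_of_nonneg_left h3 (by positivity)
    have e3 : (1 / 4 : ℝ) ^ u * 2 ^ u = (1 / 2) ^ u := by
      rw [← mul_pow]
      norm_num
    have e4 : (1 / 4 : ℝ) ^ u * 2 ^ (t + 8) = 2 ^ 16 * (1 / 2) ^ t := by
      rw [htu]
      have e2 : u + 4 + 8 = u + 12 := by ring
      rw [e2, pow_add (1 / 2 : ℝ), pow_add (2 : ℝ)]
      calc (1 / 4 : ℝ) ^ u * (2 ^ u * 2 ^ 12) = ((1 / 4) ^ u * 2 ^ u) * 2 ^ 12 := by ring
        _ = (1 / 2) ^ u * 2 ^ 12 := by rw [e3]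
        _ = _ := by norm_num; ring
    calc (150 : ℝ) ^ 4 * ((1 / 4) ^ u * ((t : ℝ) + 1) ^ 4)
        ≤ (150 : ℝ) ^ 4 * ((1 / 4) ^ u * 2 ^ (t + 8)) :=
          mul_le_mul_of_nonneg_left h4 (by positivity)
      _ = _ := by rw [e4]; ring
  set c : ℝ := 12 * 32 ^ 6 * (k : ℝ) ^ 5 with hc
  have hc0 : 0 ≤ c := by positivity
  have hsum1 : ∑ t ∈ S, c * (wMark a t * (rhoT 150 Δ t) ^ d) ≤
      c * ((150 : ℝ) ^ 4 * 2 ^ 16 * ∑ t ∈ S, (1 / 2 : ℝ) ^ t) := by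
    rw [← Finset.mul_sum, Finset.mul_sum (a := (150 : ℝ) ^ 4 * 2 ^ 16)]
    exact mul_le_mul_of_nonneg_left (Finset.sum_le_sum hterm) hc0
  have hgeom : ∑ t ∈ S, (1 / 2 : ℝ) ^ t ≤ (1 / 2) ^ Δ := by
    refine le_trans ?_ (geom_sum_le Δ (S.sup id))
    refine Finset.sum_le_sum_of_subset_of_nonneg ?_ (fun _ _ _ => by positivity)
    intro t ht
    exact Finset.mem_Ioc.mpr ⟨(hS t ht).1, Finset.le_sup (f := id) ht⟩
  refine hsum1.trans ?_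
  have hm0 : (0 : ℝ) ≤ m := by positivity
  have h79 : 79 + 5 * m ≤ Δ := by
    have : ((79 + 5 * m : ℕ) : ℝ) ≤ Δ := by
      push_cast
      nlinarith
    exact_mod_cast this
  have hfinal : (12 * 32 ^ 6 * 150 ^ 4 * 2 ^ 16 : ℝ) ≤ 2 ^ 79 := by norm_num
  have h2 : (2 : ℝ) ^ (79 + 5 * m) * (1 / 2) ^ Δ ≤ 1 := by
    have e1 : Δ = (79 + 5 * m) + (Δ - (79 + 5 * m)) := by omega
    have h3 : (1 / 2 : ℝ) ^ (Δ - (79 + 5 * m)) ≤ 1 := pow_le_one₀ (by norm_num) (by norm_num)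
    rw [e1, pow_add (1 / 2 : ℝ), ← mul_assoc, ← mul_pow]
    norm_num
    simpa using h3
  calc c * ((150 : ℝ) ^ 4 * 2 ^ 16 * ∑ t ∈ S, (1 / 2 : ℝ) ^ t)
      ≤ c * ((150 : ℝ) ^ 4 * 2 ^ 16 * (1 / 2) ^ Δ) :=
        mul_le_mul_of_nonneg_left (mul_le_mul_of_nonneg_left hgeom (by positivity)) hc0
    _ = (12 * 32 ^ 6 * 150 ^ 4 * 2 ^ 16) * (k : ℝ) ^ 5 * (1 / 2) ^ Δ := by
        rw [hc]
        ring
    _ ≤ 2 ^ 79 * 2 ^ (5 * m) * (1 / 2) ^ Δ := by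
        refine mul_le_mul_of_nonneg_right ?_ (by positivity)
        exact mul_le_mul hfinal hk5 (by positivity) (by positivity)
    _ = 2 ^ (79 + 5 * m) * (1 / 2) ^ Δ := by rw [pow_add]
    _ ≤ 1 := h2

end Vale.Agent.Lib.P064c
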