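import Vale.Agent.Lib.P064c.Final3
import Vale.Agent.Lib.P064k.MainUni

/-!
The bound of the first question of the problem from `log log n / n` on.
-/

namespace Vale.Agent.Lib.P064c

open Finset SimpleGraph Vale.Agent.Lib.P064 Vale.Agent.Lib.P064k
open scoped Classical Nat

set_option linter.unusedSectionVars false
set_option linter.unusedVariables false

universe u v

variable {V₀ : Type v} [Fintype V₀] {Z : Type u} [Fintype Z]

/-- The comparison with a universal constant. -/
theorem emb_uni' {H : SimpleGraph V₀} {n m : ℕ} {q : ℝ} (hn : 0 < n) (hq : 0 < q)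
    (hV : Fintype.card V₀ ≤ n) (hCq : constW * q ≤ 1)
    (hyp : ∀ F : H.Subgraph, 1 ≤ expCopies n q F.coe)
    (hnq : (m : ℝ) ≤ n * q) (hm : 2 * (Nat.log 2 n + 1) ≤ 2 ^ m) (hm1 : 1 ≤ m)
    (ham : ((n : ℝ) * q) ^ (2 * m) < n) (F : SimpleGraph Z) :
    ((Emb F H Finset.univ).card : ℝ) ≤ (n.descFactorial (Fintype.card Z) : ℝ) *
      (36 * constW * q) ^ numEdges F := by
  have hU0 : (0 : ℝ) < constW := by
    have := constU_ge
    unfold constW
    linarith
  have hs : 0 ≤ constW * q := by positivity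
  refine emb_strip (by nlinarith) hV (fun Z _ F hno => ?_) (Fintype.card Z) Z F rfl
  have h1 := comps_bound hs hCq (fun Z' _ T hT hE => conn_uni' hn hq hV hyp hnq hm hm1 ham hT hE) F hno
  set e := numEdges F with he
  set v := Fintype.card Z with hv
  have hve : v ≤ 2 * e := card_le_two_edges F hno
  by_cases hvn : v ≤ n
  swap
  · have h0 : Emb F H Finset.univ = ∅ := by
      refine Finset.eq_empty_of_forall_notMem fun f hf => ?_
      rcases mem_Emb.mp hf with ⟨h2, _, _⟩
      have := Fintype.card_le_of_injective f h2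
      omega
    rw [h0]
    simp only [Finset.card_empty, Nat.cast_zero]
    have : 0 ≤ 36 * constW * q := by positivity
    positivity
  have h2 := pow_le_three_desc hvn
  have hdn : (0 : ℝ) ≤ (n.descFactorial v : ℝ) := by positivity
  have h6v : (6 : ℝ) ^ v ≤ 36 ^ e := by
    have : (36 : ℝ) ^ e = 6 ^ (2 * e) := by
      rw [pow_mul]; norm_num
    rw [this]
    exact pow_le_pow_right₀ (by norm_num) hve
  have h3 : (2 * (n : ℝ)) ^ v ≤ 36 ^ e * (n.descFactorial v : ℝ) := by
    calc (2 * (n : ℝ)) ^ v = 2 ^ v * (n : ℝ) ^ v := mul_pow _ _ _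
      _ ≤ 2 ^ v * (3 ^ v * (n.descFactorial v : ℝ)) := mul_le_mul_of_nonneg_left h2 (by positivity)
      _ = 6 ^ v * (n.descFactorial v : ℝ) := by rw [← mul_assoc, ← mul_pow]; norm_num
      _ ≤ _ := mul_le_mul_of_nonneg_right h6v hdn
  calc ((Emb F H Finset.univ).card : ℝ) ≤ (2 * (n : ℝ)) ^ v * (constW * q) ^ e := h1
    _ ≤ (36 ^ e * (n.descFactorial v : ℝ)) * (constW * q) ^ e :=
        mul_le_mul_of_nonneg_right h3 (by positivity)
    _ = _ := by
        have : 36 * constW * q = 36 * (constW * q) := by ring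
        rw [this, mul_pow]
        ring

variable {n : ℕ} {H : SimpleGraph V₀}

/-- The first question of the problem from `log log n / n` on. -/
theorem pCrit_uni' (hn : 2 ≤ n) (hV : Fintype.card V₀ ≤ n) (hE : 1 ≤ numEdges H) {q : ℝ}
    (hqE : pExp n H ≤ q)
    (hq1 : ((Nat.log 2 (2 * (Nat.log 2 n + 1)) + 1 : ℕ) : ℝ) ≤ n * q)
    (hnum : (3 * (n : ℝ) * q) ^ (2 * (Nat.log 2 (2 * (Nat.log 2 n + 1)) + 1)) < n) :
    pCrit n H ≤ (20736 * constW) * q * Real.log n := by
  have hU : (0 : ℝ) < constW := by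
    have := constU_ge
    unfold constW
    linarith
  have hU1 : (1 : ℝ) ≤ constW := by
    have := constU_ge
    unfold constW
    linarith
  have hL : 0 < Real.log n := Real.log_pos (by exact_mod_cast (by omega : 1 < n))
  have hn0 : (0 : ℝ) < n := by
    have : 0 < n := by omega
    exact_mod_cast this
  obtain ⟨hp0, _, hp⟩ := pExp_mem (H := H) hV
  obtain ⟨hppos, hyp2⟩ := hyp_double hV hE hp0 hp
  have hqpos : 0 < q := lt_of_lt_of_le hppos hqE
  set q₁ := 3 * q with hq₁
  have hq₁0 : 0 < q₁ := by positivity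
  have hyp1 : ∀ F : H.Subgraph, 1 ≤ expCopies n q₁ F.coe := fun F =>
    (hyp2 F).trans (expCopies_mono (by positivity) (by rw [hq₁]; linarith) _)
  set m := Nat.log 2 (2 * (Nat.log 2 n + 1)) + 1 with hm
  have hnq : (m : ℝ) ≤ n * q₁ := by
    have h1 : (0 : ℝ) ≤ (n : ℝ) * q := by positivity
    rw [hq₁]
    nlinarith
  have hm2 : 2 * (Nat.log 2 n + 1) ≤ 2 ^ m := (Nat.lt_pow_succ_log_self (by norm_num) _).le
  have ham : ((n : ℝ) * q₁) ^ (2 * m) < n := by
    have : (n : ℝ) * q₁ = 3 * (n : ℝ) * q := by rw [hq₁]; ring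
    rw [this]
    exact hnum
  set lr : ℝ := (Nat.log 2 (numEdges H) : ℝ) + 1 with hlr
  have hlr1 : 1 ≤ lr := by
    have : (0 : ℝ) ≤ (Nat.log 2 (numEdges H) : ℝ) := by positivity
    rw [hlr]
    linarith
  have hlr2 : lr ≤ 6 * Real.log n := log_edges_le hn hV hE
  set s : ℝ := 36 * constW * q₁ with hs
  have hs0 : 0 < s := by positivity
  have hmain : pCrit n H ≤ s * (32 * lr) := by
    by_cases hCq : constW * q₁ ≤ 1
    · refine pCrit_le_of_bound hs0 hV ?_
      intro Z _ F
      exact emb_uni' (by omega) hq₁0 hV hCq hyp1 hnq hm2 (by omega) ham F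
    · push Not at hCq
      have hPbd : BddBelow {p : ℝ | 0 ≤ p ∧ p ≤ 1 ∧
          1 / 2 ≤ gnpProb n p (fun G => 0 < G.copyCount H)} := ⟨0, fun p hp => hp.1⟩
      have h1 : pCrit n H ≤ 1 := csInf_le hPbd ⟨zero_le_one, le_rfl, gnp_one hV⟩
      have h2 : 1 ≤ s := by
        rw [hs]
        nlinarith
      have h3 : 1 ≤ s * (32 * lr) := by nlinarith
      linarith
  refine hmain.trans ?_
  calc s * (32 * lr) = (36 * constW * q₁ * 32) * lr := by rw [hs]; ring
    _ ≤ (36 * constW * q₁ * 32) * (6 * Real.log n) :=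
        mul_le_mul_of_nonneg_left hlr2 (by positivity)
    _ = _ := by rw [hq₁]; ring

end Vale.Agent.Lib.P064c
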