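import Vale.Agent.Lib.P064c.Hs2
import Vale.Agent.Lib.P064c.ChTB

/-!
The bound for embeddings with a fixed colour pattern.
-/

namespace Vale.Agent.Lib.P064c

open Finset SimpleGraph Vale.Agent.Lib.P064 Vale.Agent.Lib.P064k
open scoped Classical Nat

set_option linter.unusedSectionVars false
set_option linter.unusedVariables false

universe u v

variable {U : Type*} [Fintype U] {V₀ : Type v} [Fintype V₀] {Z : Type u} [Fintype Z]

lemma mem_patW {j : Z → U} {γ : Z → ℕ} {T : SimpleGraph Z} {r : Sym2 (U × ℕ)} :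
    r ∈ patW j γ T ↔ (∃ e ∈ T.edgeSet, Sym2.map (ptJ j γ) e = r) ∨
      (∃ z, γ z ≠ 0 ∧ s(ptJ j γ z, ptJ j γ z) = r) := by
  unfold patW hubsOf
  simp only [Finset.mem_union, Finset.mem_image, Finset.mem_filter, Finset.mem_univ, true_and,
    mem_edgesF]

/-- From embeddings with a colour pattern to permutations. -/
lemma embC_mul_le_mt {H : SimpleGraph V₀} {Δ : ℕ} {ι : V₀ → U} (hι : Function.Injective ι)
    {j : Z → U} (hj : Function.Injective j) {T : SimpleGraph Z} (γ : Z → ℕ) :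
    ((Emb T H Finset.univ).filter (fun f => ∀ z, colr H Δ (f z) = γ z)).card *
      (Fintype.card U - Fintype.card Z)! ≤ mt (hostT H Δ ι) (patW j γ T) := by
  set E := (Emb T H Finset.univ).filter (fun f => ∀ z, colr H Δ (f z) = γ z) with hE
  set fibr : (Z → V₀) → Finset (Equiv.Perm U) := fun f =>
    (Finset.univ : Finset (Equiv.Perm U)).filter (fun σ => ∀ z, σ (j z) = ι (f z)) with hfibr
  have h1 : ∀ f ∈ E, (fibr f).card = (Fintype.card U - Fintype.card Z)! := by
    intro f hf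
    exact fib_card hj (hι.comp (mem_Emb.mp (Finset.mem_filter.mp hf).1).1)
  have h2 : (E.biUnion fibr).card = E.card * (Fintype.card U - Fintype.card Z)! := by
    rw [Finset.card_biUnion]
    · rw [Finset.sum_congr rfl h1, Finset.sum_const, smul_eq_mul]
    · intro f _ f' _ hne
      refine Finset.disjoint_left.mpr fun σ h3 h4 => hne ?_
      funext z
      have h5 := (Finset.mem_filter.mp h3).2 z
      have h6 := (Finset.mem_filter.mp h4).2 z
      exact hι (h5.symm.trans h6)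
  rw [← h2]
  refine Finset.card_le_card ?_
  intro σ hσ
  obtain ⟨f, hf, hσf⟩ := Finset.mem_biUnion.mp hσ
  have h3 := (Finset.mem_filter.mp hσf).2
  rcases Finset.mem_filter.mp hf with ⟨hf1, hf2⟩
  have hpt : ∀ z, ((σ (j z), γ z) : U × ℕ) = ptT H Δ ι (f z) := by
    intro z
    simp only [ptT, h3 z, hf2 z]
  refine mem_intoT.mpr fun e he => ?_
  rcases mem_patW.mp he with ⟨e₀, he₀, rfl⟩ | ⟨z, hz, rfl⟩
  · induction e₀ using Sym2.ind with
    | _ a b =>
      have hab : T.Adj a b := he₀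
      have h4 := (mem_Emb.mp hf1).2.1 a b hab
      refine mem_hostT.mpr (Or.inl ⟨s(f a, f b), mem_edgesF.mpr h4, ?_⟩)
      simp only [Sym2.map_mk, tmap_mk, ptJ, hpt]
  · refine mem_hostT.mpr (Or.inr ⟨f z, ?_, ?_⟩)
    · rw [hf2 z]
      exact hz
    · simp only [tmap_mk, ptJ, hpt]

/-- The number of pairs of the typed host at a typed point. -/
lemma atT_hostT_le {H : SimpleGraph V₀} {Δ : ℕ} {ι : V₀ → U} (hι : Function.Injective ι) (v : U)
    (i : ℕ) : (atT (hostT H Δ ι) (v, i)).card ≤ degT Δ i := by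
  by_cases hx : ∃ x, ptT H Δ ι x = (v, i)
  · obtain ⟨x, hx⟩ := hx
    have hc : colr H Δ x = i := congrArg Prod.snd hx
    have hsub : atT (hostT H Δ ι) (v, i) ⊆
        insert s(ptT H Δ ι x, ptT H Δ ι x)
          ((nb H x).image (fun y => s(ptT H Δ ι x, ptT H Δ ι y))) := by
      intro r hr
      rcases mem_atT.mp hr with ⟨h1, h2⟩
      rcases mem_hostT.mp h1 with ⟨e, he, rfl⟩ | ⟨x', _, rfl⟩
      · obtain ⟨y, hy, hye⟩ := Sym2.mem_map.mp h2
        have hyx : y = x := ptT_inj hι (hye.trans hx.symm)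
        subst hyx
        have he' := mem_edgesF.mp he
        induction e using Sym2.ind with
        | _ a b =>
          rcases Sym2.mem_iff.mp hy with rfl | rfl
          · refine Finset.mem_insert_of_mem (Finset.mem_image.mpr ⟨b, mem_nb.mpr he', ?_⟩)
            rfl
          · refine Finset.mem_insert_of_mem (Finset.mem_image.mpr ⟨a, mem_nb.mpr ?_, ?_⟩)
            · exact (show H.Adj a y from he').symm
            · simp only [Sym2.map_mk]
              exact Sym2.eq_swap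
      · have h3 : (v, i) = ptT H Δ ι x' := by simpa using h2
        have h4 : x' = x := ptT_inj hι (h3.symm.trans hx.symm)
        subst h4
        exact Finset.mem_insert_self _ _
    have h1 := (Finset.card_le_card hsub).trans (Finset.card_insert_le _ _)
    have h2 := Finset.card_image_le (s := nb H x) (f := fun y => s(ptT H Δ ι x, ptT H Δ ι y))
    unfold degT
    unfold colr at hc
    split_ifs at hc with h3 <;> split_ifs with h4 <;> omega
  · have h0 : atT (hostT H Δ ι) (v, i) = ∅ := by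
      refine Finset.eq_empty_of_forall_notMem fun r hr => ?_
      rcases mem_atT.mp hr with ⟨h1, h2⟩
      rcases mem_hostT.mp h1 with ⟨e, he, rfl⟩ | ⟨x', _, rfl⟩
      · obtain ⟨y, _, hye⟩ := Sym2.mem_map.mp h2
        exact hx ⟨y, hye⟩
      · have h3 : (v, i) = ptT H Δ ι x' := by simpa using h2
        exact hx ⟨x', h3.symm⟩
    rw [h0]
    simp

/-- The covered vertices of the typed host. -/
lemma vtxT_hostT_le {H : SimpleGraph V₀} {Δ n : ℕ} {ι : V₀ → U} (hV : Fintype.card V₀ ≤ n) :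
    (vtxT (hostT H Δ ι)).card ≤ n := by
  have hsub : vtxT (hostT H Δ ι) ⊆ Finset.univ.image ι := by
    intro x hx
    obtain ⟨r, hr, t, hxt⟩ := mem_vtxT.mp hx
    rcases mem_hostT.mp hr with ⟨e, he, rfl⟩ | ⟨x', _, rfl⟩
    · obtain ⟨y, _, hye⟩ := Sym2.mem_map.mp hxt
      exact Finset.mem_image.mpr ⟨y, Finset.mem_univ _, congrArg Prod.fst hye⟩
    · have h3 : (x, t) = ptT H Δ ι x' := by simpa using hxt
      exact Finset.mem_image.mpr ⟨x', Finset.mem_univ _, (congrArg Prod.fst h3).symm⟩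
  refine (Finset.card_le_card hsub).trans (Finset.card_image_le.trans ?_)
  rw [Finset.card_univ]
  exact hV

/-- The weight of a pendant typed pair. -/
lemma leaf_omegaT {n Δ : ℕ} {P a : ℝ} (hn : 0 < n) (hP2 : ((Δ : ℝ) + 1) / n ≤ P) (y z : U)
    (hyz : y ≠ z) (i : ℕ) :
    (degT Δ i : ℝ) / n ≤ omegaT P 150 a Δ s((y, i), (z, 0)) := by
  have hne : ((y, i) : U × ℕ) ≠ (z, 0) := fun h => hyz (congrArg Prod.fst h)
  rw [omegaT_ne _ _ _ _ hne]
  have hn' : (0 : ℝ) < n := by exact_mod_cast hn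
  have hrho0 : rhoT 150 Δ 0 = 1 := by simp [rhoT]
  simp only [hrho0, mul_one]
  by_cases hi : i = 0
  · subst hi
    have h1 : degT Δ 0 = Δ + 1 := by simp [degT]
    rw [h1, hrho0, mul_one]
    push_cast
    exact hP2
  · have h1 : degT Δ i = i + 1 := by simp [degT, hi]
    have h2 : rhoT 150 Δ i = 150 * ((i : ℝ) + 1) / ((Δ : ℝ) + 1) := by simp [rhoT, hi]
    rw [h1, h2]
    push_cast
    have hΔ : (0 : ℝ) < (Δ : ℝ) + 1 := by positivity
    have hi0 : (0 : ℝ) ≤ (i : ℝ) + 1 := by positivity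
    have h3 : ((Δ : ℝ) + 1) / n * (150 * ((i : ℝ) + 1) / ((Δ : ℝ) + 1)) ≤
        P * (150 * ((i : ℝ) + 1) / ((Δ : ℝ) + 1)) :=
      mul_le_mul_of_nonneg_right hP2 (by positivity)
    have h4 : ((Δ : ℝ) + 1) / n * (150 * ((i : ℝ) + 1) / ((Δ : ℝ) + 1)) =
        150 * (((i : ℝ) + 1) / n) := by
      field_simp
    have h5 : (0 : ℝ) ≤ ((i : ℝ) + 1) / n := by positivity
    linarith

/-- All points of the pattern carry the colour given by the extension of `γ`. -/
lemma cons_patW {j : Z → U} (hj : Function.Injective j) (γ : Z → ℕ) (T : SimpleGraph Z) :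
    Cons (Function.extend j γ 0) (patW j γ T) := by
  intro e he p hp
  have key : ∀ z, p = ptJ j γ z → p.2 = Function.extend j γ 0 p.1 := by
    intro z hz
    subst hz
    simp only [ptJ]
    exact (hj.extend_apply γ 0 z).symm
  rcases mem_patW.mp he with ⟨e₀, _, rfl⟩ | ⟨z, _, rfl⟩
  · obtain ⟨y, _, hy⟩ := Sym2.mem_map.mp hp
    exact key y hy.symm
  · have h3 : p = ptJ j γ z := by simpa using hp
    exact key z h3

/-- The pattern has no loop of colour zero. -/
lemma noZL_patW {j : Z → U} (hj : Function.Injective j) (γ : Z → ℕ) (T : SimpleGraph Z) :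
    NoZL (patW j γ T) := by
  intro x hx
  rcases mem_patW.mp hx with ⟨e₀, he₀, h1⟩ | ⟨z, hz, h1⟩
  · have h2 : (Sym2.map (ptJ j γ) e₀).IsDiag := by
      rw [h1]
      simp
    rw [Sym2.isDiag_map (ptJ_inj hj γ)] at h2
    exact T.not_isDiag_of_mem_edgeSet he₀ h2
  · have h2 : ptJ j γ z = (x, 0) := by
      have : ptJ j γ z ∈ s(((x, 0) : U × ℕ), (x, 0)) := by
        rw [← h1]
        simp
      simpa using this
    exact hz (congrArg Prod.snd h2)

/-- The degree in the set of edges of a graph. -/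
lemma dg_edgesF (T : SimpleGraph Z) (z : Z) : dg (edgesF T) z = (nb T z).card := by
  unfold dg
  have h1 : (edgesF T).filter (fun e => z ∈ e) = (nb T z).image (fun y => s(z, y)) := by
    ext e
    simp only [Finset.mem_filter, mem_edgesF, Finset.mem_image, mem_nb]
    constructor
    · rintro ⟨h2, h3⟩
      obtain ⟨y, rfl⟩ := Sym2.mem_iff_exists.mp h3
      exact ⟨y, h2, rfl⟩
    · rintro ⟨y, h2, rfl⟩
      exact ⟨h2, Sym2.mem_mk_left _ _⟩
  rw [h1, Finset.card_image_of_injective]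
  intro a b h
  exact Sym2.congr_right.mp h

/-- The product of the weights over a pattern. -/
theorem Om_patW {j : Z → U} (hj : Function.Injective j) (γ : Z → ℕ) (T : SimpleGraph Z)
    {Δ : ℕ} (P a : ℝ) :
    Om (fun r => 2 * omegaT P 150 a Δ r) (patW j γ T) =
      (2 * P) ^ numEdges T *
        ∏ z ∈ hubsOf γ, (12 * (wMark a (γ z) * rhoT 150 Δ (γ z) ^ (nb T z).card)) := by
  have hJ := ptJ_inj hj γ
  set ω : Sym2 (U × ℕ) → ℝ := fun r => 2 * omegaT P 150 a Δ r with hω
  set g : Z → ℝ := fun z => rhoT 150 Δ (γ z) with hg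
  have hdisj : Disjoint ((edgesF T).image (Sym2.map (ptJ j γ)))
      ((hubsOf γ).image (fun z => s(ptJ j γ z, ptJ j γ z))) := by
    refine Finset.disjoint_left.mpr fun r h1 h2 => ?_
    obtain ⟨e, he, rfl⟩ := Finset.mem_image.mp h1
    obtain ⟨z, _, hz⟩ := Finset.mem_image.mp h2
    have h3 : (Sym2.map (ptJ j γ) e).IsDiag := by
      rw [← hz]
      simp
    rw [Sym2.isDiag_map hJ] at h3
    exact T.not_isDiag_of_mem_edgeSet (mem_edgesF.mp he) h3
  have hlinj : Function.Injective (fun z => s(ptJ j γ z, ptJ j γ z)) := by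
    intro x y h
    apply hJ
    have h' : s(ptJ j γ x, ptJ j γ x) = s(ptJ j γ y, ptJ j γ y) := h
    have h1 : ptJ j γ x ∈ s(ptJ j γ y, ptJ j γ y) := by
      rw [← h']
      simp
    simpa using h1
  have h1 : Om ω (patW j γ T) = (∏ e ∈ edgesF T, ω (Sym2.map (ptJ j γ) e)) *
      ∏ z ∈ hubsOf γ, ω s(ptJ j γ z, ptJ j γ z) := by
    unfold Om patW
    rw [Finset.prod_union hdisj, Finset.prod_image (fun _ _ _ _ h => Sym2.map.injective hJ h),
      Finset.prod_image (fun _ _ _ _ h => hlinj h)]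
  have h2 : ∀ e ∈ edgesF T, ω (Sym2.map (ptJ j γ) e) = (2 * P) * ∏ x ∈ e.toFinset, g x := by
    intro e he
    have hadj := mem_edgesF.mp he
    induction e using Sym2.ind with
    | _ x y =>
      have hxy : x ≠ y := T.ne_of_adj hadj
      have h3 : (s(x, y) : Sym2 Z).toFinset = {x, y} := by
        ext z
        simp [Sym2.mem_toFinset]
      rw [h3, Finset.prod_pair hxy, Sym2.map_mk, hω]
      simp only
      rw [omegaT_ne _ _ _ _ (fun h => hxy (hJ h))]
      simp only [ptJ, hg]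
      ring
  have h3 : ∀ z ∈ hubsOf γ, ω s(ptJ j γ z, ptJ j γ z) = 12 * wMark a (γ z) := by
    intro z _
    rw [hω]
    simp only
    rw [omegaT_loop]
    simp only [ptJ]
    ring
  have h4 : ∏ e ∈ edgesF T, ∏ x ∈ e.toFinset, g x = ∏ z ∈ hubsOf γ, g z ^ (nb T z).card := by
    have h5 : ∀ z ∈ (Finset.univ : Finset Z) \ hubsOf γ, g z ^ (nb T z).card = 1 := by
      intro z hz
      have h6 : γ z = 0 := by
        by_contra h7
        exact (Finset.mem_sdiff.mp hz).2 (Finset.mem_filter.mpr ⟨Finset.mem_univ _, h7⟩)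
      simp [hg, h6, rhoT]
    have h6 : ∏ z ∈ hubsOf γ, g z ^ (nb T z).card = ∏ z, g z ^ (nb T z).card := by
      refine Finset.prod_subset (Finset.subset_univ _) fun z h7 h8 => ?_
      exact h5 z (Finset.mem_sdiff.mpr ⟨h7, h8⟩)
    rw [h6]
    have h7 : ∏ z, g z ^ (nb T z).card = ∏ z, ∏ _e ∈ (edgesF T).filter (fun e => z ∈ e), g z := by
      refine Finset.prod_congr rfl fun z _ => ?_
      rw [Finset.prod_const, ← dg_edgesF]
      rfl
    rw [h7, Finset.prod_comm' (t' := edgesF T) (s' := fun e => e.toFinset)]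
    intro x e
    simp only [Finset.mem_filter, Finset.mem_univ, true_and, Sym2.mem_toFinset]
    tauto
  rw [h1, Finset.prod_congr rfl h2, Finset.prod_congr rfl h3, Finset.prod_mul_distrib,
    Finset.prod_const, card_edgesF, h4, mul_assoc, ← Finset.prod_mul_distrib]
  congr 1
  refine Finset.prod_congr rfl fun z _ => ?_
  simp only [hg]
  ring

/-- The bound for embeddings with a fixed colour pattern. -/
theorem per_pattern {H : SimpleGraph V₀} {n Δ k : ℕ} {q P a : ℝ} (hn : 0 < n) (hq : 0 < q)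
    (hV : Fintype.card V₀ ≤ n) (hyp : ∀ F : H.Subgraph, 1 ≤ expCopies n q F.coe)
    (hden : (n : ℝ) * q ^ 2 < 1) {ι : V₀ → U} (hι : Function.Injective ι)
    (hU : Fintype.card U = 2 * n) {j : Z → U} (hj : Function.Injective j) (ha : a = n * q)
    (ha1 : 1 ≤ a) (hΔ : 6 * a ≤ Δ) (hP1 : 6 * q ≤ P) (hP2 : ((Δ : ℝ) + 1) / n ≤ P)
    (hR2 : 3 / 2 * ((Δ : ℝ) + 1) ≤ 150 ^ 2 * a) (hk1 : 1 ≤ k) (hk : (hostT H Δ ι).card < 2 ^ k)
    {T : SimpleGraph Z} (hT : T.Connected) (γ : Z → ℕ) :
    (((Emb T H Finset.univ).filter (fun f => ∀ z, colr H Δ (f z) = γ z)).card : ℝ) ≤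
      ((2 * n).descFactorial (Fintype.card Z) : ℝ) * (64 * P) ^ (numEdges T) *
        (k : ℝ) ^ (2 * cyc T + 4 * (hubsOf γ).card - 1) *
        ∏ z ∈ hubsOf γ, (12 * 32 ^ 6 * (wMark a (γ z) * (rhoT 150 Δ (γ z)) ^ (nb T z).card)) := by
  have ha0 : 0 < a := by linarith
  have hP0 : 0 < P := by
    have : 0 < 6 * q := by positivity
    linarith
  have hR3 : (3 : ℝ) ≤ 150 := by norm_num
  set E := (Emb T H Finset.univ).filter (fun f => ∀ z, colr H Δ (f z) = γ z) with hE
  set W := patW j γ T with hW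
  set Hh := hostT H Δ ι with hHh
  set ω : Sym2 (U × ℕ) → ℝ := omegaT P 150 a Δ with hω
  have h1 : E.card * (Fintype.card U - Fintype.card Z)! ≤ mt Hh W := embC_mul_le_mt hι hj γ
  have hchain := chainT (γ := Function.extend j γ 0) (Hh := Hh) (D := degT Δ) (n := n) (ω := ω) hn
    (fun r => omegaT_pos hP0 (by norm_num) ha0 r) (fun σ r => omegaT_inv _ _ _ _ σ r)
    (fun v i => atT_hostT_le hι v i) (vtxT_hostT_le hV) (by omega)
    (fun y i z hyz => leaf_omegaT hn hP2 y z hyz i)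
    (fun z t => hmark_final hn hq hV hyp hden hι hU ha ha1 hΔ hP1 hP2 hR3 hR2 z t)
    (hs_final hn hq hV hyp hden hι hU ha ha1 hΔ hP1 hP2 hR3 hR2)
    k Hh (Finset.Subset.refl _) hk W (cons_patW hj γ T) (noZL_patW hj γ T)
  have hB : (ChT k W : ℝ) ≤ 32 ^ (numEdges T + 6 * (hubsOf γ).card) *
      (k : ℝ) ^ (2 * cyc T + 4 * (hubsOf γ).card - 1) := by
    have := ChT_bound hT hj γ hk1
    exact_mod_cast this
  have hOm := Om_patW (Δ := Δ) hj γ T P a
  set b := (hubsOf γ).card with hb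
  set X := 2 * cyc T + 4 * b - 1 with hX
  set e := numEdges T with he
  set PP := ∏ z ∈ hubsOf γ, (12 * (wMark a (γ z) * rhoT 150 Δ (γ z) ^ (nb T z).card)) with hPP
  have hPP0 : 0 ≤ PP := by
    refine Finset.prod_nonneg fun z _ => ?_
    have h2 := wMark_pos ha0 (γ z)
    have h3 := rhoT_pos (R := 150) (by norm_num) Δ (γ z)
    positivity
  have hZU : Fintype.card Z ≤ 2 * n := hU ▸ Fintype.card_le_of_injective j hj
  rw [hU] at h1 hchain
  set f := ((2 * n - Fintype.card Z)! : ℝ) with hf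
  have hf0 : 0 < f := by
    rw [hf]
    exact_mod_cast Nat.factorial_pos _
  have h3' : ((2 * n)! : ℝ) = f * ((2 * n).descFactorial (Fintype.card Z) : ℝ) := by
    rw [hf]
    exact_mod_cast (Nat.factorial_mul_descFactorial hZU).symm
  have h4 : (E.card : ℝ) * f ≤ (mt Hh W : ℝ) := by
    rw [hf]
    exact_mod_cast h1
  have h5 : ∏ z ∈ hubsOf γ, (12 * 32 ^ 6 * (wMark a (γ z) * (rhoT 150 Δ (γ z)) ^ (nb T z).card)) =
      (32 ^ 6) ^ b * PP := by
    rw [hPP, hb, ← Finset.prod_const, ← Finset.prod_mul_distrib]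
    refine Finset.prod_congr rfl fun z _ => ?_
    ring
  have hOm2 : Om (fun r => 2 * ω r) W = (2 * P) ^ e * PP := hOm
  rw [hOm2] at hchain
  have hD0 : (0 : ℝ) ≤ ((2 * n).descFactorial (Fintype.card Z) : ℝ) := by positivity
  have h6 : (E.card : ℝ) * f ≤ (((2 * n).descFactorial (Fintype.card Z) : ℝ) * (64 * P) ^ e *
      (k : ℝ) ^ X * ∏ z ∈ hubsOf γ, (12 * 32 ^ 6 *
        (wMark a (γ z) * (rhoT 150 Δ (γ z)) ^ (nb T z).card))) * f := by
    refine h4.trans (hchain.trans ?_)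
    rw [h5]
    have h7 : (0 : ℝ) ≤ ((2 * n)! : ℝ) * ((2 * P) ^ e * PP) := by positivity
    calc ((2 * n)! : ℝ) * ((2 * P) ^ e * PP) * (ChT k W : ℝ)
        ≤ ((2 * n)! : ℝ) * ((2 * P) ^ e * PP) * (32 ^ (e + 6 * b) * (k : ℝ) ^ X) :=
          mul_le_mul_of_nonneg_left hB h7
      _ = _ := by
          have h64 : (64 * P) ^ e = 32 ^ e * (2 * P) ^ e := by
            rw [← mul_pow]
            congr 1
            ring
          rw [h3', pow_add, pow_mul, h64]
          ring
  exact le_of_mul_le_mul_right h6 hf0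

end Vale.Agent.Lib.P064c
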