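import Vale.Agent.Lib.P064c.Main
import Vale.Agent.Lib.P064r.Band3

/-!
The bound on the whole sparse range.
-/

namespace Vale.Agent.Lib.P064c

open Finset SimpleGraph Vale.Agent.Lib.P064 Vale.Agent.Lib.P064k Vale.Agent.Lib.P064r
open scoped Classical Nat

set_option linter.unusedSectionVars false
set_option linter.unusedVariables false

universe v

lemma aux_two_pow (j : ℕ) : 3 * (j + 9) ≤ 2 ^ (j + 6) ∧ 2 * (j + 6) * (j + 9) + 1 < 2 ^ (j + 7) := by
  induction j with
  | zero => norm_num
  | succ j ih =>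
    obtain ⟨h1, h2⟩ := ih
    have e1 : (2 : ℕ) ^ (j + 1 + 6) = 2 * 2 ^ (j + 6) := by ring
    have e2 : (2 : ℕ) ^ (j + 1 + 7) = 2 * 2 ^ (j + 7) := by ring
    rw [e1, e2]
    constructor
    · nlinarith
    · nlinarith

/-- For the number of levels `m` at least `9`, the condition of the range holds at `n q = m`. -/
lemma small_m {n m : ℕ} (hn : 2 ≤ n) (hm : m = Nat.log 2 (2 * (Nat.log 2 n + 1)) + 1)
    (h9 : 9 ≤ m) : (3 * (m : ℝ)) ^ (2 * m) < n := by
  obtain ⟨j, rfl⟩ : ∃ j, m = j + 9 := ⟨m - 9, by omega⟩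
  obtain ⟨h1, h2⟩ := aux_two_pow j
  have h3 : Nat.log 2 (2 * (Nat.log 2 n + 1)) = j + 8 := by omega
  have h4 : 2 ^ (j + 8) ≤ 2 * (Nat.log 2 n + 1) := by
    rw [← h3]
    exact Nat.pow_log_le_self 2 (by omega)
  have h5 : 2 ^ (j + 7) ≤ Nat.log 2 n + 1 := by
    have : (2 : ℕ) ^ (j + 8) = 2 * 2 ^ (j + 7) := by ring
    omega
  have h6 : 2 ^ (Nat.log 2 n) ≤ n := Nat.pow_log_le_self 2 (by omega)
  have h7 : (3 * (j + 9)) ^ (2 * (j + 9)) < n := by
    calc (3 * (j + 9)) ^ (2 * (j + 9)) ≤ (2 ^ (j + 6)) ^ (2 * (j + 9)) :=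
          Nat.pow_le_pow_left h1 _
      _ = 2 ^ (2 * (j + 6) * (j + 9)) := by
          rw [← pow_mul]
          congr 1
          ring
      _ < 2 ^ (Nat.log 2 n) := Nat.pow_lt_pow_right (by norm_num) (by omega)
      _ ≤ n := h6
  have h8 : (((3 * (j + 9)) ^ (2 * (j + 9)) : ℕ) : ℝ) < n := by exact_mod_cast h7
  push_cast at h8 ⊢
  exact h8

variable {V : Type v} [Fintype V] {n : ℕ} {H : SimpleGraph V}

/-- The constant of the sparse range. -/
noncomputable def constS : ℝ := 20736 * constW + 8 * constLow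

lemma constS_ge1 : 20736 * constW ≤ constS := by
  unfold constS
  have := constLow_pos
  linarith

lemma constS_ge2 : 8 * constLow ≤ constS := by
  unfold constS
  have := constU_ge
  unfold constW
  linarith

lemma constS_big : (4 * 10 ^ 11 : ℝ) ≤ constS := by
  have h1 := constS_ge1
  have := constU_ge
  unfold constW at h1
  linarith

/-- The case of few levels and a large density. -/
lemma sparse_tiny {a L p : ℝ} (hn : 2 ≤ n) (hV : Fintype.card V ≤ n) (hL : L = Real.log n)
    (ha : a = n * p) (hL8 : L < a) (ha8 : a < 8) {M : ℝ} (hM : 1 ≤ M) :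
    pCrit n H ≤ constS * L * M * p := by
  have hn0 : (0 : ℝ) < n := by
    have : 0 < n := by omega
    exact_mod_cast this
  have hn2 : (2 : ℝ) ≤ n := by exact_mod_cast hn
  have hL2 : 0.69 ≤ L := by
    have h1 := Real.log_two_gt_d9
    have h2 : Real.log 2 ≤ Real.log n := Real.log_le_log (by norm_num) hn2
    rw [hL]
    linarith
  have hn8 : (n : ℝ) < 3 ^ 8 := by
    have h1 : Real.log n < 8 := by
      rw [← hL]
      linarith
    have h2 : (n : ℝ) = Real.exp (Real.log n) := (Real.exp_log hn0).symm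
    have h3 : Real.exp (Real.log n) < Real.exp 8 := Real.exp_lt_exp.mpr h1
    have h4 : Real.exp 8 = Real.exp 1 ^ 8 := by
      rw [← Real.exp_nat_mul]
      norm_num
    have h5 : Real.exp 1 ^ 8 < 3 ^ 8 := by
      refine pow_lt_pow_left₀ ?_ (Real.exp_pos 1).le (by norm_num)
      have := Real.exp_one_lt_d9
      linarith
    linarith
  have hPbd : BddBelow {p : ℝ | 0 ≤ p ∧ p ≤ 1 ∧
      1 / 2 ≤ gnpProb n p (fun G => 0 < G.copyCount H)} := ⟨0, fun p hp => hp.1⟩
  have h1 : pCrit n H ≤ 1 := csInf_le hPbd ⟨zero_le_one, le_rfl, gnp_one hV⟩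
  have hC := constS_big
  have hp : L / n < p := by
    rw [div_lt_iff₀ hn0]
    nlinarith
  have hp0 : 0 < p := lt_trans (by positivity) hp
  refine h1.trans ?_
  have h2 : (1 : ℝ) / 10000 ≤ p := by
    have : (0.69 : ℝ) / 3 ^ 8 ≤ L / n := by
      refine div_le_div₀ (by linarith) hL2 hn0 hn8.le
    have h3 : (1 : ℝ) / 10000 ≤ 0.69 / 3 ^ 8 := by norm_num
    linarith
  have h3 : (1 : ℝ) ≤ constS * L * M * p := by
    have h4 : (4 * 10 ^ 11 : ℝ) * 0.69 * 1 * (1 / 10000) ≤ constS * L * M * p := by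
      refine mul_le_mul (mul_le_mul (mul_le_mul hC hL2 (by norm_num) (by linarith)) hM (by norm_num)
        (by positivity)) h2 (by norm_num) (by positivity)
    norm_num at h4
    linarith
  exact h3

/-- The bound on the sparse range. -/
theorem pCrit_sparse (hn : 2 ≤ n) (hV : Fintype.card V ≤ n) (hE : 1 ≤ numEdges H) {m : ℕ}
    (hm : m = Nat.log 2 (2 * (Nat.log 2 n + 1)) + 1)
    (hnum : (3 * (n : ℝ) * pExp n H) ^ (2 * m) < n) :
    pCrit n H ≤ constS * Real.log n *
      min (max 1 ((n : ℝ) * pExp n H)) (max 1 ((m : ℝ) / ((n : ℝ) * pExp n H))) * pExp n H := by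
  have hn0 : (0 : ℝ) < n := by
    have : 0 < n := by omega
    exact_mod_cast this
  have hL0 : 0 < Real.log n := Real.log_pos (by exact_mod_cast (by omega : 1 < n))
  obtain ⟨hp0', _, hp'⟩ := pExp_mem (H := H) hV
  obtain ⟨hp0, _⟩ := hyp_double hV hE hp0' hp'
  have hm1 : 1 ≤ m := by omega
  have hm1R : (1 : ℝ) ≤ m := by exact_mod_cast hm1
  have hM := fun (q : ℝ) (h1 : pExp n H ≤ q) (h2 : ((Nat.log 2 (2 * (Nat.log 2 n + 1)) + 1 : ℕ) : ℝ) ≤ n * q)
      (h3 : (3 * (n : ℝ) * q) ^ (2 * (Nat.log 2 (2 * (Nat.log 2 n + 1)) + 1)) < n) =>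
    pCrit_uni' hn hV hE h1 h2 h3
  rw [← hm] at hM
  generalize hpdef : pExp n H = p at *
  generalize hadef : (n : ℝ) * p = a at *
  generalize hLdef : Real.log n = L at *
  have ha0 : 0 < a := by
    rw [← hadef]
    positivity
  have hMn1 : 1 ≤ min (max 1 a) (max 1 ((m : ℝ) / a)) :=
    le_min (le_max_left _ _) (le_max_left _ _)
  set Mn := min (max 1 a) (max 1 ((m : ℝ) / a)) with hMn
  have hC1 := constS_ge1
  have hC2 := constS_ge2
  have hW0 : 0 < constW := by
    have := constU_ge
    unfold constW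
    linarith
  have hLow0 := constLow_pos
  have hpos : 0 ≤ L * p := by positivity
  have hS0 : 0 ≤ constS := by
    have := constS_big
    linarith
  by_cases hcase : (m : ℝ) ≤ a
  · have hnum' : (3 * (n : ℝ) * p) ^ (2 * m) < n := hnum
    have h := hM p le_rfl (by rw [hadef]; exact hcase) hnum'
    refine h.trans ?_
    have h1 : 20736 * constW * p * L = (20736 * constW) * (L * p) * 1 := by ring
    have h2 : constS * L * Mn * p = constS * (L * p) * Mn := by ring
    rw [h1, h2]
    exact mul_le_mul (mul_le_mul_of_nonneg_right hC1 hpos) hMn1 zero_le_one (by positivity)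
  push Not at hcase
  have hX : a ≤ L → pCrit n H ≤ constLow * L * max 1 a * p := by
    intro haL
    have h1 := pCrit_low hn hV hE (by rw [hpdef, hadef, hLdef]; exact haL)
    rw [hpdef, hadef, hLdef] at h1
    refine h1.trans ?_
    refine mul_le_mul_of_nonneg_right ?_ hp0.le
    exact mul_le_mul_of_nonneg_left (min_le_left _ _) (by positivity)
  by_cases hsm : (3 * (m : ℝ)) ^ (2 * m) < n
  · -- the first bound
    have hY : pCrit n H ≤ (20736 * constW) * (m : ℝ) / n * L := by
      have hq : p ≤ (m : ℝ) / n := by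
        rw [le_div_iff₀ hn0, mul_comm, hadef]
        exact hcase.le
      have e1 : (n : ℝ) * ((m : ℝ) / n) = m := by
        field_simp
      have e2 : 3 * (n : ℝ) * ((m : ℝ) / n) = 3 * m := by
        field_simp
      have h := hM ((m : ℝ) / n) hq (by rw [e1]) (by rw [e2]; exact hsm)
      calc pCrit n H ≤ _ := h
        _ = _ := by ring
    have hmL : (m : ℝ) ≤ L := by
      have h1 : (3 : ℝ) ^ (2 * m) ≤ (3 * (m : ℝ)) ^ (2 * m) :=
        pow_le_pow_left₀ (by norm_num) (by linarith) _
      have h2 : (3 : ℝ) ^ (2 * m) < n := lt_of_le_of_lt h1 hsm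
      have h3 : Real.exp (m : ℝ) ≤ 3 ^ (2 * m) := by
        have h4 : Real.exp (m : ℝ) = Real.exp 1 ^ m := by
          rw [← Real.exp_nat_mul]
          norm_num
        have h5 : (3 : ℝ) ^ (2 * m) = 9 ^ m := by
          rw [pow_mul]
          norm_num
        rw [h4, h5]
        refine pow_le_pow_left₀ (Real.exp_pos 1).le ?_ m
        have := Real.exp_one_lt_d9
        linarith
      have h6 : Real.exp (m : ℝ) ≤ n := by linarith
      rw [← hLdef]
      exact (Real.le_log_iff_exp_le hn0).mpr h6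
    have hX' := hX (by linarith)
    rcases min_choice (max 1 a) (max 1 ((m : ℝ) / a)) with h | h
    · rw [hMn, h]
      refine hX'.trans ?_
      have h1 : constLow * L * max 1 a * p = constLow * (L * p) * max 1 a := by ring
      have h2 : constS * L * max 1 a * p = constS * (L * p) * max 1 a := by ring
      rw [h1, h2]
      refine mul_le_mul_of_nonneg_right (mul_le_mul_of_nonneg_right ?_ hpos) (by positivity)
      linarith
    · rw [hMn, h]
      refine hY.trans ?_
      have e1 : (20736 * constW) * (m : ℝ) / n * L = (20736 * constW) * (L * p) * ((m : ℝ) / a) := by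
        rw [← hadef]
        field_simp
      have h2 : constS * L * max 1 ((m : ℝ) / a) * p = constS * (L * p) * max 1 ((m : ℝ) / a) := by ring
      rw [e1, h2]
      exact mul_le_mul (mul_le_mul_of_nonneg_right hC1 hpos) (le_max_right _ _) (by positivity)
        (by positivity)
  · -- few levels
    have hm8 : m ≤ 8 := by
      by_contra h
      exact hsm (small_m hn hm (by omega))
    have hm8R : (m : ℝ) ≤ 8 := by exact_mod_cast hm8
    have ha8 : a < 8 := by linarith
    by_cases haL : a ≤ L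
    · have hX' := hX haL
      refine hX'.trans ?_
      have h1 : constLow * L * max 1 a * p = constLow * (L * p) * max 1 a := by ring
      have h2 : constS * L * Mn * p = constS * (L * p) * Mn := by ring
      rw [h1, h2]
      have h3 : max 1 a ≤ 8 := max_le (by norm_num) ha8.le
      calc constLow * (L * p) * max 1 a ≤ constLow * (L * p) * 8 :=
            mul_le_mul_of_nonneg_left h3 (by positivity)
        _ = (8 * constLow) * (L * p) * 1 := by ring
        _ ≤ constS * (L * p) * Mn :=
            mul_le_mul (mul_le_mul_of_nonneg_right hC2 hpos) hMn1 zero_le_one (by positivity)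
    · push Not at haL
      exact sparse_tiny hn hV hLdef.symm hadef.symm haL ha8 hMn1

/-- The bound with the square root. -/
lemma min_le_sqrt {a : ℝ} {m : ℕ} (ha : 0 < a) (hm : 1 ≤ m) :
    min (max 1 a) (max 1 ((m : ℝ) / a)) ≤ Real.sqrt m := by
  have hm1 : (1 : ℝ) ≤ m := by exact_mod_cast hm
  have hs1 : 1 ≤ Real.sqrt m := by
    rw [show (1 : ℝ) = Real.sqrt 1 by simp]
    exact Real.sqrt_le_sqrt hm1
  have hs2 : Real.sqrt m * Real.sqrt m = m := Real.mul_self_sqrt (by linarith)
  by_cases h : a ≤ Real.sqrt m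
  · exact (min_le_left _ _).trans (max_le hs1 h)
  · push Not at h
    refine (min_le_right _ _).trans (max_le hs1 ?_)
    rw [div_le_iff₀ ha]
    nlinarith

end Vale.Agent.Lib.P064c
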