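import Mathlib

/-!
The planted domination lemma for typed pairs: pairs of points `(x, t)` of `U × ℕ`, with the
permutations of `U` acting on the first coordinate, and a multiplicative invariant weight.
-/

namespace Vale.Agent.Lib.P064c

open Finset
open scoped Classical Nat

set_option linter.unusedSectionVars false
set_option linter.unusedVariables false

variable {U : Type*} [Fintype U]

/-- The action of a permutation on typed pairs. -/
def tmap (σ : Equiv.Perm U) : Sym2 (U × ℕ) → Sym2 (U × ℕ) := Sym2.map (Prod.map σ id)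

@[simp] lemma tmap_mk (σ : Equiv.Perm U) (a b : U × ℕ) :
    tmap σ s(a, b) = s((σ a.1, a.2), (σ b.1, b.2)) := rfl

lemma tmap_mul (σ τ : Equiv.Perm U) (e : Sym2 (U × ℕ)) :
    tmap (σ * τ) e = tmap σ (tmap τ e) := by
  induction e using Sym2.ind with
  | _ a b => simp

lemma tmap_one (e : Sym2 (U × ℕ)) : tmap (1 : Equiv.Perm U) e = e := by
  induction e using Sym2.ind with
  | _ a b => simp

lemma prodMap_inj (σ : Equiv.Perm U) : Function.Injective (Prod.map σ (id : ℕ → ℕ)) :=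
  Function.Injective.prodMap σ.injective Function.injective_id

lemma tmap_inj (σ : Equiv.Perm U) : Function.Injective (tmap σ) :=
  Sym2.map.injective (prodMap_inj σ)

/-- The permutations sending the typed pairs `B` into `E`. -/
noncomputable def intoT (E B : Finset (Sym2 (U × ℕ))) : Finset (Equiv.Perm U) :=
  Finset.univ.filter (fun σ => ∀ e ∈ B, tmap σ e ∈ E)

/-- Their number. -/
noncomputable def mt (E B : Finset (Sym2 (U × ℕ))) : ℕ := (intoT E B).card

lemma mem_intoT {E B : Finset (Sym2 (U × ℕ))} {σ : Equiv.Perm U} :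
    σ ∈ intoT E B ↔ ∀ e ∈ B, tmap σ e ∈ E := by
  simp [intoT]

lemma mt_empty_right (E : Finset (Sym2 (U × ℕ))) : mt E ∅ = (Fintype.card U)! := by
  unfold mt intoT
  simp [Fintype.card_perm]

lemma mt_empty_left {B : Finset (Sym2 (U × ℕ))} (hB : B.Nonempty) : mt ∅ B = 0 := by
  unfold mt
  rw [Finset.card_eq_zero]
  refine Finset.eq_empty_of_forall_notMem fun σ hσ => ?_
  obtain ⟨e, he⟩ := hB
  have := mem_intoT.mp hσ e he
  simp at this

lemma mt_mono_left {E E' : Finset (Sym2 (U × ℕ))} (h : E ⊆ E') (B : Finset (Sym2 (U × ℕ))) :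
    mt E B ≤ mt E' B := by
  refine Finset.card_le_card fun σ hσ => mem_intoT.mpr fun e he => h (mem_intoT.mp hσ e he)

lemma mt_anti_right (E : Finset (Sym2 (U × ℕ))) {B B' : Finset (Sym2 (U × ℕ))} (h : B ⊆ B') :
    mt E B' ≤ mt E B := by
  refine Finset.card_le_card fun σ hσ => mem_intoT.mpr fun e he => mem_intoT.mp hσ e (h he)

/-- The image of a set of typed pairs under a permutation. -/
noncomputable def imgT (σ : Equiv.Perm U) (B : Finset (Sym2 (U × ℕ))) : Finset (Sym2 (U × ℕ)) :=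
  B.image (tmap σ)

lemma card_imgT (σ : Equiv.Perm U) (B : Finset (Sym2 (U × ℕ))) : (imgT σ B).card = B.card :=
  Finset.card_image_of_injective _ (tmap_inj σ)

/-- The count is invariant under permuting the pattern. -/
lemma mt_imgT (E : Finset (Sym2 (U × ℕ))) (σ : Equiv.Perm U) (B : Finset (Sym2 (U × ℕ))) :
    mt E (imgT σ B) = mt E B := by
  unfold mt
  refine Finset.card_bij' (fun τ _ => τ * σ) (fun τ _ => τ * σ⁻¹) ?_ ?_ ?_ ?_
  · intro τ hτ
    refine mem_intoT.mpr fun e he => ?_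
    rw [tmap_mul]
    exact mem_intoT.mp hτ _ (Finset.mem_image_of_mem _ he)
  · intro τ hτ
    refine mem_intoT.mpr fun e he => ?_
    obtain ⟨e', he', rfl⟩ := Finset.mem_image.mp he
    rw [← tmap_mul, inv_mul_cancel_right]
    exact mem_intoT.mp hτ e' he'
  · intro τ _
    simp
  · intro τ _
    simp

/-- The basic identity. -/
theorem key_identityT (H F W : Finset (Sym2 (U × ℕ))) :
    mt H F * mt H W = ∑ π : Equiv.Perm U, mt H (F ∪ imgT π W) := by
  have h1 : ∀ π : Equiv.Perm U, mt H (F ∪ imgT π W) =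
      ∑ σ ∈ intoT H F, if σ * π ∈ intoT H W then 1 else 0 := by
    intro π
    unfold mt
    rw [Finset.sum_boole, Nat.cast_id]
    congr 1
    ext σ
    simp only [mem_intoT, Finset.mem_filter, Finset.mem_union, imgT]
    constructor
    · intro h
      refine ⟨fun e he => h e (Or.inl he), fun e he => ?_⟩
      rw [tmap_mul]
      exact h _ (Or.inr (Finset.mem_image_of_mem _ he))
    · rintro ⟨h2, h3⟩ e (he | he)
      · exact h2 e he
      · obtain ⟨e', he', rfl⟩ := Finset.mem_image.mp he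
        rw [← tmap_mul]
        exact h3 e' he'
  simp_rw [h1]
  rw [Finset.sum_comm]
  have h2 : ∀ σ ∈ intoT H F,
      ∑ π : Equiv.Perm U, (if σ * π ∈ intoT H W then 1 else 0) = mt H W := by
    intro σ _
    unfold mt
    rw [Finset.sum_boole, Nat.cast_id]
    refine Finset.card_bij' (fun π _ => σ * π) (fun τ _ => σ⁻¹ * τ) ?_ ?_ ?_ ?_
    · intro π hπ
      exact (Finset.mem_filter.mp hπ).2
    · intro τ hτ
      refine Finset.mem_filter.mpr ⟨Finset.mem_univ _, ?_⟩
      simpa using hτ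
    · intro π _
      simp
    · intro τ _
      simp
  rw [Finset.sum_congr rfl h2, Finset.sum_const, smul_eq_mul]
  rfl

/-- The weight of a set of typed pairs. -/
noncomputable def Om (ω : Sym2 (U × ℕ) → ℝ) (S : Finset (Sym2 (U × ℕ))) : ℝ := ∏ r ∈ S, ω r

lemma Om_pos {ω : Sym2 (U × ℕ) → ℝ} (hω : ∀ r, 0 < ω r) (S : Finset (Sym2 (U × ℕ))) :
    0 < Om ω S := Finset.prod_pos fun r _ => hω r

lemma Om_imgT {ω : Sym2 (U × ℕ) → ℝ} (hinv : ∀ (σ : Equiv.Perm U) r, ω (tmap σ r) = ω r)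
    (σ : Equiv.Perm U) (S : Finset (Sym2 (U × ℕ))) : Om ω (imgT σ S) = Om ω S := by
  unfold Om imgT
  rw [Finset.prod_image (fun a _ b _ h => tmap_inj σ h)]
  exact Finset.prod_congr rfl fun r _ => hinv σ r

lemma Om_union_sdiff {ω : Sym2 (U × ℕ) → ℝ} (F S : Finset (Sym2 (U × ℕ))) :
    Om ω (F ∪ S) = Om ω F * Om ω (S \ F) := by
  unfold Om
  rw [← Finset.union_sdiff_self_eq_union, Finset.prod_union Finset.disjoint_sdiff]

lemma Om_sdiff_mul {ω : Sym2 (U × ℕ) → ℝ} {K W : Finset (Sym2 (U × ℕ))} (h : K ⊆ W) :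
    Om ω (W \ K) * Om ω K = Om ω W := by
  unfold Om
  exact Finset.prod_sdiff h

/-- The extremal subset. -/
theorem exists_extremalT (H : Finset (Sym2 (U × ℕ))) {ω : Sym2 (U × ℕ) → ℝ} (hω : ∀ r, 0 < ω r)
    (hinv : ∀ (σ : Equiv.Perm U) r, ω (tmap σ r) = ω r) :
    ∃ F ⊆ H, ∀ S : Finset (Sym2 (U × ℕ)), (mt H S : ℝ) * Om ω F ≤ (mt H F : ℝ) * Om ω S := by
  obtain ⟨F, hF, hmax⟩ := Finset.exists_max_image H.powerset
    (fun S => (mt H S : ℝ) / Om ω S) ⟨∅, Finset.empty_mem_powerset H⟩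
  refine ⟨F, Finset.mem_powerset.mp hF, fun S => ?_⟩
  have hp1 := Om_pos hω
  by_cases hS : mt H S = 0
  · rw [hS]
    simp only [Nat.cast_zero, zero_mul]
    have := hp1 S
    positivity
  · have hne : (intoT H S).Nonempty := Finset.card_pos.mp (Nat.pos_of_ne_zero hS)
    obtain ⟨σ, hσ⟩ := hne
    have h1 : imgT σ S ∈ H.powerset := by
      refine Finset.mem_powerset.mpr fun e he => ?_
      obtain ⟨e', he', rfl⟩ := Finset.mem_image.mp he
      exact mem_intoT.mp hσ e' he'
    have h2 := hmax _ h1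
    beta_reduce at h2
    rw [mt_imgT, Om_imgT hinv, div_le_div_iff₀ (hp1 _) (hp1 _)] at h2
    exact h2

/-- The planted domination bound. -/
theorem plantedT {H F : Finset (Sym2 (U × ℕ))} {ω : Sym2 (U × ℕ) → ℝ} (hω : ∀ r, 0 < ω r)
    (hinv : ∀ (σ : Equiv.Perm U) r, ω (tmap σ r) = ω r) (hFH : F ⊆ H)
    (hF : ∀ S : Finset (Sym2 (U × ℕ)), (mt H S : ℝ) * Om ω F ≤ (mt H F : ℝ) * Om ω S)
    (hpos : 0 < mt H F) (W : Finset (Sym2 (U × ℕ))) :
    (mt H W : ℝ) ≤ ∑ A ∈ W.powerset, Om ω (W \ A) * (mt F A : ℝ) := by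
  have hpos' : (0 : ℝ) < mt H F := by exact_mod_cast hpos
  -- the overlap of the image of `W` with `F`
  set ov : Equiv.Perm U → Finset (Sym2 (U × ℕ)) := fun π => W.filter (fun e => tmap π e ∈ F) with hov
  have hOm : ∀ π : Equiv.Perm U, Om ω (F ∪ imgT π W) = Om ω F * Om ω (W \ ov π) := by
    intro π
    rw [Om_union_sdiff]
    congr 1
    have h2 : (imgT π W \ F) = imgT π (W \ ov π) := by
      ext e
      simp only [imgT, Finset.mem_sdiff, Finset.mem_image, hov, Finset.mem_filter]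
      constructor
      · rintro ⟨⟨a, ha, rfl⟩, h⟩
        exact ⟨a, ⟨ha, fun h3 => h h3.2⟩, rfl⟩
      · rintro ⟨a, ⟨ha, h⟩, rfl⟩
        exact ⟨⟨a, ha, rfl⟩, fun h3 => h ⟨ha, h3⟩⟩
    rw [h2, Om_imgT hinv]
  have h1 : ∀ π : Equiv.Perm U, (mt H (F ∪ imgT π W) : ℝ) ≤
      (mt H F : ℝ) * Om ω (W \ ov π) := by
    intro π
    have h2 := hF (F ∪ imgT π W)
    rw [hOm] at h2
    have h3 : (0 : ℝ) < Om ω F := Om_pos hω _
    have h4 : (mt H (F ∪ imgT π W) : ℝ) * Om ω F ≤
        ((mt H F : ℝ) * Om ω (W \ ov π)) * Om ω F := by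
      calc _ ≤ _ := h2
        _ = _ := by ring
    exact le_of_mul_le_mul_right h4 h3
  have h2 : (mt H F : ℝ) * (mt H W : ℝ) ≤
      (mt H F : ℝ) * ∑ π : Equiv.Perm U, Om ω (W \ ov π) := by
    have h3 : ((mt H F * mt H W : ℕ) : ℝ) = ∑ π : Equiv.Perm U, (mt H (F ∪ imgT π W) : ℝ) := by
      rw [key_identityT]
      push_cast
      rfl
    push_cast at h3
    rw [h3, Finset.mul_sum]
    exact Finset.sum_le_sum fun π _ => h1 π
  have h3 : (mt H W : ℝ) ≤ ∑ π : Equiv.Perm U, Om ω (W \ ov π) :=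
    le_of_mul_le_mul_left h2 hpos'
  refine h3.trans ?_
  -- group by the overlap
  have h4 : ∀ π ∈ (Finset.univ : Finset (Equiv.Perm U)), ov π ∈ W.powerset := fun π _ =>
    Finset.mem_powerset.mpr (Finset.filter_subset _ _)
  rw [← Finset.sum_fiberwise_of_maps_to h4]
  refine Finset.sum_le_sum fun A hA => ?_
  have h5 : ∑ π ∈ (Finset.univ : Finset (Equiv.Perm U)).filter (fun π => ov π = A),
      Om ω (W \ ov π) =
      (((Finset.univ : Finset (Equiv.Perm U)).filter (fun π => ov π = A)).card : ℝ) *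
        Om ω (W \ A) := by
    rw [Finset.sum_congr rfl (g := fun _ => Om ω (W \ A))]
    · rw [Finset.sum_const, nsmul_eq_mul]
    · intro π hπ
      rw [(Finset.mem_filter.mp hπ).2]
  rw [h5, mul_comm]
  refine mul_le_mul_of_nonneg_left ?_ (Om_pos hω _).le
  have h6 : (Finset.univ : Finset (Equiv.Perm U)).filter (fun π => ov π = A) ⊆ intoT F A := by
    intro π hπ
    refine mem_intoT.mpr fun e he => ?_
    have h7 := (Finset.mem_filter.mp hπ).2
    rw [← h7] at he
    exact (Finset.mem_filter.mp he).2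
  exact_mod_cast Finset.card_le_card h6

end Vale.Agent.Lib.P064c
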