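import Vale.Agent.Lib.P064c.Wts

/-!
The typed pairs of a graph with a colouring of its vertices, and the passage from embeddings with
prescribed colours to permutations.
-/

namespace Vale.Agent.Lib.P064c

open Finset SimpleGraph Vale.Agent.Lib.P064 Vale.Agent.Lib.P064k
open scoped Classical Nat

set_option linter.unusedSectionVars false
set_option linter.unusedVariables false

universe u u' v

variable {U : Type u'} [Fintype U]

section Typed

variable {A : Type*} [Fintype A]

/-- The typed pairs of a coloured graph: the edges with their colours and a loop at every vertex of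
nonzero colour. -/
noncomputable def typedOf (G : SimpleGraph A) (ι : A → U) (c : A → ℕ) : Finset (Sym2 (U × ℕ)) :=
  (edgesF G).image (Sym2.map (fun v => (ι v, c v))) ∪
    (Finset.univ.filter (fun v => c v ≠ 0)).image (fun v => s((ι v, c v), (ι v, c v)))

lemma mem_typedOf {G : SimpleGraph A} {ι : A → U} {c : A → ℕ} {e : Sym2 (U × ℕ)} :
    e ∈ typedOf G ι c ↔ (∃ a b, G.Adj a b ∧ e = s((ι a, c a), (ι b, c b))) ∨
      (∃ v, c v ≠ 0 ∧ e = s((ι v, c v), (ι v, c v))) := by
  unfold typedOf
  simp only [Finset.mem_union, Finset.mem_image, Finset.mem_filter, Finset.mem_univ, true_and]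
  constructor
  · rintro (⟨e', he', rfl⟩ | ⟨v, hv, rfl⟩)
    · left
      have h1 := mem_edgesF.mp he'
      induction e' using Sym2.ind with
      | _ a b => exact ⟨a, b, h1, rfl⟩
    · exact Or.inr ⟨v, hv, rfl⟩
  · rintro (⟨a, b, hab, rfl⟩ | ⟨v, hv, rfl⟩)
    · exact Or.inl ⟨s(a, b), mem_edgesF.mpr hab, rfl⟩
    · exact Or.inr ⟨v, hv, rfl⟩

lemma cons_typedOf {G : SimpleGraph A} {ι : A → U} (hι : Function.Injective ι) {c : A → ℕ}
    {γ : U → ℕ} (hγ : ∀ a, γ (ι a) = c a) : Cons γ (typedOf G ι c) := by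
  intro e he p hp
  rcases mem_typedOf.mp he with ⟨a, b, _, rfl⟩ | ⟨v, _, rfl⟩
  · rcases Sym2.mem_iff.mp hp with rfl | rfl
    · exact (hγ a).symm
    · exact (hγ b).symm
  · rcases Sym2.mem_iff.mp hp with rfl | rfl <;> exact (hγ v).symm

lemma noZL_typedOf {G : SimpleGraph A} {ι : A → U} (hι : Function.Injective ι) {c : A → ℕ} :
    NoZL (typedOf G ι c) := by
  intro x hx
  rcases mem_typedOf.mp hx with ⟨a, b, hab, h⟩ | ⟨v, hv, h⟩
  · have h1 : (ι a, c a) ∈ s((x, 0), (x, 0)) := h ▸ Sym2.mem_mk_left _ _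
    have h2 : (ι b, c b) ∈ s((x, 0), (x, 0)) := h ▸ Sym2.mem_mk_right _ _
    have h3 : ι a = x := by
      rcases Sym2.mem_iff.mp h1 with h4 | h4 <;> exact congrArg Prod.fst h4
    have h4 : ι b = x := by
      rcases Sym2.mem_iff.mp h2 with h5 | h5 <;> exact congrArg Prod.fst h5
    exact hab.ne (hι (h3.trans h4.symm))
  · have h1 : (ι v, c v) ∈ s((x, 0), (x, 0)) := h ▸ Sym2.mem_mk_left _ _
    have h3 : c v = 0 := by
      rcases Sym2.mem_iff.mp h1 with h4 | h4 <;> exact congrArg Prod.snd h4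
    exact hv h3

/-- The covered vertices are images. -/
lemma vtxT_typedOf_le {G : SimpleGraph A} {ι : A → U} {c : A → ℕ} :
    (vtxT (typedOf G ι c)).card ≤ Fintype.card A := by
  have hsub : vtxT (typedOf G ι c) ⊆ Finset.univ.image ι := by
    intro x hx
    obtain ⟨e, he, t, hxe⟩ := mem_vtxT.mp hx
    rcases mem_typedOf.mp he with ⟨a, b, _, rfl⟩ | ⟨v, _, rfl⟩
    · rcases Sym2.mem_iff.mp hxe with h | h
      · exact Finset.mem_image.mpr ⟨a, Finset.mem_univ _, (congrArg Prod.fst h).symm⟩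
      · exact Finset.mem_image.mpr ⟨b, Finset.mem_univ _, (congrArg Prod.fst h).symm⟩
    · rcases Sym2.mem_iff.mp hxe with h | h <;>
        exact Finset.mem_image.mpr ⟨v, Finset.mem_univ _, (congrArg Prod.fst h).symm⟩
  refine (Finset.card_le_card hsub).trans (Finset.card_image_le.trans ?_)
  rw [Finset.card_univ]

/-- The pairs at a typed point. -/
lemma atT_typedOf_le {G : SimpleGraph A} {ι : A → U} (hι : Function.Injective ι) {c : A → ℕ}
    {D : ℕ → ℕ} (hD : ∀ a, (nb G a).card + (if c a = 0 then 0 else 1) ≤ D (c a)) (v : U) (i : ℕ) :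
    (atT (typedOf G ι c) (v, i)).card ≤ D i := by
  by_cases hx : ∃ a, ι a = v ∧ c a = i
  · obtain ⟨a, rfl, rfl⟩ := hx
    refine le_trans ?_ (hD a)
    have hsub : atT (typedOf G ι c) (ι a, c a) ⊆
        (nb G a).image (fun b => s((ι a, c a), (ι b, c b))) ∪
          (if c a = 0 then ∅ else {s((ι a, c a), (ι a, c a))}) := by
      intro e he
      rcases mem_atT.mp he with ⟨h1, h2⟩
      rcases mem_typedOf.mp h1 with ⟨x, y, hxy, rfl⟩ | ⟨w, hw, rfl⟩
      · refine Finset.mem_union_left _ ?_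
        rcases Sym2.mem_iff.mp h2 with h3 | h3
        · have h4 : a = x := hι (congrArg Prod.fst h3)
          subst h4
          exact Finset.mem_image.mpr ⟨y, mem_nb.mpr hxy, rfl⟩
        · have h4 : a = y := hι (congrArg Prod.fst h3)
          subst h4
          exact Finset.mem_image.mpr ⟨x, mem_nb.mpr hxy.symm, Sym2.eq_swap⟩
      · refine Finset.mem_union_right _ ?_
        have h4 : a = w := by
          rcases Sym2.mem_iff.mp h2 with h3 | h3 <;> exact hι (congrArg Prod.fst h3)
        subst h4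
        rw [if_neg hw]
        exact Finset.mem_singleton_self _
    refine (Finset.card_le_card hsub).trans ((Finset.card_union_le _ _).trans ?_)
    refine Nat.add_le_add Finset.card_image_le ?_
    split_ifs <;> simp
  · have h0 : atT (typedOf G ι c) (v, i) = ∅ := by
      refine Finset.eq_empty_of_forall_notMem fun e he => hx ?_
      rcases mem_atT.mp he with ⟨h1, h2⟩
      rcases mem_typedOf.mp h1 with ⟨x, y, hxy, rfl⟩ | ⟨w, hw, rfl⟩
      · rcases Sym2.mem_iff.mp h2 with h3 | h3
        · exact ⟨x, (congrArg Prod.fst h3).symm, (congrArg Prod.snd h3).symm⟩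
        · exact ⟨y, (congrArg Prod.fst h3).symm, (congrArg Prod.snd h3).symm⟩
      · rcases Sym2.mem_iff.mp h2 with h3 | h3 <;>
          exact ⟨w, (congrArg Prod.fst h3).symm, (congrArg Prod.snd h3).symm⟩
    rw [h0]
    simp

end Typed

section Bridge

variable {Z : Type u} [Fintype Z] {V₀ : Type v} [Fintype V₀]

/-- The embeddings with prescribed colours. -/
noncomputable def EmbC (T : SimpleGraph Z) (H : SimpleGraph V₀) (c₀ : V₀ → ℕ) (γ : Z → ℕ) :
    Finset (Z → V₀) :=
  (Emb T H Finset.univ).filter (fun f => ∀ z, c₀ (f z) = γ z)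

/-- From coloured embeddings to permutations. -/
lemma embC_mul_le_mt {T : SimpleGraph Z} {H : SimpleGraph V₀} {c₀ : V₀ → ℕ} {γ : Z → ℕ}
    {ι : V₀ → U} (hι : Function.Injective ι) {j : Z → U} (hj : Function.Injective j) :
    (EmbC T H c₀ γ).card * (Fintype.card U - Fintype.card Z)! ≤
      mt (typedOf H ι c₀) (typedOf T j γ) := by
  set fibr : (Z → V₀) → Finset (Equiv.Perm U) := fun f =>
    (Finset.univ : Finset (Equiv.Perm U)).filter (fun σ => ∀ z, σ (j z) = ι (f z)) with hfibr
  have hEmb : ∀ f ∈ EmbC T H c₀ γ, f ∈ Emb T H Finset.univ := fun f hf =>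
    (Finset.mem_filter.mp hf).1
  have h1 : ∀ f ∈ EmbC T H c₀ γ, (fibr f).card = (Fintype.card U - Fintype.card Z)! := by
    intro f hf
    exact fib_card hj (hι.comp (mem_Emb.mp (hEmb f hf)).1)
  have h2 : ((EmbC T H c₀ γ).biUnion fibr).card =
      (EmbC T H c₀ γ).card * (Fintype.card U - Fintype.card Z)! := by
    rw [Finset.card_biUnion]
    · rw [Finset.sum_congr rfl h1, Finset.sum_const, smul_eq_mul]
    · intro f _ f' _ hne
      refine Finset.disjoint_left.mpr fun σ h3 h4 => hne ?_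
      funext z
      have h5 := (Finset.mem_filter.mp h3).2 z
      have h6 := (Finset.mem_filter.mp h4).2 z
      exact hι (h5.symm.trans h6)
  rw [← h2]
  refine Finset.card_le_card ?_
  intro σ hσ
  obtain ⟨f, hf, hσf⟩ := Finset.mem_biUnion.mp hσ
  have h3 := (Finset.mem_filter.mp hσf).2
  have hfc := (Finset.mem_filter.mp hf).2
  refine mem_intoT.mpr fun e he => ?_
  rcases mem_typedOf.mp he with ⟨a, b, hab, rfl⟩ | ⟨z, hz, rfl⟩
  · rw [tmap_mk]
    simp only [h3]
    rw [← hfc a, ← hfc b]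
    exact mem_typedOf.mpr (Or.inl ⟨_, _, (mem_Emb.mp (hEmb f hf)).2.1 a b hab, rfl⟩)
  · rw [tmap_mk]
    simp only [h3]
    rw [← hfc z]
    refine mem_typedOf.mpr (Or.inr ⟨f z, ?_, rfl⟩)
    rw [hfc z]
    exact hz

/-- The embeddings are the union of the coloured embeddings. -/
lemma emb_card_le_sum {T : SimpleGraph Z} {H : SimpleGraph V₀} {c₀ : V₀ → ℕ}
    {Γ : Finset (Z → ℕ)} (hΓ : ∀ f ∈ Emb T H Finset.univ, (fun z => c₀ (f z)) ∈ Γ) :
    (Emb T H Finset.univ).card ≤ ∑ γ ∈ Γ, (EmbC T H c₀ γ).card := by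
  have hsub : Emb T H Finset.univ ⊆ Γ.biUnion (fun γ => EmbC T H c₀ γ) := by
    intro f hf
    exact Finset.mem_biUnion.mpr ⟨_, hΓ f hf, Finset.mem_filter.mpr ⟨hf, fun z => rfl⟩⟩
  exact (Finset.card_le_card hsub).trans Finset.card_biUnion_le

/-- A vertex of colour `c₀ (f z)`, an exact degree, has at least the degree of `z`. -/
lemma deg_le_of_emb {T : SimpleGraph Z} {H : SimpleGraph V₀} {f : Z → V₀}
    (hf : f ∈ Emb T H Finset.univ) (z : Z) : (nb T z).card ≤ (nb H (f z)).card := by
  rcases mem_Emb.mp hf with ⟨h1, h2, _⟩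
  refine Finset.card_le_card_of_injOn f ?_ (fun a _ b _ h => h1 h)
  intro y hy
  exact Finset.mem_coe.mpr (mem_nb.mpr (h2 _ _ (mem_nb.mp (Finset.mem_coe.mp hy))))

end Bridge

/-- The product of a function of the endpoints over the edges of a graph. -/
lemma prod_edges_eq {A : Type*} [Fintype A] (G : SimpleGraph A) (g : A → ℝ) :
    ∏ e ∈ edgesF G, ∏ x ∈ e.toFinset, g x = ∏ x, g x ^ (nb G x).card := by
  have h1 : ∏ e ∈ edgesF G, ∏ x ∈ e.toFinset, g x =
      ∏ x, ∏ e ∈ (edgesF G).filter (fun e => x ∈ e), g x := by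
    rw [Finset.prod_comm' (s' := fun x => (edgesF G).filter (fun e => x ∈ e))
      (t' := Finset.univ)]
    intro e x
    simp only [Sym2.mem_toFinset, Finset.mem_filter, Finset.mem_univ, true_and]
    tauto
  rw [h1]
  refine Finset.prod_congr rfl fun x _ => ?_
  rw [Finset.prod_const]
  congr 1
  refine Finset.card_bij' (fun e he => Sym2.Mem.other' (Finset.mem_filter.mp he).2)
    (fun y _ => s(x, y)) ?_ ?_ ?_ ?_
  · intro e he
    have h2 := Finset.mem_filter.mp he
    have h3 := mem_edgesF.mp h2.1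
    refine mem_nb.mpr ?_
    have h4 : s(x, Sym2.Mem.other' h2.2) = e := Sym2.other_spec' h2.2
    rw [← h4] at h3
    exact h3
  · intro y hy
    exact Finset.mem_filter.mpr ⟨mem_edgesF.mpr (mem_nb.mp hy), Sym2.mem_mk_left _ _⟩
  · intro e he
    exact Sym2.other_spec' (Finset.mem_filter.mp he).2
  · intro y hy
    have h2 : x ∈ s(x, y) := Sym2.mem_mk_left _ _
    have h4 : s(x, Sym2.Mem.other' h2) = s(x, y) := Sym2.other_spec' h2
    exact Sym2.congr_right.mp h4


lemma hostT_eq {V₀ : Type v} [Fintype V₀] (H : SimpleGraph V₀) (Δ : ℕ) (ι : V₀ → U) :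
    hostT H Δ ι = typedOf H ι (colr H Δ) := rfl

/-- The weight of the pattern of a coloured graph. -/
lemma Om_typedOf {Z : Type u} [Fintype Z] {T : SimpleGraph Z} {j : Z → U}
    (hj : Function.Injective j) (γ : Z → ℕ) (P R a : ℝ) (Δ : ℕ) :
    Om (fun r => 2 * omegaT P R a Δ r) (typedOf T j γ) =
      (2 * P) ^ numEdges T * (∏ z, rhoT R Δ (γ z) ^ (nb T z).card) *
        ∏ z ∈ Finset.univ.filter (fun z => γ z ≠ 0), (2 * (6 * wMark a (γ z))) := by
  unfold Om typedOf
  have hJ : Function.Injective (fun z => (j z, γ z)) := fun a b h => hj (congrArg Prod.fst h)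
  have hdisj : Disjoint ((edgesF T).image (Sym2.map (fun v => (j v, γ v))))
      ((Finset.univ.filter (fun v => γ v ≠ 0)).image
        (fun v => s((j v, γ v), (j v, γ v)))) := by
    refine Finset.disjoint_left.mpr fun e h1 h2 => ?_
    obtain ⟨e', he', rfl⟩ := Finset.mem_image.mp h1
    obtain ⟨z, _, hz⟩ := Finset.mem_image.mp h2
    have h3 := mem_edgesF.mp he'
    induction e' using Sym2.ind with
    | _ x y =>
      have hxy : T.Adj x y := h3
      have h4 : (j x, γ x) ∈ s((j z, γ z), (j z, γ z)) := by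
        rw [hz]
        exact Sym2.mem_mk_left _ _
      have h5 : (j y, γ y) ∈ s((j z, γ z), (j z, γ z)) := by
        rw [hz]
        exact Sym2.mem_mk_right _ _
      have h6 : (j x, γ x) = (j z, γ z) := by
        rcases Sym2.mem_iff.mp h4 with h | h <;> exact h
      have h7 : (j y, γ y) = (j z, γ z) := by
        rcases Sym2.mem_iff.mp h5 with h | h <;> exact h
      exact hxy.ne (hJ (h6.trans h7.symm))
  rw [Finset.prod_union hdisj, Finset.prod_image (fun a _ b _ h => Sym2.map.injective hJ h),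
    Finset.prod_image]
  · have h1 : ∀ e ∈ edgesF T, 2 * omegaT P R a Δ (Sym2.map (fun v => (j v, γ v)) e) =
        (2 * P) * ∏ x ∈ e.toFinset, rhoT R Δ (γ x) := by
      intro e he
      have h3 := mem_edgesF.mp he
      induction e using Sym2.ind with
      | _ x y =>
        have hxy : T.Adj x y := h3
        have hne : (j x, γ x) ≠ (j y, γ y) := fun h => hxy.ne (hJ h)
        rw [Sym2.map_mk, omegaT_ne _ _ _ _ hne, Sym2.toFinset_mk_eq,
          Finset.prod_pair hxy.ne]
        ring
    rw [Finset.prod_congr rfl h1, Finset.prod_mul_distrib, Finset.prod_const, card_edgesF,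
      prod_edges_eq T (fun z => rhoT R Δ (γ z))]
    congr 1
    refine Finset.prod_congr rfl fun z _ => ?_
    rw [omegaT_loop]
  · intro x hx y hy h
    have h0 : s((j x, γ x), (j x, γ x)) = s((j y, γ y), (j y, γ y)) := h
    have h4 : (j x, γ x) ∈ s((j y, γ y), (j y, γ y)) := by
      rw [← h0]
      exact Sym2.mem_mk_left _ _
    rcases Sym2.mem_iff.mp h4 with h5 | h5 <;> exact hJ h5

end Vale.Agent.Lib.P064c
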