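import Vale.Agent.Lib.P064c.TChain
import Vale.Agent.Lib.P064k.Uni

/-!
The typed host of a graph and the weights of typed pairs.
-/

namespace Vale.Agent.Lib.P064c

open Finset SimpleGraph Vale.Agent.Lib.P064 Vale.Agent.Lib.P064k
open scoped Classical Nat

set_option linter.unusedSectionVars false
set_option linter.unusedVariables false

universe u v

variable {U : Type*} [Fintype U] {V₀ : Type v} [Fintype V₀]

/-- The colour of a vertex: `0` for degree at most `Δ`, the exact degree otherwise. -/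
noncomputable def colr (H : SimpleGraph V₀) (Δ : ℕ) (x : V₀) : ℕ :=
  if (nb H x).card ≤ Δ then 0 else (nb H x).card

/-- The typed point of a vertex. -/
noncomputable def ptT (H : SimpleGraph V₀) (Δ : ℕ) (ι : V₀ → U) (x : V₀) : U × ℕ :=
  (ι x, colr H Δ x)

/-- The typed host: the typed edges, and a loop at each vertex of positive colour. -/
noncomputable def hostT (H : SimpleGraph V₀) (Δ : ℕ) (ι : V₀ → U) : Finset (Sym2 (U × ℕ)) :=
  (edgesF H).image (Sym2.map (ptT H Δ ι)) ∪
    (Finset.univ.filter (fun x => colr H Δ x ≠ 0)).image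
      (fun x => s(ptT H Δ ι x, ptT H Δ ι x))

/-- The degree bound of a colour. -/
def degT (Δ : ℕ) (i : ℕ) : ℕ := if i = 0 then Δ + 1 else i + 1

/-- The mark weight `w_t = (2 e a / (t-4))^(t-4)`. -/
noncomputable def wMark (a : ℝ) (t : ℕ) : ℝ := (2 * Real.exp 1 * a / ((t - 4 : ℕ) : ℝ)) ^ (t - 4)

/-- The edge factor of a colour. -/
noncomputable def rhoT (R : ℝ) (Δ : ℕ) (t : ℕ) : ℝ :=
  if t = 0 then 1 else R * ((t : ℝ) + 1) / ((Δ : ℝ) + 1)

/-- The weight of a typed pair: `6 w_t` for a loop, `P ρ_i ρ_j` for the other pairs. -/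
noncomputable def omegaT (P R a : ℝ) (Δ : ℕ) : Sym2 (U × ℕ) → ℝ :=
  Sym2.lift ⟨fun p p' => if p = p' then 6 * wMark a p.2 else P * rhoT R Δ p.2 * rhoT R Δ p'.2, by
    intro p p'
    by_cases h : p = p'
    · subst h
      rfl
    · have h' : ¬ p' = p := fun h2 => h h2.symm
      simp only [h, h', if_false]
      ring⟩

@[simp] lemma omegaT_loop (P R a : ℝ) (Δ : ℕ) (p : U × ℕ) :
    omegaT P R a Δ s(p, p) = 6 * wMark a p.2 := by
  simp [omegaT]

lemma omegaT_ne (P R a : ℝ) (Δ : ℕ) {p p' : U × ℕ} (h : p ≠ p') :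
    omegaT P R a Δ s(p, p') = P * rhoT R Δ p.2 * rhoT R Δ p'.2 := by
  simp [omegaT, h]

lemma wMark_pos {a : ℝ} (ha : 0 < a) (t : ℕ) : 0 < wMark a t := by
  unfold wMark
  by_cases h : t - 4 = 0
  · rw [h]
    simp
  · have : (0 : ℝ) < ((t - 4 : ℕ) : ℝ) := by exact_mod_cast Nat.pos_of_ne_zero h
    have he := Real.exp_pos 1
    positivity

lemma rhoT_pos {R : ℝ} (hR : 0 < R) (Δ t : ℕ) : 0 < rhoT R Δ t := by
  unfold rhoT
  split_ifs
  · exact one_pos
  · positivity

lemma omegaT_pos {P R a : ℝ} {Δ : ℕ} (hP : 0 < P) (hR : 0 < R) (ha : 0 < a)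
    (r : Sym2 (U × ℕ)) : 0 < omegaT P R a Δ r := by
  induction r using Sym2.ind with
  | _ p p' =>
    by_cases h : p = p'
    · subst h
      rw [omegaT_loop]
      have := wMark_pos ha p.2
      positivity
    · rw [omegaT_ne _ _ _ _ h]
      have h1 := rhoT_pos hR Δ p.2
      have h2 := rhoT_pos hR Δ p'.2
      positivity

lemma omegaT_inv (P R a : ℝ) (Δ : ℕ) (σ : Equiv.Perm U) (r : Sym2 (U × ℕ)) :
    omegaT P R a Δ (tmap σ r) = omegaT P R a Δ r := by
  induction r using Sym2.ind with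
  | _ p p' =>
    rw [tmap_mk]
    by_cases h : p = p'
    · subst h
      rw [omegaT_loop, omegaT_loop]
    · have h' : (σ p.1, p.2) ≠ (σ p'.1, p'.2) := by
        intro h2
        apply h
        have h3 := σ.injective (congrArg Prod.fst h2)
        have h4 := congrArg Prod.snd h2
        exact Prod.ext h3 h4
      rw [omegaT_ne _ _ _ _ h, omegaT_ne _ _ _ _ h']

end Vale.Agent.Lib.P064c
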